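import Mathlib

namespace Vale.Agent.P046

open Classical in
/-- one step: delete the three edges of a uniformly random triangle, if there is one -/
noncomputable def step {n : ℕ} (G : SimpleGraph (Fin n)) : PMF (SimpleGraph (Fin n)) :=
  if h : (G.cliqueFinset 3).Nonempty then
    (PMF.uniformOfFinset (G.cliqueFinset 3) h).map fun T => G.deleteEdges (T.sym2 : Set (Sym2 (Fin n)))
  else PMF.pure G

/-- law of the graph after `k` steps -/
noncomputable def run {n : ℕ} : ℕ → SimpleGraph (Fin n) → PMF (SimpleGraph (Fin n))
  | 0, G => PMF.pure G
  | k + 1, G => (step G).bind (run k)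

/-- law of the number of edges of the final graph of the process started at the complete graph -/
noncomputable def law (n : ℕ) : PMF ℕ := (run (n ^ 2) (⊤ : SimpleGraph (Fin n))).map fun G => G.edgeSet.ncard

end Vale.Agent.P046
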