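import Vale.Agent.P046.Defs

namespace Vale.Agent.P046

namespace L3

open Finset

variable {α : Type} [DecidableEq α] (G : L3 α)

theorem sum_sum (φ : α → ℝ) : ∑ T ∈ G.H, ∑ e ∈ T, φ e = ∑ e ∈ G.V, G.deg e * φ e := by
  have h1 : ∀ T ∈ G.H, ∑ e ∈ T, φ e = ∑ e ∈ G.V, if e ∈ T then φ e else 0 := by
    intro T hT
    rw [← sum_filter, filter_mem_eq_inter, inter_eq_right.2 (G.sub T hT)]
  rw [sum_congr rfl h1, sum_comm]
  refine sum_congr rfl fun e _ => ?_
  rw [← sum_filter, sum_const, nsmul_eq_mul, deg]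

theorem sum_deg : ∑ e ∈ G.V, (G.deg e : ℝ) = 3 * G.Q := by
  have h := G.sum_sum fun _ => 1
  simp only [mul_one] at h
  rw [← h, sum_congr rfl (g := fun _ => (3 : ℝ)) fun T hT => by simp [G.card3 T hT]]
  simp [Q, mul_comm]

theorem deg_pos {T : Finset α} (h : T ∈ G.H) {e : α} (he : e ∈ T) : 1 ≤ G.deg e :=
  card_pos.2 ⟨T, mem_filter.2 ⟨h, he⟩⟩

theorem rem_E {T : Finset α} (h : T ∈ G.H) : (G.rem T).E = G.E - 3 := by
  have h1 := card_sdiff_add_card_eq_card (G.sub T h)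
  rw [G.card3 T h] at h1
  simp only [E, rem]
  rw [← h1]
  push_cast
  ring

theorem rem_Q (T : Finset α) : (G.rem T).Q = G.Q - G.NN T := by
  have h1 := card_filter_add_card_filter_not (s := G.H) (fun T' => Disjoint T' T)
  simp only [Q, rem, NN]
  rw [← h1]
  push_cast
  ring

theorem rem_deg (T : Finset α) (e : α) : ((G.rem T).deg e : ℝ) = G.deg e - G.dd T e := by
  have h1 := card_filter_add_card_filter_not (s := G.H.filter fun T' => e ∈ T')
    (fun T' => Disjoint T' T)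
  simp only [deg, rem, dd]
  rw [← h1, filter_filter, filter_filter, filter_filter]
  simp only [and_comm]
  push_cast
  ring

theorem dd_le {T : Finset α} (h : T ∈ G.H) {e : α} (he : e ∉ T) : G.dd T e ≤ 3 := by
  have h1 : (G.H.filter fun T' => e ∈ T' ∧ ¬ Disjoint T' T) ⊆
      T.biUnion fun f => G.H.filter fun T' => e ∈ T' ∧ f ∈ T' := by
    intro T' hT'
    obtain ⟨h2, h3, h4⟩ := mem_filter.1 hT'
    obtain ⟨f, h5, h6⟩ := not_disjoint_iff.1 h4
    exact mem_biUnion.2 ⟨f, h6, mem_filter.2 ⟨h2, h3, h5⟩⟩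
  refine (card_le_card h1).trans (card_biUnion_le.trans ?_)
  rw [← G.card3 T h, card_eq_sum_ones T]
  refine sum_le_sum fun f hf => card_le_one.2 fun A hA B hB => ?_
  obtain ⟨a1, a2, a3⟩ := mem_filter.1 hA
  obtain ⟨b1, b2, b3⟩ := mem_filter.1 hB
  by_contra hne
  have := card_le_one.1 (G.lin A a1 B b1 hne) e (mem_inter.2 ⟨a2, b2⟩) f (mem_inter.2 ⟨a3, b3⟩)
  exact he (this ▸ hf)

theorem NN_eq {T : Finset α} (h : T ∈ G.H) : (G.NN T : ℝ) = ∑ e ∈ T, (G.deg e : ℝ) - 2 := by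
  have h1 : ∑ e ∈ T, G.deg e = ∑ T' ∈ G.H, (T ∩ T').card := by
    simp only [deg, card_filter]
    rw [sum_comm]
    refine sum_congr rfl fun T' _ => ?_
    rw [← card_filter, filter_mem_eq_inter]
  have h2 : ∀ T' ∈ G.H, (T ∩ T').card =
      (if ¬ Disjoint T' T then 1 else 0) + (if T = T' then 2 else 0) := by
    intro T' hT'
    by_cases e : T = T'
    · subst e
      have : ¬ Disjoint T T := by
        rw [disjoint_self_iff_empty]
        intro h0
        have := G.card3 T h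
        simp [h0] at this
      rw [if_pos this, if_pos rfl, inter_self, G.card3 T h]
    · have h3 := G.lin T h T' hT' e
      by_cases d : Disjoint T' T
      · simp [d, e, disjoint_iff_inter_eq_empty.1 d.symm]
      · obtain ⟨f, h5, h6⟩ := not_disjoint_iff.1 d
        have : 0 < (T ∩ T').card := card_pos.2 ⟨f, mem_inter.2 ⟨h6, h5⟩⟩
        simp only [d, e, not_false_eq_true, if_true, if_false]
        omega
  rw [sum_congr rfl h2, sum_add_distrib, ← card_filter, sum_ite_eq, if_pos h] at h1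
  have h3 : ((∑ e ∈ T, G.deg e : ℕ) : ℝ) = ((G.NN T + 2 : ℕ) : ℝ) := by rw [h1, NN]
  push_cast at h3
  linarith

theorem sum_dd (φ : α → ℝ) :
    ∑ T ∈ G.H, ∑ e ∈ G.V \ T, φ e * G.dd T e =
      ∑ T ∈ G.H, ∑ e ∈ T, φ e * (∑ f ∈ T, (G.deg f : ℝ) - G.deg e - 2) := by
  have h1 : ∀ T ∈ G.H, ∑ e ∈ G.V \ T, φ e * G.dd T e =
      ∑ T' ∈ G.H, ∑ e ∈ G.V, if e ∈ T' then (if e ∉ T ∧ ¬ Disjoint T' T then φ e else 0) else 0 := by
    intro T _
    rw [sum_comm, sdiff_eq_filter, sum_filter]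
    refine sum_congr rfl fun e _ => ?_
    by_cases he : e ∈ T
    · simp [he]
    · simp only [he, not_false_eq_true, if_true, true_and, dd, card_filter]
      push_cast
      rw [mul_sum]
      refine sum_congr rfl fun T' _ => ?_
      by_cases a : e ∈ T' <;> by_cases b : Disjoint T' T <;> simp [a, b]
  rw [sum_congr rfl h1, sum_comm]
  refine sum_congr rfl fun T' hT' => ?_
  rw [sum_comm]
  simp only [sum_ite_irrel, sum_const_zero]
  rw [← sum_filter, filter_mem_eq_inter, inter_eq_right.2 (G.sub T' hT')]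
  refine sum_congr rfl fun e he => ?_
  rw [← sum_filter, sum_const, nsmul_eq_mul, mul_comm]
  congr 1
  have h2 := card_filter_add_card_filter_not (s := G.H.filter fun T => ¬ Disjoint T T')
    (fun T => e ∈ T)
  rw [filter_filter, filter_filter] at h2
  have h3 : (G.H.filter fun T => ¬ Disjoint T T' ∧ e ∈ T) = G.H.filter fun T => e ∈ T :=
    filter_congr fun T _ => ⟨fun a => a.2, fun a => ⟨not_disjoint_iff.2 ⟨e, a, he⟩, a⟩⟩
  have h4 : (G.H.filter fun T => ¬ Disjoint T T' ∧ e ∉ T) =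
      G.H.filter fun T => e ∉ T ∧ ¬ Disjoint T' T :=
    filter_congr fun T _ => by rw [and_comm, disjoint_comm]
  rw [h3, h4] at h2
  have h5 := G.NN_eq hT'
  have h6 : ((G.deg e + (G.H.filter fun T => e ∉ T ∧ ¬ Disjoint T' T).card : ℕ) : ℝ) =
      (G.NN T' : ℕ) := by rw [deg, h2, NN]
  push_cast at h6
  linarith

theorem sum_NN : ∑ T ∈ G.H, (G.NN T : ℝ) = ∑ e ∈ G.V, (G.deg e : ℝ) ^ 2 - 2 * G.Q := by
  rw [sum_congr rfl fun T hT => G.NN_eq hT, sum_sub_distrib, G.sum_sum fun e => (G.deg e : ℝ)]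
  simp [Q, sq, mul_comm]

end L3

end Vale.Agent.P046
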