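import Vale.Agent.P046.Base

namespace Vale.Agent.P046

/-- Lyapunov profile -/
noncomputable def ff (z : ℝ) : ℝ :=
  if 1 ≤ z then (z - 1) ^ 2 * (z + 7) / (8 * z) else (z - 1) ^ 2 / (2 - z)

/-- its derivative -/
noncomputable def fd (z : ℝ) : ℝ :=
  if 1 ≤ z then (2 * (z - 1) + 11 / 8 * (z - 1) ^ 2 + 1 / 4 * (z - 1) ^ 3) / z ^ 2
  else 1 / (2 - z) ^ 2 - 1

/-- linear 3-uniform hypergraph -/
@[ext] structure L3 (α : Type) [DecidableEq α] where
  V : Finset α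
  H : Finset (Finset α)
  sub : ∀ T ∈ H, T ⊆ V
  card3 : ∀ T ∈ H, T.card = 3
  lin : ∀ T ∈ H, ∀ T' ∈ H, T ≠ T' → (T ∩ T').card ≤ 1

namespace L3

variable {α : Type} [DecidableEq α] (G : L3 α)

/-- degree -/
def deg (e : α) : ℕ := (G.H.filter fun T => e ∈ T).card

/-- remove the vertices of `T` -/
def rem (T : Finset α) : L3 α where
  V := G.V \ T
  H := G.H.filter fun T' => Disjoint T' T
  sub := fun T' h => by
    rw [Finset.mem_filter] at h
    exact Finset.subset_sdiff.2 ⟨G.sub _ h.1, h.2⟩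
  card3 := fun T' h => G.card3 _ (Finset.mem_filter.1 h).1
  lin := fun T₁ h₁ T₂ h₂ => G.lin _ (Finset.mem_filter.1 h₁).1 _ (Finset.mem_filter.1 h₂).1

/-- degree loss of `e` when `T` is removed -/
def dd (T : Finset α) (e : α) : ℕ := (G.H.filter fun T' => e ∈ T' ∧ ¬ Disjoint T' T).card

/-- number of triples destroyed when `T` is removed -/
def NN (T : Finset α) : ℕ := (G.H.filter fun T' => ¬ Disjoint T' T).card

/-- number of vertices -/
noncomputable def E : ℝ := G.V.card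

/-- number of triples -/
noncomputable def Q : ℝ := G.H.card

/-- profile sum at scale `m` -/
noncomputable def FF (m : ℝ) : ℝ := ∑ e ∈ G.V, ff (G.deg e / m)

/-- relative deviation of the mean degree -/
noncomputable def bb (κ : ℝ) : ℝ := 3 * G.Q / (κ * G.E ^ 3) - 1

/-- Lyapunov function -/
noncomputable def sig (κ : ℝ) : ℝ := κ * G.E * (G.FF (κ * G.E ^ 2) + 3 * G.E * G.bb κ ^ 2)

/-- standing hypotheses of the one-step estimates -/
structure Ok (κ t n : ℝ) : Prop where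
  k0 : 0 < κ
  t0 : 0 ≤ t
  t1 : t ≤ 1 / 100
  e100 : 100 ≤ G.E
  m1 : 1 ≤ κ * G.E ^ 2
  mE : κ * G.E ^ 2 ≤ G.E
  nE : n ≤ G.E
  dn : ∀ e, (G.deg e : ℝ) ≤ n
  hF : G.FF (κ * G.E ^ 2) ≤ t ^ 2 * G.E
  hb : |G.bb κ| ≤ t

/-- supersolution for the failure probability -/
noncomputable def UU (κ Λ : ℝ) : ℝ :=
  if G.E ≤ 2000 * √(Λ / κ) then 0
  else min 1 ((2 - 2000 * √(Λ / κ) / G.E) * G.sig κ / Λ + 2000 * Real.log G.E / Λ)

end L3

end Vale.Agent.P046
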