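import Vale.Agent.P046.Defs

namespace Vale.Agent.P046

theorem ff_nonneg {z : ℝ} (hz : 0 ≤ z) : 0 ≤ ff z := by
  unfold ff
  split_ifs with h
  · positivity
  · exact div_nonneg (sq_nonneg _) (by linarith)
theorem ff_one : ff 1 = 0 := by simp [ff]
theorem sq_le_ff {z : ℝ} (hz : 0 ≤ z) : (z - 1) ^ 2 ≤ 8 * ff z := by
  have h0 := sq_nonneg (z - 1)
  unfold ff
  split_ifs with h
  · rw [← mul_div_assoc, le_div_iff₀ (by linarith)]
    linarith
  · rw [← mul_div_assoc, le_div_iff₀ (by linarith)]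
    have := mul_nonneg h0 hz
    linarith
theorem abs_mul_fd {z : ℝ} (hz : 0 ≤ z) : |z * fd z - 2 * (z - 1)| ≤ 5 * ff z := by
  have h0 := sq_nonneg (z - 1)
  unfold ff fd
  split_ifs with h
  · have z0 : 0 < z := by linarith
    have e1 : z * ((2 * (z - 1) + 11 / 8 * (z - 1) ^ 2 + 1 / 4 * (z - 1) ^ 3) / z ^ 2) -
        2 * (z - 1) = (z - 1) ^ 2 / z * (-5 / 8 + (z - 1) / 4) := by
      field_simp
      ring
    have e2 : 5 * ((z - 1) ^ 2 * (z + 7) / (8 * z)) = (z - 1) ^ 2 / z * (5 + 5 * (z - 1) / 8) := by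
      field_simp
      ring
    have h1 : 0 ≤ (z - 1) ^ 2 / z := by positivity
    rw [e1, e2, abs_mul, abs_of_nonneg h1]
    refine mul_le_mul_of_nonneg_left (abs_le.mpr ⟨?_, ?_⟩) h1 <;> linarith
  · have z0 : 0 < 2 - z := by linarith
    have e1 : z * (1 / (2 - z) ^ 2 - 1) - 2 * (z - 1) =
        (z - 1) ^ 2 / (2 - z) ^ 2 * (5 + 3 * (1 - z)) := by
      field_simp
      ring
    have e2 : 5 * ((z - 1) ^ 2 / (2 - z)) = (z - 1) ^ 2 / (2 - z) ^ 2 * (5 + 5 * (1 - z)) := by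
      field_simp
      ring
    have h1 : 0 ≤ (z - 1) ^ 2 / (2 - z) ^ 2 := by positivity
    rw [e1, e2, abs_mul, abs_of_nonneg h1]
    refine mul_le_mul_of_nonneg_left (abs_le.mpr ⟨?_, ?_⟩) h1 <;> linarith

theorem fn_ff_lo {z : ℝ} (h : z ≤ 1) : ff z = (z - 1) ^ 2 / (2 - z) := by
  rcases h.eq_or_lt with rfl | h
  · simp [ff]
  · rw [ff, if_neg (not_le.mpr h)]
theorem fn_fd_lo {z : ℝ} (h : z ≤ 1) : fd z = 1 / (2 - z) ^ 2 - 1 := by
  rcases h.eq_or_lt with rfl | h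
  · norm_num [fd]
  · rw [fd, if_neg (not_le.mpr h)]
theorem fn_fd_one : fd 1 = 0 := by simp [fd]

theorem fn_hi {z z' : ℝ} (h : 1 ≤ z) (h' : 1 ≤ z') :
    ff z' ≤ ff z + fd z * (z' - z) + (z' - z) ^ 2 := by
  have z0 : 0 < z := by linarith
  have z1 : 0 < z' := by linarith
  have e : ff z' = ff z + fd z * (z' - z) + (z' - z) ^ 2 * ((1 + 7 / (z ^ 2 * z')) / 8) := by
    rw [ff, ff, fd, if_pos h, if_pos h, if_pos h']
    field_simp
    ring
  have h1 : 7 / (z ^ 2 * z') ≤ 7 :=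
    div_le_self (by norm_num) (one_le_mul_of_one_le_of_one_le (one_le_pow₀ h) h')
  have h2 := mul_le_of_le_one_right (sq_nonneg (z' - z))
    (show (1 + 7 / (z ^ 2 * z')) / 8 ≤ 1 by linarith)
  linarith

theorem fn_lo {z z' : ℝ} (h : z ≤ 1) (h' : z' ≤ 1) :
    ff z' ≤ ff z + fd z * (z' - z) + (z' - z) ^ 2 := by
  have z0 : 0 < 2 - z := by linarith
  have z1 : 0 < 2 - z' := by linarith
  have e : ff z' = ff z + fd z * (z' - z) + (z' - z) ^ 2 / ((2 - z) ^ 2 * (2 - z')) := by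
    rw [fn_ff_lo h, fn_ff_lo h', fn_fd_lo h]
    field_simp
    ring
  have h1 : (z' - z) ^ 2 / ((2 - z) ^ 2 * (2 - z')) ≤ (z' - z) ^ 2 :=
    div_le_self (sq_nonneg _)
      (one_le_mul_of_one_le_of_one_le (one_le_pow₀ (by linarith)) (by linarith))
  linarith

theorem fn_fd_ge {z : ℝ} (h : z ≤ 1) : 2 * (z - 1) ≤ fd z := by
  have z0 : 0 < 2 - z := by linarith
  rw [fn_fd_lo h, le_sub_iff_add_le, le_div_iff₀ (by positivity)]
  have h1 := mul_nonneg (sq_nonneg (1 - z)) (show 0 ≤ 3 + 2 * (1 - z) by linarith)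
  linarith

theorem fn_fd_le {z : ℝ} (h : 1 ≤ z) : fd z ≤ 2 * (z - 1) := by
  have z0 : 0 < z := by linarith
  rw [fd, if_pos h, div_le_iff₀ (by positivity)]
  have h1 := mul_nonneg (sq_nonneg (z - 1)) (show 0 ≤ 21 / 8 + 7 / 4 * (z - 1) by linarith)
  linarith

/-- upper Taylor bound -/
theorem ff_taylor {z z' : ℝ} (hz : 0 ≤ z) (hz' : 0 ≤ z') :
    ff z' ≤ ff z + fd z * (z' - z) + (z' - z) ^ 2 := by
  have _ := hz
  have _ := hz'
  rcases le_total 1 z with h | h <;> rcases le_total 1 z' with h' | h'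
  · exact fn_hi h h'
  · have a := fn_lo le_rfl h'
    have b := fn_hi h le_rfl
    have c := mul_le_mul_of_nonneg_right (fn_fd_le h) (sub_nonneg.mpr h')
    rw [fn_fd_one] at a
    linarith
  · have a := fn_hi le_rfl h'
    have b := fn_lo h le_rfl
    have c := mul_le_mul_of_nonneg_right (fn_fd_ge h) (sub_nonneg.mpr h')
    rw [fn_fd_one] at a
    linarith
  · exact fn_lo h h'

end Vale.Agent.P046
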