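import Vale.Agent.P046.Cnt

namespace Vale.Agent.P046

open Classical

variable {n : ℕ}

/-- edge set of a vertex set -/
noncomputable def tri (T : Finset (Fin n)) : Finset (Sym2 (Fin n)) :=
  T.sym2.filter fun e => ¬ e.IsDiag

theorem mem_tri {T : Finset (Fin n)} {a b : Fin n} : s(a, b) ∈ tri T ↔ a ∈ T ∧ b ∈ T ∧ a ≠ b := by
  rw [tri, Finset.mem_filter, Finset.mk_mem_sym2_iff, Sym2.mk_isDiag_iff, and_assoc]

theorem card_tri (T : Finset (Fin n)) : (tri T).card = T.card.choose 2 := by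
  rw [← Sym2.card_image_offDiag]
  congr 1
  ext e
  induction e using Sym2.ind with
  | h a b =>
    rw [mem_tri, Finset.mem_image]
    constructor
    · exact fun h => ⟨(a, b), Finset.mem_offDiag.mpr h, rfl⟩
    · rintro ⟨⟨c, d⟩, h, e⟩
      have h' := mem_tri.mpr (Finset.mem_offDiag.mp h)
      have e' : s(c, d) = s(a, b) := e
      rw [e'] at h'
      exact mem_tri.mp h'

theorem tri_inter (T T' : Finset (Fin n)) : tri T ∩ tri T' = tri (T ∩ T') := by
  ext e
  induction e using Sym2.ind with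
  | h a b =>
    simp only [Finset.mem_inter, mem_tri]
    tauto

theorem tri_inj {T T' : Finset (Fin n)} (h : T.card = 3) (h' : T'.card = 3) (e : tri T = tri T') :
    T = T' := by
  refine Finset.eq_of_subset_of_card_le (fun a ha => ?_) (by omega)
  obtain ⟨b, hb, hne⟩ := Finset.exists_mem_ne (s := T) (by omega) a
  have := mem_tri.mpr ⟨ha, hb, hne.symm⟩
  rw [e] at this
  exact (mem_tri.mp this).1

theorem tri_sub (G : SimpleGraph (Fin n)) :
    ∀ S ∈ (G.cliqueFinset 3).image tri, S ⊆ G.edgeFinset := by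
  intro S hS e he
  obtain ⟨T, hT, rfl⟩ := Finset.mem_image.mp hS
  induction e using Sym2.ind with
  | h a b =>
    obtain ⟨ha, hb, hne⟩ := mem_tri.mp he
    exact SimpleGraph.mem_edgeFinset.mpr
      ((SimpleGraph.mem_cliqueFinset_iff.mp hT).isClique ha hb hne)
theorem tri_card (G : SimpleGraph (Fin n)) : ∀ S ∈ (G.cliqueFinset 3).image tri, S.card = 3 := by
  intro S hS
  obtain ⟨T, hT, rfl⟩ := Finset.mem_image.mp hS
  rw [card_tri, (SimpleGraph.mem_cliqueFinset_iff.mp hT).card_eq]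
  rfl
theorem tri_lin (G : SimpleGraph (Fin n)) : ∀ S ∈ (G.cliqueFinset 3).image tri,
    ∀ S' ∈ (G.cliqueFinset 3).image tri, S ≠ S' → (S ∩ S').card ≤ 1 := by
  intro S hS S' hS' hne
  obtain ⟨T, hT, rfl⟩ := Finset.mem_image.mp hS
  obtain ⟨T', hT', rfl⟩ := Finset.mem_image.mp hS'
  have h1 := (SimpleGraph.mem_cliqueFinset_iff.mp hT).card_eq
  have h2 := (SimpleGraph.mem_cliqueFinset_iff.mp hT').card_eq
  have h3 : (T ∩ T').card ≤ 2 := by
    by_contra hc
    have e1 := Finset.eq_of_subset_of_card_le (Finset.inter_subset_left (s₁ := T) (s₂ := T'))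
      (by omega)
    have e2 := Finset.eq_of_subset_of_card_le (Finset.inter_subset_right (s₁ := T) (s₂ := T'))
      (by omega)
    exact hne (by rw [← e1, e2])
  rw [tri_inter, card_tri]
  exact Nat.choose_le_choose 2 h3
theorem tri_injOn (G : SimpleGraph (Fin n)) : Set.InjOn tri (G.cliqueFinset 3 : Set (Finset (Fin n))) := by
  intro T hT T' hT' e
  exact tri_inj (SimpleGraph.mem_cliqueFinset_iff.mp (Finset.mem_coe.mp hT)).card_eq
    (SimpleGraph.mem_cliqueFinset_iff.mp (Finset.mem_coe.mp hT')).card_eq e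

/-- the triangle hypergraph of a graph -/
noncomputable def toL3 (G : SimpleGraph (Fin n)) : L3 (Sym2 (Fin n)) where
  V := G.edgeFinset
  H := (G.cliqueFinset 3).image tri
  sub := tri_sub G
  card3 := tri_card G
  lin := tri_lin G

theorem graph_clique_delete (G : SimpleGraph (Fin n)) (T T' : Finset (Fin n)) :
    (G.deleteEdges (T.sym2 : Set (Sym2 (Fin n)))).IsNClique 3 T' ↔
      G.IsNClique 3 T' ∧ Disjoint (tri T') (tri T) := by
  constructor
  · intro h
    refine ⟨h.mono (G.deleteEdges_le _), Finset.disjoint_left.mpr fun e he he' => ?_⟩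
    induction e using Sym2.ind with
    | h a b =>
      obtain ⟨ha, hb, hne⟩ := mem_tri.mp he
      exact (SimpleGraph.deleteEdges_adj.mp (h.isClique ha hb hne)).2
        (Finset.mem_coe.mpr (Finset.mem_filter.mp he').1)
  · rintro ⟨h, hd⟩
    refine ⟨fun a ha b hb hne => SimpleGraph.deleteEdges_adj.mpr ⟨h.isClique ha hb hne, fun hm => ?_⟩,
      h.card_eq⟩
    have := Finset.mk_mem_sym2_iff.mp (Finset.mem_coe.mp hm)
    exact Finset.disjoint_left.mp hd (mem_tri.mpr ⟨ha, hb, hne⟩) (mem_tri.mpr ⟨this.1, this.2, hne⟩)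

theorem toL3_delete (G : SimpleGraph (Fin n)) {T : Finset (Fin n)} (h : T ∈ G.cliqueFinset 3) :
    toL3 (G.deleteEdges (T.sym2 : Set (Sym2 (Fin n)))) = (toL3 G).rem (tri T) := by
  have _ := h
  refine L3.ext ?_ ?_
  · ext e
    induction e using Sym2.ind with
    | h a b =>
      simp only [toL3, L3.rem, SimpleGraph.mem_edgeFinset, Finset.mem_sdiff, mem_tri,
        SimpleGraph.mem_edgeSet, SimpleGraph.deleteEdges_adj, Finset.mem_coe,
        Finset.mk_mem_sym2_iff]
      exact and_congr_right fun hab => by simp [hab.ne]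
  · ext S
    simp only [toL3, L3.rem, Finset.mem_image, Finset.mem_filter,
      SimpleGraph.mem_cliqueFinset_iff, graph_clique_delete]
    constructor
    · rintro ⟨T', ⟨h1, h2⟩, rfl⟩
      exact ⟨⟨T', h1, rfl⟩, h2⟩
    · rintro ⟨⟨T', h1, rfl⟩, h2⟩
      exact ⟨T', ⟨h1, h2⟩, rfl⟩
theorem toL3_E (G : SimpleGraph (Fin n)) : (toL3 G).E = G.edgeSet.ncard := by
  rw [← SimpleGraph.coe_edgeFinset, Set.ncard_coe_finset]
  rfl
theorem toL3_E_le (G : SimpleGraph (Fin n)) : (toL3 G).E ≤ (toL3 (⊤ : SimpleGraph (Fin n))).E := by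
  rw [toL3_E, toL3_E]
  exact_mod_cast Set.ncard_le_ncard (SimpleGraph.edgeSet_mono le_top)
theorem toL3_top_E : (toL3 (⊤ : SimpleGraph (Fin n))).E = n * (n - 1) / 2 := by
  rw [toL3_E, ← SimpleGraph.coe_edgeFinset, Set.ncard_coe_finset,
    SimpleGraph.card_edgeFinset_top_eq_card_choose_two, Fintype.card_fin, Nat.cast_choose_two]

theorem graph_mem_V {G : SimpleGraph (Fin n)} {a b : Fin n} :
    s(a, b) ∈ (toL3 G).V ↔ G.Adj a b := SimpleGraph.mem_edgeFinset

theorem graph_mem_H {G : SimpleGraph (Fin n)} {S : Finset (Sym2 (Fin n))} :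
    S ∈ (toL3 G).H ↔ ∃ T, G.IsNClique 3 T ∧ tri T = S := by
  simp only [toL3, Finset.mem_image, SimpleGraph.mem_cliqueFinset_iff]

theorem graph_three {T : Finset (Fin n)} (h : T.card = 3) {a b : Fin n} (ha : a ∈ T) (hb : b ∈ T)
    (hne : a ≠ b) : ∃ c, c ≠ a ∧ c ≠ b ∧ T = {a, b, c} := by
  have hb' : b ∈ T.erase a := Finset.mem_erase.mpr ⟨hne.symm, hb⟩
  have h1 : ((T.erase a).erase b).card = 1 := by
    rw [Finset.card_erase_of_mem hb', Finset.card_erase_of_mem ha, h]
  obtain ⟨c, hc⟩ := Finset.card_eq_one.mp h1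
  have h2 : c ∈ (T.erase a).erase b := by rw [hc]; exact Finset.mem_singleton_self c
  refine ⟨c, (Finset.mem_erase.mp (Finset.mem_erase.mp h2).2).1, (Finset.mem_erase.mp h2).1, ?_⟩
  rw [← hc, Finset.insert_erase hb', Finset.insert_erase ha]

theorem toL3_deg_le (G : SimpleGraph (Fin n)) (e : Sym2 (Fin n)) : (toL3 G).deg e ≤ n := by
  induction e using Sym2.ind with
  | h a b =>
    refine le_trans (Finset.card_le_card (t := Finset.univ.image fun c => tri {a, b, c})
      fun S hS => ?_) (Finset.card_image_le.trans (by simp))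
    obtain ⟨h1, h2⟩ := Finset.mem_filter.mp hS
    obtain ⟨T, hT, rfl⟩ := Finset.mem_image.mp h1
    obtain ⟨ha, hb, hne⟩ := mem_tri.mp h2
    obtain ⟨c, -, -, rfl⟩ :=
      graph_three (SimpleGraph.mem_cliqueFinset_iff.mp hT).card_eq ha hb hne
    exact Finset.mem_image_of_mem _ (Finset.mem_univ c)
theorem toL3_top_deg : ∀ e ∈ (toL3 (⊤ : SimpleGraph (Fin n))).V,
    ((toL3 (⊤ : SimpleGraph (Fin n))).deg e : ℝ) = n - 2 := by
  intro e he
  induction e using Sym2.ind with
  | h a b =>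
    have hne : a ≠ b := (graph_mem_V.mp he).ne
    have hcl : ∀ c ∈ Finset.univ \ ({a, b} : Finset (Fin n)),
        (⊤ : SimpleGraph (Fin n)).IsNClique 3 {a, b, c} := by
      intro c hc
      simp only [Finset.mem_sdiff, Finset.mem_insert, Finset.mem_singleton, not_or] at hc
      exact SimpleGraph.is3Clique_triple_iff.mpr ⟨hne, Ne.symm hc.2.1, Ne.symm hc.2.2⟩
    have e1 : ((toL3 (⊤ : SimpleGraph (Fin n))).H.filter fun S => s(a, b) ∈ S) =
        (Finset.univ \ {a, b}).image fun c => tri {a, b, c} := by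
      ext S
      constructor
      · intro hS
        obtain ⟨h1, h2⟩ := Finset.mem_filter.mp hS
        obtain ⟨T, hT, rfl⟩ := graph_mem_H.mp h1
        obtain ⟨ha, hb, -⟩ := mem_tri.mp h2
        obtain ⟨c, c1, c2, rfl⟩ := graph_three hT.card_eq ha hb hne
        exact Finset.mem_image_of_mem _ (by simp [c1, c2])
      · intro hS
        obtain ⟨c, hc, rfl⟩ := Finset.mem_image.mp hS
        exact Finset.mem_filter.mpr ⟨graph_mem_H.mpr ⟨_, hcl c hc, rfl⟩,
          mem_tri.mpr ⟨by simp, by simp, hne⟩⟩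
    have e2 : (toL3 (⊤ : SimpleGraph (Fin n))).deg s(a, b) + 2 = n := by
      rw [L3.deg, e1, Finset.card_image_of_injOn, ← Finset.card_pair hne,
        Finset.card_sdiff_add_card_eq_card (Finset.subset_univ _), Finset.card_univ,
        Fintype.card_fin]
      intro c hc c' hc' e
      have h1 := tri_inj (hcl c (Finset.mem_coe.mp hc)).card_eq
        (hcl c' (Finset.mem_coe.mp hc')).card_eq e
      have h2 : c ∈ ({a, b, c'} : Finset (Fin n)) := by rw [← h1]; simp
      have h3 := Finset.mem_coe.mp hc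
      simp only [Finset.mem_sdiff, Finset.mem_insert, Finset.mem_singleton, not_or] at h2 h3
      tauto
    have e3 : ((toL3 (⊤ : SimpleGraph (Fin n))).deg s(a, b) : ℝ) + 2 = n := by exact_mod_cast e2
    linarith

end Vale.Agent.P046
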