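import Vale.Agent.P046.Cnt

namespace Vale.Agent.P046

/-- weight of a vertex of degree `y` -/
noncomputable def g0 (γ : ℝ) (y : ℕ) : ℝ := if y = 0 then 1 else γ / y

namespace L3

variable {α : Type} [DecidableEq α] (G : L3 α)

/-- isolated triples -/
def isoS : Finset (Finset α) := G.H.filter fun T => ∀ e ∈ T, G.deg e = 1

/-- triples that become isolated when `T` is removed -/
def newI (T : Finset α) : Finset (Finset α) :=
  G.H.filter fun T' => Disjoint T' T ∧ T' ∉ G.isoS ∧ ∀ e ∈ T', G.deg e = G.dd T e + 1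

/-- lower potential -/
noncomputable def Psi (D : ℝ) : ℝ :=
  ∑ e ∈ G.V, (g0 (1 / (16 * D)) (G.deg e) - 54 / (16 * D) * max (G.deg e - D) 0) -
    3 / (16 * D) * G.isoS.card

/-- a property of triangle hypergraphs of graphs -/
def Tri : Prop := ∀ T ∈ G.H, ∀ T' ∈ G.H, Disjoint T' T → ∃ f ∈ T', G.dd T f = 0

/-- uncut failure potential -/
noncomputable def Uf (κ Λ : ℝ) : ℝ :=
  min 1 ((2 - 2000 * √(Λ / κ) / G.E) * G.sig κ / Λ + 2000 * Real.log G.E / Λ)

/-- degree cutoff -/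
noncomputable def DD (Λ : ℝ) : ℝ := (864 * (2 * Λ) * (4 * 10 ^ 6 * Λ) + 1) * (4 * 10 ^ 6 * Λ)

/-- subsolution for the final number of vertices -/
noncomputable def PP (κ Λ : ℝ) : ℝ :=
  if G.E ≤ 2000 * √(Λ / κ) then max (G.Psi (DD Λ)) 0
  else 1000 * √(Λ / κ) / (128 * DD Λ * (4 * 10 ^ 6 * Λ)) * (1 - G.Uf κ Λ)

end L3

end Vale.Agent.P046
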