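import Vale.Agent.P046.Graph
import Vale.Agent.P046.LDefs

namespace Vale.Agent.P046

theorem g2_mk_mem_tri {n : ℕ} {A : Finset (Fin n)} {x y : Fin n} :
    s(x, y) ∈ tri A ↔ x ∈ A ∧ y ∈ A ∧ x ≠ y := by
  simp [tri, and_assoc]

theorem toL3_tri {n : ℕ} (G : SimpleGraph (Fin n)) : (toL3 G).Tri := by
  classical
  intro T hT T' hT' hd
  obtain ⟨A, hA, rfl⟩ := Finset.mem_image.1 hT
  obtain ⟨B, hB, rfl⟩ := Finset.mem_image.1 hT'
  have hBc : B.card = 3 := (SimpleGraph.mem_cliqueFinset_iff.1 hB).card_eq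
  have h1 : (B ∩ A).card ≤ 1 := by
    rw [Finset.card_le_one]
    intro u hu v hv
    by_contra huv
    rw [Finset.mem_inter] at hu hv
    exact Finset.disjoint_left.1 hd (g2_mk_mem_tri.2 ⟨hu.1, hv.1, huv⟩)
      (g2_mk_mem_tri.2 ⟨hu.2, hv.2, huv⟩)
  have h2 : 1 < (B \ A).card := by
    have := Finset.card_sdiff_add_card_inter B A
    omega
  obtain ⟨x, hx, y, hy, hxy⟩ := Finset.one_lt_card.1 h2
  rw [Finset.mem_sdiff] at hx hy
  refine ⟨s(x, y), g2_mk_mem_tri.2 ⟨hx.1, hy.1, hxy⟩, ?_⟩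
  unfold L3.dd
  rw [Finset.card_eq_zero, Finset.filter_eq_empty_iff]
  rintro S hS ⟨hf, hn⟩
  obtain ⟨C, hC, rfl⟩ := Finset.mem_image.1 hS
  have hCc : C.card = 3 := (SimpleGraph.mem_cliqueFinset_iff.1 hC).card_eq
  obtain ⟨e, heC, heA⟩ := Finset.not_disjoint_iff.1 hn
  induction e using Sym2.ind with
  | _ u v =>
    rw [g2_mk_mem_tri] at heC heA hf
    have h3 : 1 < (C ∩ A).card := Finset.one_lt_card.2
      ⟨u, Finset.mem_inter.2 ⟨heC.1, heA.1⟩, v, Finset.mem_inter.2 ⟨heC.2.1, heA.2.1⟩, heC.2.2⟩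
    have h4 : 1 < (C \ A).card := Finset.one_lt_card.2
      ⟨x, Finset.mem_sdiff.2 ⟨hf.1, hx.2⟩, y, Finset.mem_sdiff.2 ⟨hf.2.1, hy.2⟩, hxy⟩
    have := Finset.card_sdiff_add_card_inter C A
    omega

end Vale.Agent.P046
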