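import Vale.Agent.P046.Defs

namespace Vale.Agent.P046

theorem ineq_poly {s v : ℝ} (hs : 0 ≤ s) (hv : 0 ≤ v) :
    0 ≤ v * (128 * (s + v) + 88 * (s + v) ^ 2 + 16 * (s + v) ^ 3) * (4 + 3 * s) -
      512 * v * s * (1 + (s + v)) ^ 2 + 27 * s ^ 3 * (1 + (s + v)) ^ 2 * (4 + 3 * s) -
      8 * (s + v) ^ 3 * (1 + (s + v)) * (4 + 3 * s) := by
  have q1 : 0 ≤ 1 * (v - 2 * (s ^ 2)) ^ 2 := by positivity
  have q2 : 0 ≤ v ^ 2 * (1 - 2 * (s ^ 2)) ^ 2 := by positivity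
  have q3 : 0 ≤ 1 * (v - 2 * (s ^ 3)) ^ 2 := by positivity
  have q4 : 0 ≤ v * (v - 2 * (s)) ^ 2 := by positivity
  have q5 : 0 ≤ v ^ 3 * (1 - 1 * (s)) ^ 2 := by positivity
  have q6 : 0 ≤ v * (v - 2 * (s ^ 2)) ^ 2 := by positivity
  have q7 : 0 ≤ s * v ^ 2 * (1 - 2 * (v)) ^ 2 := by positivity
  have q8 : 0 ≤ s * (v - 2 * (s ^ 2)) ^ 2 := by positivity
  have q9 : 0 ≤ s ^ 3 * (1 - 2 * (v)) ^ 2 := by positivity
  have q10 : 0 ≤ s ^ 3 * (1 - 2 * (s)) ^ 2 := by positivity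
  have q11 : 0 ≤ v ^ 2 * (v - 2 * (s)) ^ 2 := by positivity
  have q12 : 0 ≤ 1 * (v ^ 2 - 1 * (s ^ 2)) ^ 2 := by positivity
  have q13 : 0 ≤ s * v * (v - 2 * (s ^ 2)) ^ 2 := by positivity
  have q14 : 0 ≤ s ^ 3 * v * (1 - 2 * (s)) ^ 2 := by positivity
  have q15 : 0 ≤ s * (v ^ 2 - 2 * (s)) ^ 2 := by positivity
  have q16 : 0 ≤ s * v ^ 2 * (v - 2 * (s)) ^ 2 := by positivity
  have q17 : 0 ≤ v ^ 2 := by positivity
  have q18 : 0 ≤ v ^ 3 := by positivity
  have q19 : 0 ≤ s * v ^ 2 := by positivity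
  have q20 : 0 ≤ s ^ 2 * v := by positivity
  have q21 : 0 ≤ s ^ 3 := by positivity
  have q22 : 0 ≤ v ^ 4 := by positivity
  have q23 : 0 ≤ s * v ^ 3 := by positivity
  have q24 : 0 ≤ s ^ 2 * v ^ 2 := by positivity
  have q25 : 0 ≤ s ^ 3 * v := by positivity
  have q26 : 0 ≤ s ^ 4 := by positivity
  have q27 : 0 ≤ s * v ^ 4 := by positivity
  have q28 : 0 ≤ s ^ 2 * v ^ 3 := by positivity
  have q29 : 0 ≤ s ^ 3 * v ^ 2 := by positivity
  have q30 : 0 ≤ s ^ 4 * v := by positivity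
  have q31 : 0 ≤ s ^ 5 := by positivity
  have q32 : 0 ≤ s ^ 4 * v ^ 2 := by positivity
  have q33 : 0 ≤ s ^ 5 * v := by positivity
  have q34 : 0 ≤ s ^ 6 := by positivity
  linarith

/-- two-variable core: one positive deviation `w`, total negative deviation `s` -/
theorem ineq_core {w s : ℝ} (hs : 0 ≤ s) (hw : s ≤ w) :
    0 ≤ (w - s) * ((2 * w + 11 / 8 * w ^ 2 + 1 / 4 * w ^ 3) / (1 + w) ^ 2 - 2 * s / (1 + 3 / 4 * s))
      + 27 / 64 * s ^ 3 - w ^ 3 / (8 * (1 + w)) := by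
  obtain ⟨v, rfl⟩ : ∃ v, w = s + v := ⟨w - s, by ring⟩
  have hv : 0 ≤ v := by linarith
  have h := div_nonneg (ineq_poly hs hv)
    (show 0 ≤ 64 * (1 + (s + v)) ^ 2 * (4 + 3 * s) by positivity)
  refine h.trans (le_of_eq ?_)
  field_simp
  ring

/-- slope of the positive branch -/
noncomputable def iqA (w : ℝ) : ℝ := (2 * w + 11 / 8 * w ^ 2 + 1 / 4 * w ^ 3) / (1 + w) ^ 2
/-- loss of the positive branch -/
noncomputable def iqB (w : ℝ) : ℝ := w ^ 3 / (8 * (1 + w))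
/-- slope of the negative branch -/
noncomputable def iqa (s : ℝ) : ℝ := 1 - 1 / (1 + s) ^ 2
/-- gain of the negative branch -/
noncomputable def iqb (s : ℝ) : ℝ := 2 * s ^ 3 / ((1 - s) * (1 + s) ^ 2)

theorem iqA_zero : iqA 0 = 0 := by simp [iqA]
theorem iqB_zero : iqB 0 = 0 := by simp [iqB]
theorem iqa_zero : iqa 0 = 0 := by simp [iqa]
theorem iqb_zero : iqb 0 = 0 := by simp [iqb]

theorem iqA_eq {w : ℝ} (hw : 0 ≤ w) :
    iqA w = w * (1 / 4 + 7 / 8 * (1 / (1 + w)) + 7 / 8 * (1 / (1 + w)) ^ 2) := by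
  unfold iqA
  field_simp
  ring

theorem iqA_bd {w : ℝ} (hw : 0 ≤ w) : w / 4 ≤ iqA w ∧ iqA w ≤ 2 * w := by
  have h0 : 0 ≤ 1 / (1 + w) := by positivity
  have h1 : 1 / (1 + w) ≤ 1 := by rw [div_le_one (by linarith)]; linarith
  have h2 : (1 / (1 + w)) ^ 2 ≤ 1 := pow_le_one₀ h0 h1
  rw [iqA_eq hw]
  constructor
  · nlinarith [mul_nonneg hw h0, mul_nonneg hw (sq_nonneg (1 / (1 + w)))]
  · nlinarith [mul_le_mul_of_nonneg_left h1 hw, mul_le_mul_of_nonneg_left h2 hw]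

theorem iqA_sub {u v : ℝ} (hu : 0 ≤ u) (hv : 0 ≤ v) : iqA (u + v) ≤ iqA u + iqA v := by
  have key : ∀ x y : ℝ, 0 ≤ x → x ≤ y →
      x * (1 / 4 + 7 / 8 * (1 / (1 + y)) + 7 / 8 * (1 / (1 + y)) ^ 2) ≤ iqA x := by
    intro x y hx hxy
    rw [iqA_eq hx]
    have h1 : 1 / (1 + y) ≤ 1 / (1 + x) := one_div_le_one_div_of_le (by linarith) (by linarith)
    have h0 : 0 ≤ 1 / (1 + y) := by have : 0 ≤ y := by linarith
                                    positivity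
    have h2 := pow_le_pow_left₀ h0 h1 2
    exact mul_le_mul_of_nonneg_left (by linarith) hx
  rw [iqA_eq (add_nonneg hu hv), add_mul]
  exact add_le_add (key u _ hu (by linarith)) (key v _ hv (by linarith))

theorem iqB_sup {u v : ℝ} (hu : 0 ≤ u) (hv : 0 ≤ v) : iqB u + iqB v ≤ iqB (u + v) := by
  have key : ∀ x y : ℝ, 0 ≤ x → x ≤ y → iqB x ≤ x * (y ^ 2 / (8 * (1 + y))) := by
    intro x y hx hxy
    have hy : 0 ≤ y := by linarith
    rw [iqB, ← mul_div_assoc, div_le_div_iff₀ (by positivity) (by positivity)]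
    have h1 := mul_le_mul_of_nonneg_left (pow_le_pow_left₀ hx hxy 2) hx
    have h2 := mul_le_mul_of_nonneg_left hxy (show 0 ≤ x ^ 2 * y by positivity)
    nlinarith
  have h := add_le_add (key u _ hu (le_add_of_nonneg_right hv))
    (key v _ hv (le_add_of_nonneg_left hu))
  refine h.trans (le_of_eq ?_)
  rw [iqB]
  ring

theorem iqB_le {w : ℝ} (hw : 0 ≤ w) : iqB w ≤ w ^ 3 / 8 ∧ iqB w ≤ w ^ 2 / 8 := by
  unfold iqB
  constructor
  · exact div_le_div_of_nonneg_left (by positivity) (by norm_num) (by linarith)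
  · rw [div_le_div_iff₀ (by positivity) (by norm_num)]
    nlinarith [sq_nonneg w]

theorem iqa_nonneg {s : ℝ} (hs : 0 ≤ s) : 0 ≤ iqa s := by
  rw [iqa, sub_nonneg, div_le_one (by positivity)]
  nlinarith

theorem iqa_le {s : ℝ} (hs : 0 ≤ s) : iqa s ≤ 2 * s / (1 + 3 / 2 * s) := by
  have e : iqa s = (2 * s + s ^ 2) / (1 + s) ^ 2 := by
    unfold iqa
    field_simp
    ring
  rw [e, div_le_div_iff₀ (by positivity) (by positivity)]
  nlinarith [pow_nonneg hs 3]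

theorem iqa_add {s t : ℝ} (hs : 0 ≤ s) (ht : 0 ≤ t) :
    iqa s + iqa t ≤ 2 * (s + t) / (1 + 3 / 4 * (s + t)) := by
  refine (add_le_add (iqa_le hs) (iqa_le ht)).trans ?_
  rw [div_add_div _ _ (by positivity) (by positivity),
    div_le_div_iff₀ (by positivity) (by positivity)]
  nlinarith [sq_nonneg (s - t)]

theorem iqb_ge {s : ℝ} (hs : 0 ≤ s) (hs1 : s < 1) : 27 / 16 * s ^ 3 ≤ iqb s := by
  have h0 : 0 < 1 - s := by linarith
  rw [iqb, le_div_iff₀ (by positivity)]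
  have h1 : (1 - s) * (1 + s) ^ 2 ≤ 32 / 27 := by
    nlinarith [mul_nonneg hs (sq_nonneg (s - 1 / 3)), sq_nonneg (s - 1 / 3)]
  nlinarith [mul_le_mul_of_nonneg_left h1 (pow_nonneg hs 3)]

theorem iqa_sq {s : ℝ} (hs : 0 ≤ s) (hs1 : s < 1) : (2 * s - iqa s) ^ 2 ≤ iqb s := by
  have h0 : 0 < 1 - s := by linarith
  have e : 2 * s - iqa s = s ^ 2 * (3 + 2 * s) / (1 + s) ^ 2 := by
    unfold iqa
    field_simp
    ring
  rw [e, iqb, div_pow, div_le_div_iff₀ (by positivity) (by positivity)]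
  have h1 : s * (1 - s) * (3 + 2 * s) ^ 2 ≤ 2 * (1 + s) ^ 2 := by
    nlinarith [sq_nonneg (s - 1 / 3), mul_nonneg hs (sq_nonneg (s - 1 / 3)),
      sq_nonneg (s * (s - 1 / 3)), pow_nonneg hs 3, sq_nonneg s]
  have h2 := mul_le_mul_of_nonneg_left h1 (show 0 ≤ s ^ 3 * (1 + s) ^ 2 by positivity)
  nlinarith

theorem iq_mix {u v s t : ℝ} (hu : 0 ≤ u) (hv : 0 ≤ v) (hs : 0 ≤ s) (hs1 : s < 1) (ht : 0 ≤ t)
    (ht1 : t < 1) : 0 ≤ (u + v - (s + t)) * (iqA u + iqA v - (iqa s + iqa t)) +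
      (iqb s + iqb t) - (iqB u + iqB v) := by
  have b1 := iqb_ge hs hs1
  have b2 := iqb_ge ht ht1
  have b3 : (s + t) ^ 3 ≤ 4 * (s ^ 3 + t ^ 3) := by
    nlinarith [mul_nonneg (add_nonneg hs ht) (sq_nonneg (s - t))]
  have b4 := iqB_sup hu hv
  rcases le_total (s + t) (u + v) with h | h
  · have c1 := ineq_core (add_nonneg hs ht) h
    have c2 := iqA_sub hu hv
    have c3 := iqa_add hs ht
    have c4 := mul_le_mul_of_nonneg_left (sub_le_sub c2 c3) (sub_nonneg.2 h)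
    change 0 ≤ (u + v - (s + t)) * (iqA (u + v) - _) + _ - iqB (u + v) at c1
    linarith
  · have c1 := (iqA_bd hu).2
    have c2 := (iqA_bd hv).2
    have c3 := iqa_sq hs hs1
    have c4 := iqa_sq ht ht1
    have c5 := (iqB_le (add_nonneg hu hv)).1
    have c6 := pow_le_pow_left₀ (add_nonneg hu hv) h 3
    have c7 := mul_le_mul_of_nonneg_left (add_le_add c1 c2) (sub_nonneg.2 h)
    have c8 := pow_nonneg hs 3
    have c9 := pow_nonneg ht 3
    nlinarith [sq_nonneg (4 * (s + t - (u + v)) - (2 * s - iqa s) - (2 * t - iqa t)),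
      sq_nonneg ((2 * s - iqa s) - (2 * t - iqa t))]

theorem iq_pos {x : ℝ} (hx : 1 ≤ x) :
    fd x = iqA (x - 1) ∧ ff x + ff x / x - fd x * (x - 1) = -iqB (x - 1) := by
  have h0 : x ≠ 0 := by linarith
  unfold ff fd iqA iqB
  rw [if_pos hx, if_pos hx, add_sub_cancel]
  refine ⟨rfl, ?_⟩
  field_simp
  ring

theorem iq_neg {x : ℝ} (h0 : 0 < x) (hx : x < 1) :
    fd x = -iqa (1 - x) ∧ ff x + ff x / x - fd x * (x - 1) = iqb (1 - x) := by
  have h1 : 2 - x ≠ 0 := by linarith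
  have h2 : x ≠ 0 := h0.ne'
  unfold ff fd iqa iqb
  rw [if_neg (not_le.2 hx), if_neg (not_le.2 hx), show 1 + (1 - x) = 2 - x by ring,
    sub_sub_cancel]
  refine ⟨by ring, ?_⟩
  field_simp
  ring

/-- the triangle inequality of the Lyapunov profile -/
theorem ineq3 {x y z : ℝ} (hx : 0 < x) (hy : 0 < y) (hz : 0 < z) :
    -(ff x + ff y + ff z) - (fd x * (y + z - 2) + fd y * (x + z - 2) + fd z * (x + y - 2)) ≤
      ff x / x + ff y / y + ff z / z := by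
  obtain ⟨G, hG⟩ : ∃ G : ℝ → ℝ, ∀ x, G x = ff x + ff x / x - fd x * (x - 1) := ⟨_, fun _ => rfl⟩
  have ppn : ∀ x y z : ℝ, 1 ≤ x → 1 ≤ y → 0 < z → z < 1 →
      0 ≤ G x + G y + G z + (x + y + z - 3) * (fd x + fd y + fd z) := by
    intro x y z a b c c'
    have := iq_mix (sub_nonneg.2 a) (sub_nonneg.2 b) (sub_nonneg.2 c'.le) (by linarith) le_rfl
      zero_lt_one
    rw [hG, hG, hG, (iq_pos a).2, (iq_pos b).2, (iq_neg c c').2, (iq_pos a).1, (iq_pos b).1,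
      (iq_neg c c').1]
    rw [iqa_zero, iqb_zero] at this
    linarith
  have pnn : ∀ x y z : ℝ, 1 ≤ x → 0 < y → y < 1 → 0 < z → z < 1 →
      0 ≤ G x + G y + G z + (x + y + z - 3) * (fd x + fd y + fd z) := by
    intro x y z a b b' c c'
    have := iq_mix (sub_nonneg.2 a) le_rfl (sub_nonneg.2 b'.le) (by linarith)
      (sub_nonneg.2 c'.le) (by linarith)
    rw [hG, hG, hG, (iq_pos a).2, (iq_neg b b').2, (iq_neg c c').2, (iq_pos a).1,
      (iq_neg b b').1, (iq_neg c c').1]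
    rw [iqA_zero, iqB_zero] at this
    linarith
  have key : 0 ≤ G x + G y + G z + (x + y + z - 3) * (fd x + fd y + fd z) := by
    rcases le_or_gt 1 x with a | a <;> rcases le_or_gt 1 y with b | b <;>
      rcases le_or_gt 1 z with c | c
    · rw [hG, hG, hG, (iq_pos a).2, (iq_pos b).2, (iq_pos c).2, (iq_pos a).1, (iq_pos b).1,
        (iq_pos c).1]
      have a0 := sub_nonneg.2 a
      have b0 := sub_nonneg.2 b
      have c0 := sub_nonneg.2 c
      have h1 := mul_le_mul_of_nonneg_left (add_le_add (add_le_add (iqA_bd a0).1 (iqA_bd b0).1)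
        (iqA_bd c0).1) (show 0 ≤ x + y + z - 3 by linarith)
      nlinarith [(iqB_le a0).2, (iqB_le b0).2, (iqB_le c0).2, mul_nonneg a0 b0, mul_nonneg a0 c0,
        mul_nonneg b0 c0, sq_nonneg (x - 1), sq_nonneg (y - 1), sq_nonneg (z - 1)]
    · exact ppn x y z a b hz c
    · linarith [ppn x z y a c hy b]
    · exact pnn x y z a hy b hz c
    · linarith [ppn y z x b c hx a]
    · linarith [pnn y x z b hx a hz c]
    · linarith [pnn z x y c hx a hy b]
    · rw [hG, hG, hG, (iq_neg hx a).2, (iq_neg hy b).2, (iq_neg hz c).2, (iq_neg hx a).1,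
        (iq_neg hy b).1, (iq_neg hz c).1]
      have a0 := sub_nonneg.2 a.le
      have b0 := sub_nonneg.2 b.le
      have c0 := sub_nonneg.2 c.le
      have h1 := mul_nonneg (show 0 ≤ 3 - (x + y + z) by linarith)
        (add_nonneg (add_nonneg (iqa_nonneg a0) (iqa_nonneg b0)) (iqa_nonneg c0))
      have h2 := iqb_ge a0 (by linarith)
      have h3 := iqb_ge b0 (by linarith)
      have h4 := iqb_ge c0 (by linarith)
      have h5 := pow_nonneg a0 3
      have h6 := pow_nonneg b0 3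
      have h7 := pow_nonneg c0 3
      linarith
  rw [hG, hG, hG] at key
  linarith

end Vale.Agent.P046
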