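import Vale.Agent.P046.LDefs
import Vale.Agent.P046.Fn

namespace Vale.Agent.P046

namespace L3

variable {α : Type} [DecidableEq α] (G : L3 α)

theorem Psi_ge {m s D : ℝ} (hm : 2 ≤ m) (hs : 0 < s) (hD : (864 * s * m + 1) * m ≤ D)
    (hF : G.FF m ≤ G.E / 64) (hF' : m * G.FF m ≤ s * G.E) :
    G.E / (128 * D * m) ≤ G.Psi D := by
  have hm0 : 0 < m := by linarith
  have hD0 : 0 < D := lt_of_lt_of_le (by positivity) hD
  obtain ⟨γ, hγ⟩ : ∃ γ : ℝ, γ = 1 / (16 * D) := ⟨_, rfl⟩
  have hγ0 : 0 < γ := by rw [hγ]; positivity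
  have hU : ∀ e ∈ G.isoS.biUnion id, e ∈ G.V ∧ G.deg e = 1 := by
    intro e he
    obtain ⟨T, hT, heT⟩ := Finset.mem_biUnion.1 he
    exact ⟨G.sub T (Finset.mem_filter.1 hT).1 heT, (Finset.mem_filter.1 hT).2 e heT⟩
  have hUc : (G.isoS.biUnion id).card = 3 * G.isoS.card := by
    rw [Finset.card_biUnion, Finset.sum_congr (s₁ := G.isoS) (f := fun T => (id T).card) rfl
      (g := fun _ => 3) fun T hT => G.card3 T (Finset.mem_filter.1 hT).1, Finset.sum_const,
      smul_eq_mul, mul_comm]
    intro T hT T' hT' hne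
    refine Finset.disjoint_left.2 fun e he he' => hne ?_
    have h1 := (Finset.mem_filter.1 hT).2 e he
    exact Finset.card_le_one.1 h1.le T (Finset.mem_filter.2 ⟨(Finset.mem_filter.1 hT).1, he⟩) T'
      (Finset.mem_filter.2 ⟨(Finset.mem_filter.1 hT').1, he'⟩)
  have h1 : ∑ e ∈ G.V, (if e ∈ G.isoS.biUnion id then γ else 0) = 3 * γ * G.isoS.card := by
    rw [Finset.sum_ite_mem, Finset.inter_eq_right.2 fun e he => (hU e he).1, Finset.sum_const,
      hUc, nsmul_eq_mul]
    push_cast
    ring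
  have key : ∀ e ∈ G.V, γ / (2 * m) - (16 * γ / m + γ / (8 * s)) * ff (G.deg e / m) ≤
      (g0 γ (G.deg e) - 54 * γ * max (G.deg e - D) 0) -
        (if e ∈ G.isoS.biUnion id then γ else 0) := by
    intro e _
    have hz : (0 : ℝ) ≤ G.deg e / m := by positivity
    have a1 := sq_le_ff hz
    have a0 := ff_nonneg hz
    obtain ⟨w, hw⟩ : ∃ w : ℝ, w = G.deg e / m - 1 := ⟨_, rfl⟩
    have hy : (G.deg e : ℝ) = m * (w + 1) := by rw [hw]; field_simp; ring
    rw [← hw] at a1
    have a2 : max ((G.deg e : ℝ) - D) 0 ≤ ff (G.deg e / m) / (432 * s) := by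
      refine max_le ?_ (by positivity)
      rw [le_div_iff₀ (by positivity)]
      have b1 := mul_le_mul_of_nonneg_right hD (show 0 ≤ 432 * s by positivity)
      generalize ff (G.deg e / m) = f at *
      rw [hy]
      nlinarith [sq_nonneg (w - 1728 * s * m)]
    have a3 : 54 * γ * max ((G.deg e : ℝ) - D) 0 ≤ γ / (8 * s) * ff (G.deg e / m) := by
      refine (mul_le_mul_of_nonneg_left a2 (by positivity)).trans (le_of_eq ?_)
      field_simp
      ring
    have a4 : γ / (2 * m) * (1 - 4 * w ^ 2) ≤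
        g0 γ (G.deg e) - (if e ∈ G.isoS.biUnion id then γ else 0) := by
      have hc : 0 < γ / (2 * m) := by positivity
      by_cases hw' : 1 ≤ 4 * w ^ 2
      · refine le_trans (mul_nonpos_of_nonneg_of_nonpos hc.le (by linarith)) ?_
        split_ifs with he
        · rw [(hU e he).2]
          simp [g0]
        · unfold g0
          split_ifs
          · norm_num
          · rw [sub_zero]; positivity
      · have b1 : -(1 / 2) < w := by nlinarith
        have b2 : w < 1 / 2 := by nlinarith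
        have b3 : (1 : ℝ) < G.deg e := by rw [hy]; nlinarith
        have b4 : 1 < G.deg e := by exact_mod_cast b3
        have b5 : (G.deg e : ℝ) ≤ 2 * m := by rw [hy]; nlinarith
        rw [if_neg fun he => by have := (hU e he).2; omega, sub_zero, g0, if_neg (by omega)]
        refine le_trans (mul_le_of_le_one_right hc.le (by nlinarith [sq_nonneg w])) ?_
        exact div_le_div_of_nonneg_left hγ0.le (by linarith) b5
    have a5 : γ / (2 * m) * (4 * w ^ 2) ≤ 16 * γ / m * ff (G.deg e / m) := by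
      refine (mul_le_mul_of_nonneg_left (show 4 * w ^ 2 ≤ 32 * ff (G.deg e / m) by linarith)
        (by positivity)).trans (le_of_eq ?_)
      field_simp
      ring
    linarith
  have h2 := Finset.sum_le_sum key
  rw [Finset.sum_sub_distrib, Finset.sum_sub_distrib, h1, Finset.sum_const,
    ← Finset.mul_sum, nsmul_eq_mul] at h2
  have e1 : G.Psi D = ∑ e ∈ G.V, (g0 γ (G.deg e) - 54 * γ * max (G.deg e - D) 0) -
      3 * γ * G.isoS.card := by
    rw [Psi, hγ, mul_one_div, mul_one_div]
  have e2 : G.E / (128 * D * m) = γ / m * G.E / 8 := by rw [hγ]; field_simp; ring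
  have h3 : 16 * γ / m * G.FF m ≤ γ / m * G.E / 4 := by
    refine (mul_le_mul_of_nonneg_left hF (by positivity)).trans (le_of_eq ?_)
    ring
  have h4 : γ / (8 * s) * G.FF m ≤ γ / m * G.E / 8 := by
    have : G.FF m ≤ s * G.E / m := by rw [le_div_iff₀ hm0]; linarith
    refine (mul_le_mul_of_nonneg_left this (by positivity)).trans (le_of_eq ?_)
    field_simp
  have e3 : G.E * (γ / (2 * m)) = γ / m * G.E / 2 := by field_simp
  change G.E * (γ / (2 * m)) - (16 * γ / m + γ / (8 * s)) * G.FF m ≤ _ at h2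
  rw [e1, e2]
  linarith

end L3

end Vale.Agent.P046
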