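import Vale.Agent.P046.LDefs

namespace Vale.Agent.P046

namespace L3

variable {α : Type} [DecidableEq α] (G : L3 α)

open Finset

theorem iso_rem {T : Finset α} (h : T ∈ G.H) :
    ((G.rem T).isoS.card : ℝ) ≤ G.isoS.card - (if T ∈ G.isoS then 1 else 0) + (G.newI T).card := by
  have hne : ¬ Disjoint T T := by
    rw [disjoint_self_iff_empty]
    intro h0
    have := G.card3 T h
    simp [h0] at this
  have h1 : (G.rem T).isoS ⊆ G.isoS.erase T ∪ G.newI T := by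
    intro S hS
    obtain ⟨a1, a2⟩ := mem_filter.1 hS
    obtain ⟨a3, a4⟩ := mem_filter.1 a1
    by_cases hi : S ∈ G.isoS
    · refine mem_union_left _ (mem_erase.2 ⟨?_, hi⟩)
      rintro rfl
      exact hne a4
    · refine mem_union_right _ (mem_filter.2 ⟨a3, a4, hi, fun e he => ?_⟩)
      have h2 := G.rem_deg T e
      rw [a2 e he] at h2
      have h3 : (G.deg e : ℝ) = G.dd T e + 1 := by
        push_cast at h2
        linarith
      exact_mod_cast h3
  have h2 : ((G.rem T).isoS.card : ℝ) ≤ ((G.isoS.erase T).card : ℝ) + (G.newI T).card := by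
    exact_mod_cast (card_le_card h1).trans (card_union_le _ _)
  have h3 : ((G.isoS.erase T).card : ℝ) = G.isoS.card - (if T ∈ G.isoS then 1 else 0) := by
    split_ifs with hi
    · have := card_erase_add_one hi
      rw [← this]
      push_cast
      ring
    · rw [erase_eq_of_notMem hi, sub_zero]
  linarith

theorem lnew_cnt9 {S : Finset α} (hS : S ∈ G.H) :
    (G.H.filter fun T' => S ≠ T' ∧ ∃ e ∈ S, e ∈ T' ∧ G.deg e ≤ 4).card ≤ 9 := by
  have h1 : (G.H.filter fun T' => S ≠ T' ∧ ∃ e ∈ S, e ∈ T' ∧ G.deg e ≤ 4) ⊆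
      (S.filter fun e => G.deg e ≤ 4).biUnion fun e => (G.H.filter fun T' => e ∈ T').erase S := by
    intro T' hT'
    obtain ⟨a1, a2, e, a3, a4, a5⟩ := mem_filter.1 hT'
    exact mem_biUnion.2 ⟨e, mem_filter.2 ⟨a3, a5⟩,
      mem_erase.2 ⟨fun h => a2 h.symm, mem_filter.2 ⟨a1, a4⟩⟩⟩
  refine (card_le_card h1).trans (card_biUnion_le.trans ?_)
  have h2 : ∀ e ∈ S.filter fun e => G.deg e ≤ 4,
      ((G.H.filter fun T' => e ∈ T').erase S).card ≤ 3 := by
    intro e he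
    obtain ⟨a1, a2⟩ := mem_filter.1 he
    have h3 := card_erase_add_one (s := G.H.filter fun T' => e ∈ T') (a := S)
      (mem_filter.2 ⟨hS, a1⟩)
    unfold deg at a2
    omega
  refine (sum_le_card_nsmul _ _ 3 h2).trans ?_
  have h4 : (S.filter fun e => G.deg e ≤ 4).card ≤ 3 :=
    (card_filter_le _ _).trans (G.card3 S hS).le
  rw [smul_eq_mul]
  omega

theorem lnew_meet {T T' S : Finset α} (h : T' ∈ G.newI T) {e : α} (he : e ∈ T')
    (hS : S ∈ G.H) (heS : e ∈ S) (hne : S ≠ T') : ∃ a ∈ S.erase e, a ∈ T := by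
  obtain ⟨a1, a2, -, a4⟩ := mem_filter.1 h
  have h1 : (G.H.filter fun U => e ∈ U ∧ ¬ Disjoint U T) ⊆
      (G.H.filter fun U => e ∈ U).erase T' := by
    intro U hU
    obtain ⟨b1, b2, b3⟩ := mem_filter.1 hU
    refine mem_erase.2 ⟨?_, mem_filter.2 ⟨b1, b2⟩⟩
    rintro rfl
    exact b3 a2
  have h2 := card_erase_add_one (s := G.H.filter fun U => e ∈ U) (a := T')
    (mem_filter.2 ⟨a1, he⟩)
  have h3 := a4 e he
  unfold deg dd at h3
  have h4 := eq_of_subset_of_card_le h1 (by omega)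
  have h5 : S ∈ G.H.filter fun U => e ∈ U ∧ ¬ Disjoint U T := by
    rw [h4]
    exact mem_erase.2 ⟨hne, mem_filter.2 ⟨hS, heS⟩⟩
  obtain ⟨a, b1, b2⟩ := not_disjoint_iff.1 (mem_filter.1 h5).2.2
  refine ⟨a, mem_erase.2 ⟨?_, b1⟩, b2⟩
  rintro rfl
  exact disjoint_left.1 a2 he b2

theorem lnew_one (hT : G.Tri) {D : ℝ} (hD : 1 ≤ D) {T' : Finset α} (hT' : T' ∈ G.H) :
    ((G.H.filter fun T => T' ∈ G.newI T).card : ℝ) ≤
      (if T' ∉ G.isoS ∧ ∃ e ∈ T', G.deg e = 1 then 4 * D else 0) +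
        ∑ S ∈ G.H, if S ≠ T' ∧ ∃ e ∈ S, e ∈ T' ∧ G.deg e ≤ 4 then
          ∑ a ∈ S, (if 2 * D < G.deg a then (G.deg a : ℝ) else 0) else 0 := by
  have hW : ∀ S : Finset α, 0 ≤ ∑ a ∈ S, (if 2 * D < G.deg a then (G.deg a : ℝ) else 0) :=
    fun S => sum_nonneg fun a _ => by split_ifs <;> positivity
  have hW' : ∀ S ∈ G.H, 0 ≤ if S ≠ T' ∧ ∃ e ∈ S, e ∈ T' ∧ G.deg e ≤ 4 then
      ∑ a ∈ S, (if 2 * D < G.deg a then (G.deg a : ℝ) else 0) else 0 := by
    intro S _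
    split_ifs
    · exact hW S
    · exact le_rfl
  rcases (G.H.filter fun T => T' ∈ G.newI T).eq_empty_or_nonempty with h0 | ⟨T0, h0⟩
  · rw [h0, card_empty, Nat.cast_zero]
    refine add_nonneg ?_ (sum_nonneg hW')
    split_ifs
    · linarith
    · exact le_rfl
  obtain ⟨a0, a1⟩ := mem_filter.1 h0
  obtain ⟨-, a2, a3, a4⟩ := mem_filter.1 a1
  obtain ⟨f, f1, f2⟩ := hT T0 a0 T' hT' a2
  have f3 : G.deg f = 1 := by rw [a4 f f1, f2]
  rw [if_pos ⟨a3, f, f1, f3⟩]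
  have h1 : ∃ e ∈ T', G.deg e ≠ 1 := by
    by_contra hc
    push Not at hc
    exact a3 (mem_filter.2 ⟨hT', hc⟩)
  obtain ⟨e, e1, e2⟩ := h1
  have e3 : G.deg e ≤ 4 := by
    have := G.dd_le a0 (e := e) (disjoint_left.1 a2 e1)
    rw [a4 e e1]
    omega
  have e4 : 1 < (G.H.filter fun U => e ∈ U).card := by
    have := G.deg_pos hT' e1
    unfold deg at this e2
    omega
  obtain ⟨S, s1, s2⟩ := exists_mem_ne e4 T'
  obtain ⟨s3, s4⟩ := mem_filter.1 s1
  have h2 : (G.H.filter fun T => T' ∈ G.newI T) ⊆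
      (S.erase e).biUnion fun a => G.H.filter fun T => a ∈ T := by
    intro T hTT
    obtain ⟨b1, b2⟩ := mem_filter.1 hTT
    obtain ⟨a, c1, c2⟩ := G.lnew_meet b2 e1 s3 s4 s2
    exact mem_biUnion.2 ⟨a, c1, mem_filter.2 ⟨b1, c2⟩⟩
  have h3 : ((G.H.filter fun T => T' ∈ G.newI T).card : ℝ) ≤ ∑ a ∈ S.erase e, (G.deg a : ℝ) := by
    exact_mod_cast (card_le_card h2).trans card_biUnion_le
  have h4 : ∑ a ∈ S.erase e, (G.deg a : ℝ) ≤
      ∑ a ∈ S.erase e, (2 * D + if 2 * D < G.deg a then (G.deg a : ℝ) else 0) := by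
    refine sum_le_sum fun a _ => ?_
    split_ifs with hc
    · linarith
    · linarith [not_lt.1 hc]
  have h5 : (S.erase e).card = 2 := by rw [card_erase_of_mem s4, G.card3 S s3]
  rw [sum_add_distrib, sum_const, h5, nsmul_eq_mul] at h4
  have h6 : ∑ a ∈ S.erase e, (if 2 * D < G.deg a then (G.deg a : ℝ) else 0) ≤
      ∑ a ∈ S, (if 2 * D < G.deg a then (G.deg a : ℝ) else 0) :=
    sum_le_sum_of_subset_of_nonneg (erase_subset _ _) fun a _ _ => by split_ifs <;> positivity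
  have h7 := single_le_sum hW' s3
  rw [if_pos ⟨s2, e, s4, e1, e3⟩] at h7
  push_cast at h4
  linarith

theorem sum_newI (hT : G.Tri) {D : ℝ} (hD : 1 ≤ D) :
    ∑ T ∈ G.H, ((G.newI T).card : ℝ) ≤
      ∑ T ∈ G.H, ((if T ∉ G.isoS ∧ ∃ e ∈ T, G.deg e = 1 then 4 * D else 0) +
        9 * ∑ a ∈ T, if 2 * D < G.deg a then (G.deg a : ℝ) else 0) := by
  have h1 : ∑ T ∈ G.H, (G.newI T).card =
      ∑ T' ∈ G.H, (G.H.filter fun T => T' ∈ G.newI T).card := by
    have h2 : ∀ T ∈ G.H, (G.newI T).card = ∑ T' ∈ G.H, if T' ∈ G.newI T then 1 else 0 := by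
      intro T _
      rw [← card_filter, filter_mem_eq_inter,
        inter_eq_right.2 (show G.newI T ⊆ G.H from filter_subset _ _)]
    rw [sum_congr rfl h2, sum_comm]
    exact sum_congr rfl fun T' _ => (card_filter _ _).symm
  have h2 : ∑ T ∈ G.H, ((G.newI T).card : ℝ) =
      ∑ T' ∈ G.H, ((G.H.filter fun T => T' ∈ G.newI T).card : ℝ) := by exact_mod_cast h1
  rw [h2]
  refine (sum_le_sum fun T' hT' => G.lnew_one hT hD hT').trans ?_
  rw [sum_add_distrib, sum_add_distrib, sum_comm]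
  refine add_le_add le_rfl (sum_le_sum fun S hS => ?_)
  rw [← sum_filter, sum_const, nsmul_eq_mul]
  refine mul_le_mul_of_nonneg_right ?_ (sum_nonneg fun a _ => by split_ifs <;> positivity)
  exact_mod_cast G.lnew_cnt9 hS

end L3

end Vale.Agent.P046
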