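import Vale.Agent.P046.LNew

namespace Vale.Agent.P046

namespace LStep

lemma g0_zero (γ : ℝ) : g0 γ 0 = 1 := by simp [g0]

lemma g0_pos (γ : ℝ) {y : ℕ} (h : 1 ≤ y) : g0 γ y = γ / y := by
  rw [g0, if_neg (by omega)]

lemma g0_one (γ : ℝ) : g0 γ 1 = γ := by simp [g0]

lemma g0_pred (γ : ℝ) {y : ℕ} (h : 2 ≤ y) : g0 γ (y - 1) = γ / (y - 1) := by
  rw [g0_pos γ (by omega), Nat.cast_sub (by omega)]
  simp

lemma g0_le {γ : ℝ} (h0 : 0 ≤ γ) {y : ℕ} (h : 1 ≤ y) : g0 γ y ≤ γ := by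
  rw [g0_pos γ h]
  exact div_le_self h0 (by exact_mod_cast h)

lemma diff_nonneg {γ : ℝ} (h0 : 0 ≤ γ) (h1 : γ ≤ 1) {y : ℕ} (h : 1 ≤ y) :
    0 ≤ g0 γ (y - 1) - g0 γ y := by
  rcases Nat.eq_or_lt_of_le h with rfl | h2
  · simp only [Nat.sub_self, g0_zero, g0_one]; linarith
  · rw [g0_pred γ h2, g0_pos γ h]
    have h3 : (2 : ℝ) ≤ y := by exact_mod_cast h2
    have := div_le_div_of_nonneg_left h0 (show (0 : ℝ) < y - 1 by linarith)
      (show (y : ℝ) - 1 ≤ y by linarith)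
    linarith

lemma real3 {a b c : ℝ} (ha : 2 ≤ a) (hab : a ≤ b) (hbc : b ≤ c) :
    0 ≤ ((1 / (a - 1) - 1 / a) * (b + c - 2) - 1 / a) +
      ((1 / (b - 1) - 1 / b) * (a + c - 2) - 1 / b) +
      ((1 / (c - 1) - 1 / c) * (a + b - 2) - 1 / c) := by
  have e : ∀ x : ℝ, 2 ≤ x → 0 ≤ 1 / (x - 1) - 1 / x ∧ (1 / (x - 1) - 1 / x) * (x - 1) = 1 / x := by
    intro x hx
    have h1 : x - 1 ≠ 0 := by linarith
    have h2 : x ≠ 0 := by linarith
    refine ⟨?_, by field_simp; ring⟩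
    have := one_div_le_one_div_of_le (show (0 : ℝ) < x - 1 by linarith)
      (show x - 1 ≤ x by linarith)
    linarith
  obtain ⟨a1, a2⟩ := e a ha
  obtain ⟨b1, b2⟩ := e b (by linarith)
  obtain ⟨c1, -⟩ := e c (by linarith)
  have k1 := mul_le_mul_of_nonneg_left (show 2 * (a - 1) ≤ b + c - 2 by linarith) a1
  have k2 := mul_le_mul_of_nonneg_left (show b - 1 ≤ a + c - 2 by linarith) b1
  have k3 := mul_nonneg c1 (show 0 ≤ a + b - 2 by linarith)
  have k4 := one_div_le_one_div_of_le (show (0 : ℝ) < a by linarith) (hab.trans hbc)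
  nlinarith

lemma real3' {a b c : ℝ} (ha : 2 ≤ a) (hb : 2 ≤ b) (hc : 2 ≤ c) :
    0 ≤ ((1 / (a - 1) - 1 / a) * (b + c - 2) - 1 / a) +
      ((1 / (b - 1) - 1 / b) * (a + c - 2) - 1 / b) +
      ((1 / (c - 1) - 1 / c) * (a + b - 2) - 1 / c) := by
  rcases le_total a b with h1 | h1 <;> rcases le_total b c with h2 | h2 <;>
    rcases le_total a c with h3 | h3
  · exact real3 ha h1 h2
  · exact real3 ha h1 h2
  · linarith [real3 ha h3 h2]
  · linarith [real3 hc h3 h1]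
  · linarith [real3 hb h1 h3]
  · linarith [real3 hb h2 h3]
  · linarith [real3 hc h2 h1]
  · linarith [real3 hc h2 h1]

lemma term_ge {γ : ℝ} (h0 : 0 ≤ γ) (h1 : γ ≤ 1) {x y z : ℕ} (hx : 1 ≤ x) (hy : 1 ≤ y)
    (hz : 1 ≤ z) : -γ ≤ (g0 γ (x - 1) - g0 γ x) * (y + z - 2) - g0 γ x := by
  have h2 : (1 : ℝ) ≤ y := by exact_mod_cast hy
  have h3 : (1 : ℝ) ≤ z := by exact_mod_cast hz
  have := mul_nonneg (diff_nonneg h0 h1 hx) (show (0 : ℝ) ≤ y + z - 2 by linarith)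
  linarith [g0_le h0 hx]

lemma term_one {γ : ℝ} (h1 : γ ≤ 1) {x y z : ℕ} (hx : x = 1) (h : 3 ≤ y + z) :
    1 - 2 * γ ≤ (g0 γ (x - 1) - g0 γ x) * (y + z - 2) - g0 γ x := by
  subst hx
  have h2 : (3 : ℝ) ≤ y + z := by exact_mod_cast h
  simp only [Nat.sub_self, g0_zero, g0_one]
  nlinarith

end LStep

open LStep

theorem g0_convex {γ : ℝ} (h0 : 0 ≤ γ) (h1 : γ ≤ 1 / 2) {y d : ℕ} (h : d ≤ y) :
    d * (g0 γ (y - 1) - g0 γ y) ≤ g0 γ (y - d) - g0 γ y := by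
  rcases Nat.eq_zero_or_pos d with rfl | hd
  · simp
  rcases Nat.eq_or_lt_of_le (show 1 ≤ y by omega) with rfl | hy
  · obtain rfl : d = 1 := by omega
    simp
  have hy2 : (2 : ℝ) ≤ y := by exact_mod_cast hy
  have hd1 : (1 : ℝ) ≤ d := by exact_mod_cast hd
  have n1 : (y : ℝ) - 1 ≠ 0 := by linarith
  have n2 : (y : ℝ) ≠ 0 := by linarith
  rw [g0_pred γ hy, g0_pos γ hy.le]
  rcases Nat.eq_or_lt_of_le h with rfl | hlt
  · rw [Nat.sub_self, g0_zero]
    have e : (d : ℝ) * (γ / (d - 1) - γ / d) = γ / (d - 1) := by field_simp; ring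
    rw [e]
    have a1 : γ / ((d : ℝ) - 1) ≤ γ := div_le_self h0 (by linarith)
    have a2 : γ / (d : ℝ) ≤ γ := div_le_self h0 (by linarith)
    linarith
  · have hdy : (d : ℝ) + 1 ≤ y := by exact_mod_cast hlt
    have n3 : (y : ℝ) - d ≠ 0 := by linarith
    rw [g0_pos γ (show 1 ≤ y - d by omega), Nat.cast_sub h]
    have e1 : (d : ℝ) * (γ / (y - 1) - γ / y) = d * γ / y / (y - 1) := by field_simp; ring
    have e2 : γ / ((y : ℝ) - d) - γ / y = d * γ / y / (y - d) := by field_simp; ring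
    rw [e1, e2]
    exact div_le_div_of_nonneg_left (by positivity) (by linarith) (by linarith)

theorem g0_triple {D : ℝ} (hD : 1 ≤ D) {x y z : ℕ} (hx : 1 ≤ x) (hy : 1 ≤ y) (hz : 1 ≤ z) :
    (if ¬ (x = 1 ∧ y = 1 ∧ z = 1) ∧ (x = 1 ∨ y = 1 ∨ z = 1) then 3 / 4 else 0 : ℝ) ≤
      ((g0 (1 / (16 * D)) (x - 1) - g0 (1 / (16 * D)) x) * (y + z - 2) - g0 (1 / (16 * D)) x) +
      ((g0 (1 / (16 * D)) (y - 1) - g0 (1 / (16 * D)) y) * (x + z - 2) - g0 (1 / (16 * D)) y) +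
      ((g0 (1 / (16 * D)) (z - 1) - g0 (1 / (16 * D)) z) * (x + y - 2) - g0 (1 / (16 * D)) z) +
      (if x = 1 ∧ y = 1 ∧ z = 1 then 3 / (16 * D) else 0) := by
  have e3 : 3 / (16 * D) = 3 * (1 / (16 * D)) := by ring
  rw [e3]
  obtain ⟨γ, hγ⟩ : ∃ γ, γ = 1 / (16 * D) := ⟨_, rfl⟩
  rw [← hγ]
  have h0 : 0 ≤ γ := by rw [hγ]; positivity
  have h1 : γ ≤ 1 / 16 := by
    rw [hγ]; exact one_div_le_one_div_of_le (by norm_num) (by linarith)
  have h1' : γ ≤ 1 := by linarith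
  by_cases hall : x = 1 ∧ y = 1 ∧ z = 1
  · obtain ⟨rfl, rfl, rfl⟩ := hall
    simp only [g0_one, Nat.sub_self, g0_zero]
    norm_num
    linarith
  rw [if_neg hall]
  have tx := term_ge h0 h1' hx hy hz
  have ty := term_ge h0 h1' hy hx hz
  have tz := term_ge h0 h1' hz hx hy
  by_cases hs : x = 1 ∨ y = 1 ∨ z = 1
  · rw [if_pos ⟨hall, hs⟩]
    rcases hs with hs | hs | hs
    · have := term_one h1' hs (show 3 ≤ y + z by omega)
      linarith
    · have := term_one h1' hs (show 3 ≤ x + z by omega)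
      linarith
    · have := term_one h1' hs (show 3 ≤ x + y by omega)
      linarith
  · rw [if_neg fun h => hs h.2]
    have x2 : 2 ≤ x := by omega
    have y2 : 2 ≤ y := by omega
    have z2 : 2 ≤ z := by omega
    rw [g0_pred γ x2, g0_pred γ y2, g0_pred γ z2, g0_pos γ hx, g0_pos γ hy, g0_pos γ hz]
    have := mul_nonneg h0 (real3' (a := x) (b := y) (c := z) (by exact_mod_cast x2)
      (by exact_mod_cast y2) (by exact_mod_cast z2))
    refine this.trans (le_of_eq ?_)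
    ring

namespace L3

variable {α : Type} [DecidableEq α] (G : L3 α)

theorem LStep_dd_le_deg (T : Finset α) (e : α) : G.dd T e ≤ G.deg e :=
  Finset.card_le_card fun _ h => Finset.mem_filter.2
    ⟨(Finset.mem_filter.1 h).1, (Finset.mem_filter.1 h).2.1⟩

theorem LStep_rem_deg (T : Finset α) (e : α) : (G.rem T).deg e = G.deg e - G.dd T e := by
  have h := G.rem_deg T e
  rw [← Nat.cast_sub (G.LStep_dd_le_deg T e)] at h
  exact_mod_cast h

theorem LStep_one {D : ℝ} (hD : 1 ≤ D) {T : Finset α} (h : T ∈ G.H) :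
    G.Psi D - ∑ e ∈ T, (g0 (1 / (16 * D)) (G.deg e) - 54 / (16 * D) * max (G.deg e - D) 0) +
      ∑ e ∈ G.V \ T, (g0 (1 / (16 * D)) (G.deg e - 1) - g0 (1 / (16 * D)) (G.deg e)) * G.dd T e -
      3 / (16 * D) * ((G.newI T).card - if T ∈ G.isoS then 1 else 0) ≤ (G.rem T).Psi D := by
  have h0 : 0 ≤ 1 / (16 * D) := by positivity
  have h1 : 1 / (16 * D) ≤ 1 / 2 := one_div_le_one_div_of_le (by norm_num) (by linarith)
  have h3 : 0 ≤ 3 / (16 * D) := by positivity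
  have h54 : 0 ≤ 54 / (16 * D) := by positivity
  have a1 := mul_le_mul_of_nonneg_left (G.iso_rem h) h3
  have a2 := Finset.sum_sdiff (f := fun e =>
    g0 (1 / (16 * D)) (G.deg e) - 54 / (16 * D) * max (G.deg e - D) 0) (G.sub T h)
  have a3 : ∑ e ∈ G.V \ T, (g0 (1 / (16 * D)) (G.deg e) - 54 / (16 * D) * max (G.deg e - D) 0) +
      ∑ e ∈ G.V \ T, (g0 (1 / (16 * D)) (G.deg e - 1) - g0 (1 / (16 * D)) (G.deg e)) * G.dd T e ≤
      ∑ e ∈ G.V \ T, (g0 (1 / (16 * D)) ((G.rem T).deg e) -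
        54 / (16 * D) * max ((G.rem T).deg e - D) 0) := by
    rw [← Finset.sum_add_distrib]
    refine Finset.sum_le_sum fun e _ => ?_
    have b1 := g0_convex h0 h1 (G.LStep_dd_le_deg T e)
    rw [← G.LStep_rem_deg T e] at b1
    have b2 : max (((G.rem T).deg e : ℝ) - D) 0 ≤ max ((G.deg e : ℝ) - D) 0 := by
      refine max_le_max ?_ le_rfl
      rw [G.rem_deg]
      have : (0 : ℝ) ≤ G.dd T e := by positivity
      linarith
    have b3 := mul_le_mul_of_nonneg_left b2 h54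
    linarith
  have a4 : (G.rem T).V = G.V \ T := rfl
  unfold Psi
  rw [a4]
  linarith

theorem LStep_two {D : ℝ} (hD : 1 ≤ D) {T : Finset α} (h : T ∈ G.H) :
    3 / (16 * D) * ((if T ∉ G.isoS ∧ ∃ e ∈ T, G.deg e = 1 then 4 * D else 0) +
        9 * ∑ a ∈ T, if 2 * D < G.deg a then (G.deg a : ℝ) else 0) ≤
      -∑ e ∈ T, (g0 (1 / (16 * D)) (G.deg e) - 54 / (16 * D) * max (G.deg e - D) 0) +
      ∑ e ∈ T, (g0 (1 / (16 * D)) (G.deg e - 1) - g0 (1 / (16 * D)) (G.deg e)) *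
        (∑ f ∈ T, (G.deg f : ℝ) - G.deg e - 2) +
      3 / (16 * D) * (if T ∈ G.isoS then 1 else 0) := by
  have hD0 : 0 < D := by linarith
  have pen : 3 / (16 * D) * (9 * ∑ a ∈ T, if 2 * D < G.deg a then (G.deg a : ℝ) else 0) ≤
      ∑ e ∈ T, 54 / (16 * D) * max (G.deg e - D) 0 := by
    rw [← mul_assoc, Finset.mul_sum]
    refine Finset.sum_le_sum fun e _ => ?_
    have c1 : (if 2 * D < G.deg e then (G.deg e : ℝ) else 0) ≤ 2 * max (G.deg e - D) 0 := by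
      split_ifs with c
      · linarith [le_max_left ((G.deg e : ℝ) - D) 0]
      · linarith [le_max_right ((G.deg e : ℝ) - D) 0]
    have c2 := mul_le_mul_of_nonneg_left c1 (show 0 ≤ 3 / (16 * D) * 9 by positivity)
    refine c2.trans (le_of_eq ?_)
    ring
  rw [Finset.sum_sub_distrib]
  obtain ⟨x, y, z, hxy, hxz, hyz, rfl⟩ := Finset.card_eq_three.1 (G.card3 T h)
  have hx : 1 ≤ G.deg x := G.deg_pos h (by simp)
  have hy : 1 ≤ G.deg y := G.deg_pos h (by simp)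
  have hz : 1 ≤ G.deg z := G.deg_pos h (by simp)
  have key := g0_triple hD hx hy hz
  have i1 : ({x, y, z} : Finset α) ∈ G.isoS ↔ G.deg x = 1 ∧ G.deg y = 1 ∧ G.deg z = 1 := by
    simp [isoS, h]
  have i2 : (∃ e ∈ ({x, y, z} : Finset α), G.deg e = 1) ↔
      G.deg x = 1 ∨ G.deg y = 1 ∨ G.deg z = 1 := by simp
  have s3 : ∀ φ : α → ℝ, ∑ e ∈ ({x, y, z} : Finset α), φ e = φ x + φ y + φ z := by
    intro φ
    rw [Finset.sum_insert (by simp [hxy, hxz]), Finset.sum_pair hyz, add_assoc]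
  have e1 : 3 / (16 * D) * (if ({x, y, z} : Finset α) ∉ G.isoS ∧
      ∃ e ∈ ({x, y, z} : Finset α), G.deg e = 1 then 4 * D else 0) =
      if ¬ (G.deg x = 1 ∧ G.deg y = 1 ∧ G.deg z = 1) ∧ (G.deg x = 1 ∨ G.deg y = 1 ∨ G.deg z = 1)
        then 3 / 4 else 0 := by
    simp only [i1, i2]
    split_ifs
    · field_simp; norm_num
    · simp
  have e2 : 3 / (16 * D) * (if ({x, y, z} : Finset α) ∈ G.isoS then 1 else 0) =
      if G.deg x = 1 ∧ G.deg y = 1 ∧ G.deg z = 1 then 3 / (16 * D) else 0 := by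
    simp only [i1]
    split_ifs <;> simp
  rw [mul_add, e1, e2, s3 fun e => g0 (1 / (16 * D)) (G.deg e), s3 fun f => (G.deg f : ℝ),
    s3 fun e => (g0 (1 / (16 * D)) (G.deg e - 1) - g0 (1 / (16 * D)) (G.deg e)) *
      (G.deg x + G.deg y + G.deg z - G.deg e - 2)]
  linarith

theorem stepPsi (hT : G.Tri) {D : ℝ} (hD : 1 ≤ D) :
    G.Q * G.Psi D ≤ ∑ T ∈ G.H, (G.rem T).Psi D := by
  have h3 : 0 ≤ 3 / (16 * D) := by positivity
  have a1 := Finset.sum_le_sum fun T hT => G.LStep_one hD (T := T) hT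
  have a2 := Finset.sum_le_sum fun T hT => G.LStep_two hD (T := T) hT
  have a3 := mul_le_mul_of_nonneg_left (G.sum_newI hT hD) h3
  have a4 := G.sum_dd fun e => g0 (1 / (16 * D)) (G.deg e - 1) - g0 (1 / (16 * D)) (G.deg e)
  rw [← Finset.mul_sum] at a2
  simp only [Finset.sum_add_distrib, Finset.sum_sub_distrib (s := G.H), Finset.sum_neg_distrib,
    ← Finset.mul_sum (s := G.H), Finset.sum_const, nsmul_eq_mul] at a1 a2 a3
  rw [a4] at a1
  unfold Q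
  linarith

theorem Psi_empty (h : G.H = ∅) {D : ℝ} (hD : 1 ≤ D) : G.Psi D = G.E := by
  have hd : ∀ e, G.deg e = 0 := fun e => by simp [deg, h]
  have hm : max (-D) 0 = 0 := max_eq_right (by linarith)
  simp [Psi, E, hd, isoS, h, g0_zero, hm]

end L3

end Vale.Agent.P046
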