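import Vale.Agent.P046.StepU
import Vale.Agent.P046.LStep
import Vale.Agent.P046.LInit

namespace Vale.Agent.P046

namespace L3

variable {α : Type} [DecidableEq α] {G : L3 α} {κ n Λ : ℝ}

theorem stepV_num {E R σ a : ℝ} (hR : 100 ≤ R) (hE : 2000 * R < E) (hσ : 0 ≤ σ)
    (ha : a = 2 - 2000 * R / (E - 3)) :
    0 ≤ a ∧ a * (σ * (1 + 3000 * (R / E) / E) + 3000 / E) + 2000 * Real.log (E - 3) ≤
      (2 - 2000 * R / E) * σ + 2000 * Real.log E := by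
  have hE0 : 0 < E := by linarith
  have hE3 : 0 < E - 3 := by linarith
  have a0 : 0 ≤ a := by
    rw [ha, sub_nonneg, div_le_iff₀ hE3]; linarith
  have a2 : a ≤ 2 := by
    rw [ha]
    have : 0 ≤ 2000 * R / (E - 3) := by positivity
    linarith
  obtain ⟨x, hx⟩ : ∃ x, x = 3000 * (R / E) / E := ⟨_, rfl⟩
  have x0 : 0 ≤ x := by rw [hx]; positivity
  have a3 : a ≤ 2 - 2000 * R / E - 2 * x := by
    have e : 2000 * R / (E - 3) - 2000 * R / E - 2 * x = 18000 * R / (E ^ 2 * (E - 3)) := by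
      rw [hx]; field_simp; ring
    have : 0 ≤ 18000 * R / (E ^ 2 * (E - 3)) := by positivity
    rw [ha]; linarith
  have l1 : Real.log (E - 3) ≤ Real.log E - 3 / E := by
    have h1 := Real.log_le_sub_one_of_pos (div_pos hE3 hE0)
    rw [Real.log_div hE3.ne' hE0.ne'] at h1
    have e : (E - 3) / E - 1 = -(3 / E) := by field_simp; ring
    linarith
  refine ⟨a0, ?_⟩
  rw [← hx]
  have b1 : a * (1 + x) ≤ 2 - 2000 * R / E := by nlinarith
  have b2 : a * (1 + x) * σ ≤ (2 - 2000 * R / E) * σ := mul_le_mul_of_nonneg_right b1 hσ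
  have b3 : a * (3000 / E) ≤ 2 * (3000 / E) := mul_le_mul_of_nonneg_right a2 (by positivity)
  have e2 : 2 * (3000 / E) = 2000 * (3 / E) := by ring
  nlinarith

theorem stepV_DD (hΛ : 1 ≤ Λ) : 1 ≤ DD Λ := by
  unfold DD
  have h1 : (1 : ℝ) ≤ 864 * (2 * Λ) * (4 * 10 ^ 6 * Λ) + 1 := by
    have : 0 ≤ 864 * (2 * Λ) * (4 * 10 ^ 6 * Λ) := by positivity
    linarith
  have h2 : (1 : ℝ) ≤ 4 * 10 ^ 6 * Λ := by linarith
  nlinarith

theorem stepUf (hκ : 0 < κ) (hΛ : 1 ≤ Λ) (h100 : 100 ≤ √(Λ / κ)) (hn : n ≤ √(Λ / κ))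
    (hm : κ * G.E ^ 2 ≤ n) (hd : ∀ e, (G.deg e : ℝ) ≤ n) (hE : 2000 * √(Λ / κ) < G.E) :
    ∑ T ∈ G.H, (G.rem T).Uf κ Λ ≤ G.Q * G.Uf κ Λ := by
  by_cases h1 : 1 ≤ (2 - 2000 * √(Λ / κ) / G.E) * G.sig κ / Λ + 2000 * Real.log G.E / Λ
  · have e : G.Uf κ Λ = 1 := min_eq_left h1
    rw [e, mul_one]
    calc ∑ T ∈ G.H, (G.rem T).Uf κ Λ ≤ ∑ _T ∈ G.H, (1 : ℝ) :=
          Finset.sum_le_sum fun T _ => min_le_left _ _
      _ = G.Q := by simp [Q]
  push Not at h1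
  have e : G.Uf κ Λ = (2 - 2000 * √(Λ / κ) / G.E) * G.sig κ / Λ + 2000 * Real.log G.E / Λ :=
    min_eq_right h1.le
  have hR2 : κ * √(Λ / κ) ^ 2 = Λ := by
    rw [Real.sq_sqrt (by positivity)]; field_simp
  obtain ⟨R, hR⟩ : ∃ R, R = √(Λ / κ) := ⟨_, rfl⟩
  have hU : ∀ T ∈ G.H, (G.rem T).Uf κ Λ ≤
      (2 - 2000 * R / (G.E - 3)) * (G.rem T).sig κ / Λ + 2000 * Real.log (G.E - 3) / Λ := by
    intro T hT
    rw [hR, ← G.rem_E hT]
    exact min_le_right _ _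
  rw [← hR] at h1 e hR2 h100 hn hE
  have hE0 : 0 < G.E := by linarith
  have hΛ0 : 0 < Λ := by linarith
  have hσ0 : 0 ≤ G.sig κ := sig_nonneg hκ
  have hlog : 0 ≤ Real.log G.E := Real.log_nonneg (by linarith)
  have hα : 1 ≤ 2 - 2000 * R / G.E := by
    have : 2000 * R / G.E ≤ 1 := by rw [div_le_one hE0]; linarith
    linarith
  have hσ : G.sig κ ≤ Λ := by
    have h2 : 0 ≤ 2000 * Real.log G.E / Λ := by positivity
    have h3 : (2 - 2000 * R / G.E) * G.sig κ / Λ < 1 := by linarith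
    rw [div_lt_one hΛ0] at h3
    nlinarith
  have hF0 : 0 ≤ G.FF (κ * G.E ^ 2) := FF_nonneg (by positivity)
  have hs : G.E * (G.FF (κ * G.E ^ 2) + 3 * G.E * G.bb κ ^ 2) ≤ R ^ 2 := by
    refine le_of_mul_le_mul_left ?_ hκ
    rw [hR2, ← mul_assoc]
    exact hσ
  have hb0 : 0 ≤ G.E * (3 * G.E * G.bb κ ^ 2) := by positivity
  have hf0 : 0 ≤ G.E * G.FF (κ * G.E ^ 2) := by positivity
  have ok : G.Ok κ (R / G.E) n :=
    { k0 := hκ
      t0 := by positivity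
      t1 := by rw [div_le_div_iff₀ hE0 (by norm_num)]; linarith
      e100 := by linarith
      m1 := by
        have : R ^ 2 ≤ G.E ^ 2 := by nlinarith
        nlinarith
      mE := by linarith
      nE := by linarith
      dn := hd
      hF := by
        have e2 : (R / G.E) ^ 2 * G.E = R ^ 2 / G.E := by field_simp
        rw [e2, le_div_iff₀ hE0]
        nlinarith
      hb := by
        refine abs_le_of_sq_le_sq' ?_ (by positivity) |> abs_le.2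
        rw [div_pow, le_div_iff₀ (by positivity)]
        have : 0 ≤ G.E ^ 2 * G.bb κ ^ 2 := by positivity
        nlinarith }
  have hS := ok.stepS
  obtain ⟨a0, hnum⟩ := stepV_num h100 hE hσ0 rfl
  have hQ0 : 0 ≤ G.Q := Nat.cast_nonneg _
  refine (Finset.sum_le_sum hU).trans ?_
  have e3 : ∑ T ∈ G.H, ((2 - 2000 * R / (G.E - 3)) * (G.rem T).sig κ / Λ +
      2000 * Real.log (G.E - 3) / Λ) =
      ((2 - 2000 * R / (G.E - 3)) * ∑ T ∈ G.H, (G.rem T).sig κ +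
        G.Q * (2000 * Real.log (G.E - 3))) / Λ := by
    rw [Finset.sum_add_distrib, Finset.sum_const, nsmul_eq_mul, ← Finset.sum_div, ← Finset.mul_sum]
    unfold Q
    ring
  rw [e3, e, ← add_div, ← mul_div_assoc]
  refine div_le_div_of_nonneg_right ?_ hΛ0.le
  have b1 := mul_le_mul_of_nonneg_left hS a0
  have b2 := mul_le_mul_of_nonneg_left hnum hQ0
  nlinarith

theorem PP_ge (hκ : 0 < κ) (hΛ : 1 ≤ Λ) (h100 : 100 ≤ √(Λ / κ))
    (hE : 2000 * √(Λ / κ) - 3 < G.E) :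
    1000 * √(Λ / κ) / (128 * DD Λ * (4 * 10 ^ 6 * Λ)) * (1 - G.Uf κ Λ) ≤ G.PP κ Λ := by
  by_cases h : G.E ≤ 2000 * √(Λ / κ)
  swap
  · unfold PP
    rw [if_neg h]
  unfold PP
  rw [if_pos h]
  by_cases h1 : 1 ≤ (2 - 2000 * √(Λ / κ) / G.E) * G.sig κ / Λ + 2000 * Real.log G.E / Λ
  · have e : G.Uf κ Λ = 1 := min_eq_left h1
    rw [e, sub_self, mul_zero]
    exact le_max_right _ _
  push Not at h1
  have e : G.Uf κ Λ = (2 - 2000 * √(Λ / κ) / G.E) * G.sig κ / Λ + 2000 * Real.log G.E / Λ :=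
    min_eq_right h1.le
  have hR2 : κ * √(Λ / κ) ^ 2 = Λ := by
    rw [Real.sq_sqrt (by positivity)]; field_simp
  obtain ⟨R, hR⟩ : ∃ R, R = √(Λ / κ) := ⟨_, rfl⟩
  rw [← hR] at h1 e hR2 h100 hE h ⊢
  have hE0 : 0 < G.E := by linarith
  have hΛ0 : 0 < Λ := by linarith
  have hσ0 : 0 ≤ G.sig κ := sig_nonneg hκ
  have hlog : 0 ≤ Real.log G.E := Real.log_nonneg (by linarith)
  have hα : 1 / 2 ≤ 2 - 2000 * R / G.E := by
    have : 2000 * R / G.E ≤ 3 / 2 := by rw [div_le_iff₀ hE0]; linarith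
    linarith
  have h2 : 0 ≤ 2000 * Real.log G.E / Λ := by positivity
  have hσ : G.sig κ ≤ 2 * Λ := by
    have h3 : (2 - 2000 * R / G.E) * G.sig κ / Λ < 1 := by linarith
    rw [div_lt_one hΛ0] at h3
    nlinarith
  have hU0 : 0 ≤ G.Uf κ Λ := by
    rw [e]
    have : 0 ≤ (2 - 2000 * R / G.E) * G.sig κ / Λ :=
      div_nonneg (mul_nonneg (by linarith) hσ0) hΛ0.le
    linarith
  have hE1 : 1000 * R ≤ G.E := by linarith
  have m1 : 10 ^ 6 * Λ ≤ κ * G.E ^ 2 := by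
    have : (1000 * R) ^ 2 ≤ G.E ^ 2 := pow_le_pow_left₀ (by linarith) hE1 2
    nlinarith
  have m2 : κ * G.E ^ 2 ≤ 4 * 10 ^ 6 * Λ := by
    have : G.E ^ 2 ≤ (2000 * R) ^ 2 := pow_le_pow_left₀ hE0.le h 2
    nlinarith
  have hF0 : 0 ≤ G.FF (κ * G.E ^ 2) := FF_nonneg (by positivity)
  have hF' : κ * G.E ^ 2 * G.FF (κ * G.E ^ 2) ≤ 2 * Λ * G.E := by
    have b1 : 0 ≤ κ * G.E * (3 * G.E * G.bb κ ^ 2) := by positivity
    have b2 : κ * G.E * G.FF (κ * G.E ^ 2) ≤ 2 * Λ := by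
      unfold sig at hσ
      linarith
    nlinarith
  have hF : G.FF (κ * G.E ^ 2) ≤ G.E / 64 := by
    have b1 : 10 ^ 6 * Λ * G.FF (κ * G.E ^ 2) ≤ 2 * Λ * G.E :=
      (mul_le_mul_of_nonneg_right m1 hF0).trans hF'
    have b2 : 10 ^ 6 * G.FF (κ * G.E ^ 2) ≤ 2 * G.E := by
      refine le_of_mul_le_mul_left ?_ hΛ0
      linarith
    linarith
  have hm0 : 0 < κ * G.E ^ 2 := by positivity
  have hP := G.Psi_ge (m := κ * G.E ^ 2) (s := 2 * Λ) (D := DD Λ) (by linarith) (by linarith)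
    (by
      unfold DD
      refine mul_le_mul ?_ m2 hm0.le (by positivity)
      have := mul_le_mul_of_nonneg_left m2 (show 0 ≤ 864 * (2 * Λ) by positivity)
      linarith) hF hF'
  have hD := stepV_DD hΛ
  refine le_trans ?_ (hP.trans (le_max_left _ _))
  calc 1000 * R / (128 * DD Λ * (4 * 10 ^ 6 * Λ)) * (1 - G.Uf κ Λ)
      ≤ 1000 * R / (128 * DD Λ * (4 * 10 ^ 6 * Λ)) :=
        mul_le_of_le_one_right (by positivity) (by linarith)
    _ ≤ G.E / (128 * DD Λ * (κ * G.E ^ 2)) :=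
        div_le_div₀ hE0.le hE1 (by positivity)
          (mul_le_mul_of_nonneg_left m2 (by positivity))

theorem stepPP (hκ : 0 < κ) (hΛ : 1 ≤ Λ) (h100 : 100 ≤ √(Λ / κ)) (hn : n ≤ √(Λ / κ))
    (hm : κ * G.E ^ 2 ≤ n) (hd : ∀ e, (G.deg e : ℝ) ≤ n) (hT : G.Tri) :
    G.Q * G.PP κ Λ ≤ ∑ T ∈ G.H, (G.rem T).PP κ Λ := by
  have hD := stepV_DD hΛ
  by_cases h : G.E ≤ 2000 * √(Λ / κ)
  · have e : G.PP κ Λ = max (G.Psi (DD Λ)) 0 := if_pos h
    have e' : ∀ T ∈ G.H, (G.rem T).PP κ Λ = max ((G.rem T).Psi (DD Λ)) 0 := fun T hT' =>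
      if_pos (by rw [G.rem_E hT']; linarith)
    rw [e, Finset.sum_congr rfl e']
    rcases le_total (G.Psi (DD Λ)) 0 with h0 | h0
    · rw [max_eq_right h0, mul_zero]
      exact Finset.sum_nonneg fun T _ => le_max_right _ _
    · rw [max_eq_left h0]
      exact (G.stepPsi hT hD).trans (Finset.sum_le_sum fun T _ => le_max_left _ _)
  · have e : G.PP κ Λ =
        1000 * √(Λ / κ) / (128 * DD Λ * (4 * 10 ^ 6 * Λ)) * (1 - G.Uf κ Λ) := if_neg h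
    push Not at h
    have hU := stepUf hκ hΛ h100 hn hm hd h
    have e' : ∀ T ∈ G.H, 1000 * √(Λ / κ) / (128 * DD Λ * (4 * 10 ^ 6 * Λ)) *
        (1 - (G.rem T).Uf κ Λ) ≤ (G.rem T).PP κ Λ := fun T hT' =>
      PP_ge hκ hΛ h100 (by rw [G.rem_E hT']; linarith)
    refine le_trans ?_ (Finset.sum_le_sum e')
    rw [e, ← Finset.mul_sum, Finset.sum_sub_distrib, Finset.sum_const, nsmul_eq_mul, mul_one,
      mul_left_comm]
    refine mul_le_mul_of_nonneg_left ?_ (by positivity)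
    have eq : (G.H.card : ℝ) = G.Q := rfl
    rw [eq]
    linarith

theorem PP_empty (hκ : 0 < κ) (hΛ : 1 ≤ Λ) (h100 : 100 ≤ √(Λ / κ)) (h : G.H = ∅) :
    G.PP κ Λ ≤ G.E := by
  have hE0 : 0 ≤ G.E := Nat.cast_nonneg _
  by_cases h1 : G.E ≤ 2000 * √(Λ / κ)
  · have e : G.PP κ Λ = max (G.Psi (DD Λ)) 0 := if_pos h1
    rw [e, G.Psi_empty h (stepV_DD hΛ)]
    exact max_le le_rfl hE0
  · have e : G.PP κ Λ =
        1000 * √(Λ / κ) / (128 * DD Λ * (4 * 10 ^ 6 * Λ)) * (1 - G.Uf κ Λ) := if_neg h1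
    have e2 : G.UU κ Λ = G.Uf κ Λ := if_neg h1
    rw [e, ← e2, UU_empty hκ hΛ h100 h (not_le.1 h1), sub_self, mul_zero]
    exact hE0

end L3

end Vale.Agent.P046
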