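import Vale.Agent.P046.Mom

namespace Vale.Agent.P046

theorem tau3_bounds {E : ℝ} (hE : 100 ≤ E) :
    1 + 9 / E ≤ (E / (E - 3)) ^ 3 ∧ (E / (E - 3)) ^ 3 ≤ 1 + 9 / E + 60 / E ^ 2 := by
  have h0 : 0 < E := by linarith
  have h3 : 0 < E - 3 := by linarith
  rw [div_pow]
  constructor
  · rw [le_div_iff₀ (by positivity)]
    have : (1 + 9 / E) * (E - 3) ^ 3 = ((E + 9) * (E - 3) ^ 3) / E := by field_simp
    rw [this, div_le_iff₀ h0]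
    nlinarith [mul_pos h0 h0]
  · rw [div_le_iff₀ (by positivity)]
    have : (1 + 9 / E + 60 / E ^ 2) * (E - 3) ^ 3 =
        ((E ^ 2 + 9 * E + 60) * (E - 3) ^ 3) / E ^ 2 := by field_simp
    rw [this, le_div_iff₀ (by positivity)]
    have h4 : 0 ≤ E ^ 2 * (E - 100) := by positivity
    nlinarith [mul_pos h0 h0]

theorem stepB_core {y k b t F W τ : ℝ} (y0 : 0 < y) (y1 : y ≤ 1 / 100) (yk : y ≤ k)
    (t0 : 0 ≤ t) (t1 : t ≤ 1 / 100) (hb : |b| ≤ t) (hW0 : 0 ≤ W) (hW : W ≤ 8 * F)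
    (l1 : 1 + 9 * y ≤ τ) (l2 : τ ≤ 1 + 9 * y + 60 * y ^ 2) :
    2 * b * ((1 + b) * (τ - 1 - 9 * τ * y) + 9 * τ / (1 + b) * (y * (b ^ 2 - W * y)) +
      6 * τ * (k * y)) + ((1 + b) * (τ - 1)) ^ 2 ≤
      160 * t * y * (b ^ 2 + F * y) + 100 * (k * y) := by
  obtain ⟨b1, b2⟩ := abs_le.mp hb
  have hβ : 0 < 1 + b := by linarith
  have hβ1 : 1 + b ≤ 101 / 100 := by linarith
  have hyy : y ^ 2 ≤ k * y := by nlinarith
  have hy2 : 0 ≤ y ^ 2 := by positivity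
  have hy3 : y ^ 2 ≤ y / 100 := by nlinarith
  have ht1 : τ - 1 ≤ 48 / 5 * y := by nlinarith
  have ht0 : 0 ≤ τ - 1 := by nlinarith
  have ht2 : τ ≤ 1096 / 1000 := by nlinarith
  have a1 : |τ - 1 - 9 * τ * y| ≤ 87 * y ^ 2 := by
    rw [abs_le]
    constructor <;> nlinarith
  have a2 : |(1 + b) * (τ - 1 - 9 * τ * y)| ≤ 88 * (k * y) := by
    rw [abs_mul, abs_of_pos hβ]
    calc (1 + b) * |τ - 1 - 9 * τ * y| ≤ 101 / 100 * (87 * y ^ 2) :=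
          mul_le_mul hβ1 a1 (abs_nonneg _) (by norm_num)
      _ ≤ 88 * (k * y) := by nlinarith
  have a3 : 9 * τ / (1 + b) ≤ 10 := by
    rw [div_le_iff₀ hβ]
    nlinarith
  have a4 : 0 ≤ 9 * τ / (1 + b) := by
    have : 0 ≤ τ := by linarith
    positivity
  have a5 : |y * (b ^ 2 - W * y)| ≤ y * (b ^ 2 + 8 * F * y) := by
    rw [abs_mul, abs_of_pos y0]
    refine mul_le_mul_of_nonneg_left ?_ y0.le
    have h1 : W * y ≤ 8 * F * y := mul_le_mul_of_nonneg_right hW y0.le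
    have h2 : 0 ≤ W * y := by positivity
    rw [abs_le]
    constructor <;> nlinarith [sq_nonneg b]
  have a6 : |9 * τ / (1 + b) * (y * (b ^ 2 - W * y))| ≤ 10 * (y * (b ^ 2 + 8 * F * y)) := by
    rw [abs_mul, abs_of_nonneg a4]
    exact mul_le_mul a3 a5 (abs_nonneg _) (by norm_num)
  have hky : 0 ≤ k * y := hy2.trans hyy
  have a7 : |6 * τ * (k * y)| ≤ 7 * (k * y) := by
    rw [abs_of_nonneg (by have : 0 ≤ τ := by linarith
                          positivity)]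
    nlinarith
  have a8 : |(1 + b) * (τ - 1 - 9 * τ * y) + 9 * τ / (1 + b) * (y * (b ^ 2 - W * y)) +
      6 * τ * (k * y)| ≤ 95 * (k * y) + 10 * (y * (b ^ 2 + 8 * F * y)) := by
    refine (abs_add_le _ _).trans ?_
    have := abs_add_le ((1 + b) * (τ - 1 - 9 * τ * y)) (9 * τ / (1 + b) * (y * (b ^ 2 - W * y)))
    linarith
  generalize (1 + b) * (τ - 1 - 9 * τ * y) + 9 * τ / (1 + b) * (y * (b ^ 2 - W * y)) +
      6 * τ * (k * y) = D at a8 ⊢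
  have a9 : b * D ≤ t * (95 * (k * y) + 10 * (y * (b ^ 2 + 8 * F * y))) := by
    refine (le_abs_self _).trans ?_
    rw [abs_mul]
    exact mul_le_mul hb a8 (abs_nonneg _) t0
  have a10 : ((1 + b) * (τ - 1)) ^ 2 ≤ 95 * (k * y) := by
    have h1 : (1 + b) * (τ - 1) ≤ 101 / 100 * (48 / 5 * y) :=
      mul_le_mul hβ1 ht1 ht0 (by norm_num)
    have h2 : 0 ≤ (1 + b) * (τ - 1) := mul_nonneg hβ.le ht0
    calc ((1 + b) * (τ - 1)) ^ 2 ≤ (101 / 100 * (48 / 5 * y)) ^ 2 := pow_le_pow_left₀ h2 h1 2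
      _ ≤ 95 * (k * y) := by nlinarith
  have a11 : t * (k * y) ≤ 1 / 100 * (k * y) := mul_le_mul_of_nonneg_right t1 hky
  have a12 : 0 ≤ t * y * b ^ 2 := by positivity
  nlinarith

theorem stepB_real {E m b t F W Q τ SN SN2 : ℝ} (hE : 100 ≤ E) (m1 : 1 ≤ m) (mE : m ≤ E)
    (t0 : 0 ≤ t) (t1 : t ≤ 1 / 100) (hb : |b| ≤ t) (hW0 : 0 ≤ W) (hW : W ≤ 8 * F)
    (hQ : Q = m * E * (1 + b) / 3) (hτ : τ = (E / (E - 3)) ^ 3)
    (hSN : SN = m ^ 2 * (W + 2 * (E * b) + E) - 2 * Q) (hS0 : 0 ≤ SN)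
    (hS2 : SN2 ≤ 6 * m ^ 2 * E ^ 2) :
    Q * (b + (1 + b) * (τ - 1)) ^ 2 - 2 * (b + (1 + b) * (τ - 1)) * (3 * τ / (m * E)) * SN +
      (3 * τ / (m * E)) ^ 2 * SN2 ≤
      Q * (b ^ 2 + 160 * t / E * (b ^ 2 + F / E) + 700 / (m * E)) := by
  have h0 : 0 < E := by linarith
  have hm : 0 < m := by linarith
  obtain ⟨b1, b2⟩ := abs_le.mp hb
  have hβ : 0 < 1 + b := by linarith
  obtain ⟨l1, l2⟩ := tau3_bounds hE
  rw [← hτ] at l1 l2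
  have y1 : E⁻¹ ≤ 1 / 100 := by
    rw [one_div]
    exact inv_anti₀ (by norm_num) hE
  have yk : E⁻¹ ≤ m⁻¹ := inv_anti₀ hm mE
  have y0 : 0 < E⁻¹ := by positivity
  have l1' : 1 + 9 * E⁻¹ ≤ τ := by rwa [← div_eq_mul_inv]
  have l2' : τ ≤ 1 + 9 * E⁻¹ + 60 * E⁻¹ ^ 2 := by
    rwa [inv_pow, ← div_eq_mul_inv, ← div_eq_mul_inv]
  have hc := stepB_core (k := m⁻¹) y0 y1 yk t0 t1 hb hW0 hW l1' l2'
  have hQ0 : 0 < Q := by rw [hQ]; positivity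
  have ht0 : 0 ≤ τ - 1 := by linarith
  have ht2 : τ ≤ 1096 / 1000 := by
    have := pow_le_pow_left₀ y0.le y1 2
    linarith
  have hτ0 : 0 ≤ τ := by linarith
  have ht3 : τ ^ 2 ≤ (1096 / 1000) ^ 2 := pow_le_pow_left₀ hτ0 ht2 2
  have e1 : Q * ((1 + b) * (τ - 1)) - 3 * τ / (m * E) * SN =
      Q * ((1 + b) * (τ - 1 - 9 * τ * E⁻¹) + 9 * τ / (1 + b) * (E⁻¹ * (b ^ 2 - W * E⁻¹)) +
        6 * τ * (m⁻¹ * E⁻¹)) := by
    rw [hSN, hQ]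
    field_simp
    ring
  have e2 : 0 ≤ (1 + b) * (τ - 1) * (3 * τ / (m * E)) * SN := by positivity
  have e3 : (3 * τ / (m * E)) ^ 2 * SN2 ≤ Q * (600 * (m⁻¹ * E⁻¹)) := by
    have h1 : (3 * τ / (m * E)) ^ 2 * SN2 ≤ (3 * τ / (m * E)) ^ 2 * (6 * m ^ 2 * E ^ 2) :=
      mul_le_mul_of_nonneg_left hS2 (by positivity)
    have h2 : (3 * τ / (m * E)) ^ 2 * (6 * m ^ 2 * E ^ 2) = 54 * τ ^ 2 := by
      field_simp
      ring
    have h3 : Q * (600 * (m⁻¹ * E⁻¹)) = 200 * (1 + b) := by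
      rw [hQ]
      field_simp
      ring
    rw [h3]
    linarith
  have e4 := mul_le_mul_of_nonneg_left hc hQ0.le
  have e5 : Q * (b ^ 2 + 160 * t / E * (b ^ 2 + F / E) + 700 / (m * E)) =
      Q * b ^ 2 + Q * (160 * t * E⁻¹ * (b ^ 2 + F * E⁻¹) + 100 * (m⁻¹ * E⁻¹)) +
        Q * (600 * (m⁻¹ * E⁻¹)) := by
    field_simp
    ring
  have e6 : Q * (b + (1 + b) * (τ - 1)) ^ 2 -
      2 * (b + (1 + b) * (τ - 1)) * (3 * τ / (m * E)) * SN =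
      Q * b ^ 2 + 2 * b * (Q * ((1 + b) * (τ - 1)) - 3 * τ / (m * E) * SN) +
        Q * ((1 + b) * (τ - 1)) ^ 2 - 2 * ((1 + b) * (τ - 1) * (3 * τ / (m * E)) * SN) := by
    ring
  rw [e5, e6, e1]
  generalize (1 + b) * (τ - 1 - 9 * τ * E⁻¹) + 9 * τ / (1 + b) * (E⁻¹ * (b ^ 2 - W * E⁻¹)) +
        6 * τ * (m⁻¹ * E⁻¹) = D at e4 ⊢
  have e7 : Q * (2 * b * D + ((1 + b) * (τ - 1)) ^ 2) =
      2 * b * (Q * D) + Q * ((1 + b) * (τ - 1)) ^ 2 := by ring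
  linarith

namespace L3

variable {α : Type} [DecidableEq α] {G : L3 α} {κ t n : ℝ}

theorem Ok.stepB (h : G.Ok κ t n) :
    ∑ T ∈ G.H, (G.rem T).bb κ ^ 2 ≤ G.Q * (G.bb κ ^ 2 +
      160 * t / G.E * (G.bb κ ^ 2 + G.FF (κ * G.E ^ 2) / G.E) + 700 / (κ * G.E ^ 2 * G.E)) := by
  have h1 := h.k0
  have h0 : 0 < G.E := by linarith [h.e100]
  have h3 : 0 < G.E - 3 := by linarith [h.e100]
  have hm : 0 < κ * G.E ^ 2 := by positivity
  set τ : ℝ := (G.E / (G.E - 3)) ^ 3 with hτ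
  set A : ℝ := G.bb κ + (1 + G.bb κ) * (τ - 1) with hA
  set c : ℝ := 3 * τ / (κ * G.E ^ 2 * G.E) with hc
  have e1 : ∀ T ∈ G.H, (G.rem T).bb κ ^ 2 =
      A ^ 2 - 2 * A * c * G.NN T + c ^ 2 * (G.NN T : ℝ) ^ 2 := by
    intro T hT
    have : (G.rem T).bb κ = A - c * G.NN T := by
      rw [hA, hc, hτ]
      unfold bb
      rw [G.rem_E hT, G.rem_Q]
      field_simp
      ring
    rw [this]
    ring
  have z2 : ∑ e ∈ G.V, (G.deg e : ℝ) ^ 2 =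
      (κ * G.E ^ 2) ^ 2 * ∑ e ∈ G.V, ((G.deg e : ℝ) / (κ * G.E ^ 2)) ^ 2 := by
    rw [Finset.mul_sum]
    refine Finset.sum_congr rfl fun e _ => ?_
    field_simp
  have z3 : ∑ e ∈ G.V, ((G.deg e : ℝ) / (κ * G.E ^ 2)) ^ 2 =
      ∑ e ∈ G.V, ((G.deg e : ℝ) / (κ * G.E ^ 2) - 1) ^ 2 + 2 * (G.E * G.bb κ) + G.E := by
    rw [← h.sum_w, Finset.mul_sum, ← Finset.sum_add_distrib, E, Finset.card_eq_sum_ones]
    push_cast
    rw [← Finset.sum_add_distrib]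
    exact Finset.sum_congr rfl fun e _ => by ring
  have hSN := G.sum_NN
  have hS0 : 0 ≤ ∑ T ∈ G.H, (G.NN T : ℝ) := Finset.sum_nonneg fun T _ => by positivity
  have hS2 : ∑ T ∈ G.H, (G.NN T : ℝ) ^ 2 ≤ 6 * (κ * G.E ^ 2) ^ 2 * G.E ^ 2 := by
    have a1 : ∀ T ∈ G.H, (G.NN T : ℝ) ^ 2 ≤ 3 * G.E * G.NN T := by
      intro T hT
      have b1 : (G.NN T : ℝ) ≤ 3 * G.E := by
        rw [G.NN_eq hT]
        have := Finset.sum_le_card_nsmul T (fun e => (G.deg e : ℝ)) G.E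
          (fun e _ => (h.dn e).trans h.nE)
        rw [G.card3 T hT, nsmul_eq_mul] at this
        push_cast at this
        linarith
      rw [sq]
      exact mul_le_mul_of_nonneg_right b1 (by positivity)
    refine (Finset.sum_le_sum a1).trans ?_
    rw [← Finset.mul_sum, hSN, z2]
    have a2 : (κ * G.E ^ 2) ^ 2 * ∑ e ∈ G.V, ((G.deg e : ℝ) / (κ * G.E ^ 2)) ^ 2 ≤
        (κ * G.E ^ 2) ^ 2 * (2 * G.E) := mul_le_mul_of_nonneg_left h.sum_z2 (by positivity)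
    have a3 := h.Q_pos
    nlinarith
  rw [z2, z3] at hSN
  have key := stepB_real h.e100 h.m1 h.mE h.t0 h.t1 h.hb
    (Finset.sum_nonneg fun e _ => sq_nonneg _) h.sum_w2 h.Q_eq hτ hSN hS0 hS2
  rw [Finset.sum_congr rfl e1, Finset.sum_add_distrib, Finset.sum_sub_distrib,
    ← Finset.mul_sum, ← Finset.mul_sum, Finset.sum_const, nsmul_eq_mul]
  exact key

end L3

end Vale.Agent.P046
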