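import Vale.Agent.P046.StepF
import Vale.Agent.P046.StepB

namespace Vale.Agent.P046

theorem stepS_real {E m b t F Q SF SB : ℝ} (hE : 100 ≤ E) (m1 : 1 ≤ m)
    (t0 : 0 ≤ t) (t1 : t ≤ 1 / 100) (hb : |b| ≤ t) (hF : 0 ≤ F)
    (hQ : Q = m * E * (1 + b) / 3)
    (hSF : SF ≤ Q * F + (m * F * (1 + 10 * t) + 4 * m * E * b ^ 2 + 200 * E))
    (hSB : SB ≤ Q * (b ^ 2 + 160 * t / E * (b ^ 2 + F / E) + 700 / (m * E))) :
    (E - 3) * (SF + 3 * (E - 3) * SB) ≤
      Q * (E * (F + 3 * E * b ^ 2) * (1 + 3000 * t / E) + 3000 * (E / m)) := by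
  have h0 : 0 < E := by linarith
  have h3 : 0 < E - 3 := by linarith
  have hm : 0 < m := by linarith
  obtain ⟨b1, b2⟩ := abs_le.mp hb
  have hβ : 0 < 1 + b := by linarith
  have hQ0 : 0 < Q := by rw [hQ]; positivity
  have hβ2 : 1 ≤ (1 + b) * (1 + 2 * t) := by
    have c1 := mul_le_mul_of_nonneg_left t1 t0
    have c2 := mul_le_mul_of_nonneg_left b1 t0
    linarith
  have a0 : m * E ≤ Q * (3 * (1 + 2 * t)) := by
    rw [hQ]
    have := mul_le_mul_of_nonneg_left hβ2 (mul_pos hm h0).le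
    linarith
  have a1 : (E - 3) * (m * F * (1 + 10 * t)) ≤ Q * ((3 + 37 * t) * F) := by
    have c1 : (E - 3) * m ≤ Q * (3 * (1 + 2 * t)) := by linarith
    have c2 : 3 * (1 + 2 * t) * (1 + 10 * t) ≤ 3 + 37 * t := by
      have := mul_le_mul_of_nonneg_left t1 t0
      linarith
    calc (E - 3) * (m * F * (1 + 10 * t)) = (E - 3) * m * (F * (1 + 10 * t)) := by ring
      _ ≤ Q * (3 * (1 + 2 * t)) * (F * (1 + 10 * t)) :=
          mul_le_mul_of_nonneg_right c1 (by positivity)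
      _ = Q * F * (3 * (1 + 2 * t) * (1 + 10 * t)) := by ring
      _ ≤ Q * F * (3 + 37 * t) := mul_le_mul_of_nonneg_left c2 (by positivity)
      _ = _ := by ring
  have a2 : (E - 3) * (4 * m * E * b ^ 2) ≤ Q * (13 * E * b ^ 2) := by
    have c1 : m * E ≤ Q * (13 / 4) :=
      a0.trans (mul_le_mul_of_nonneg_left (by linarith) hQ0.le)
    calc (E - 3) * (4 * m * E * b ^ 2) = m * E * (4 * (E - 3) * b ^ 2) := by ring
      _ ≤ Q * (13 / 4) * (4 * E * b ^ 2) :=
          mul_le_mul c1 (by linarith [sq_nonneg b]) (by positivity) (by positivity)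
      _ = _ := by ring
  have a3 : (E - 3) * (200 * E) ≤ Q * (700 * (E / m)) := by
    have c1 : Q * (700 * (E / m)) = 700 / 3 * (1 + b) * E ^ 2 := by
      rw [hQ]
      field_simp
    have c2 : 200 ≤ 700 / 3 * (1 + b) := by linarith
    have c3 := mul_le_mul_of_nonneg_right c2 (sq_nonneg E)
    rw [c1]
    linarith
  have r1 : (E - 3) / E ≤ 1 := by rw [div_le_one h0]; linarith
  have r0 : 0 ≤ (E - 3) / E := by positivity
  have a4 : 3 * (E - 3) ^ 2 * (b ^ 2 + 160 * t / E * (b ^ 2 + F / E) + 700 / (m * E)) ≤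
      3 * (E - 3) ^ 2 * b ^ 2 + 480 * t * (E * b ^ 2 + F) + 2100 * (E / m) := by
    have c1 : 3 * (E - 3) ^ 2 * (b ^ 2 + 160 * t / E * (b ^ 2 + F / E) + 700 / (m * E)) =
        3 * (E - 3) ^ 2 * b ^ 2 +
          ((E - 3) / E) ^ 2 * (480 * t * (E * b ^ 2 + F) + 2100 * (E / m)) := by
      field_simp
      ring
    have c2 : ((E - 3) / E) ^ 2 ≤ 1 := pow_le_one₀ r0 r1
    have c3 : 0 ≤ 480 * t * (E * b ^ 2 + F) + 2100 * (E / m) := by positivity
    have c4 := mul_le_mul_of_nonneg_right c2 c3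
    rw [c1]
    linarith
  have a5 : (E - 3) * SF ≤ Q * ((E - 3) * F) + Q * ((3 + 37 * t) * F) + Q * (13 * E * b ^ 2) +
      Q * (700 * (E / m)) := by
    have := mul_le_mul_of_nonneg_left hSF h3.le
    have e : (E - 3) * (Q * F + (m * F * (1 + 10 * t) + 4 * m * E * b ^ 2 + 200 * E)) =
        Q * ((E - 3) * F) + (E - 3) * (m * F * (1 + 10 * t)) + (E - 3) * (4 * m * E * b ^ 2) +
          (E - 3) * (200 * E) := by ring
    linarith
  have a6 : 3 * (E - 3) ^ 2 * SB ≤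
      Q * (3 * (E - 3) ^ 2 * b ^ 2 + 480 * t * (E * b ^ 2 + F) + 2100 * (E / m)) := by
    calc 3 * (E - 3) ^ 2 * SB ≤ 3 * (E - 3) ^ 2 *
          (Q * (b ^ 2 + 160 * t / E * (b ^ 2 + F / E) + 700 / (m * E))) :=
          mul_le_mul_of_nonneg_left hSB (by positivity)
      _ = Q * (3 * (E - 3) ^ 2 * (b ^ 2 + 160 * t / E * (b ^ 2 + F / E) + 700 / (m * E))) := by
          ring
      _ ≤ _ := mul_le_mul_of_nonneg_left a4 hQ0.le
  have a7 : (E - 3) * F + (3 + 37 * t) * F + 13 * E * b ^ 2 + 700 * (E / m) +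
      (3 * (E - 3) ^ 2 * b ^ 2 + 480 * t * (E * b ^ 2 + F) + 2100 * (E / m)) ≤
      E * (F + 3 * E * b ^ 2) * (1 + 3000 * t / E) + 3000 * (E / m) := by
    have c1 : E * (F + 3 * E * b ^ 2) * (1 + 3000 * t / E) =
        E * (F + 3 * E * b ^ 2) + 3000 * t * (F + 3 * E * b ^ 2) := by
      field_simp
    have c2 : 0 ≤ t * F := by positivity
    have c3 : 0 ≤ t * (E * b ^ 2) := by positivity
    have c4 : 0 ≤ E / m := by positivity
    have c5 : 0 ≤ (5 * E - 27) * b ^ 2 := mul_nonneg (by linarith) (sq_nonneg b)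
    rw [c1]
    linarith
  have a8 := mul_le_mul_of_nonneg_left a7 hQ0.le
  linarith

namespace L3

variable {α : Type} [DecidableEq α] {G : L3 α} {κ t n : ℝ}

theorem E_nonneg (G : L3 α) : 0 ≤ G.E := by
  unfold E
  positivity

theorem sig_nonneg (hκ : 0 < κ) : 0 ≤ G.sig κ := by
  have h1 := G.E_nonneg
  have h2 : 0 ≤ G.FF (κ * G.E ^ 2) := FF_nonneg (by positivity)
  unfold sig
  positivity

theorem Ok.stepS (h : G.Ok κ t n) :
    ∑ T ∈ G.H, (G.rem T).sig κ ≤ G.Q * (G.sig κ * (1 + 3000 * t / G.E) + 3000 / G.E) := by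
  have h1 := h.k0
  have h0 : 0 < G.E := by linarith [h.e100]
  have e1 : ∀ T ∈ G.H, (G.rem T).sig κ = κ * (G.E - 3) * (G.rem T).FF (κ * (G.E - 3) ^ 2) +
      κ * (G.E - 3) * (3 * (G.E - 3)) * (G.rem T).bb κ ^ 2 := by
    intro T hT
    unfold sig
    rw [G.rem_E hT]
    ring
  have hF := h.stepF
  rw [Finset.sum_sub_distrib, Finset.sum_const, nsmul_eq_mul] at hF
  have key := stepS_real (SF := ∑ T ∈ G.H, (G.rem T).FF (κ * (G.E - 3) ^ 2))
    (F := G.FF (κ * G.E ^ 2)) h.e100 h.m1 h.t0 h.t1 h.hb (FF_nonneg (by positivity)) h.Q_eq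
    (by unfold Q; linarith) h.stepB
  have key2 := mul_le_mul_of_nonneg_left key h1.le
  rw [Finset.sum_congr rfl e1, Finset.sum_add_distrib, ← Finset.mul_sum, ← Finset.mul_sum]
  have e2 : G.Q * (G.sig κ * (1 + 3000 * t / G.E) + 3000 / G.E) =
      κ * (G.Q * (G.E * (G.FF (κ * G.E ^ 2) + 3 * G.E * G.bb κ ^ 2) * (1 + 3000 * t / G.E) +
        3000 * (G.E / (κ * G.E ^ 2)))) := by
    unfold sig
    field_simp
  rw [e2]
  refine le_trans (le_of_eq ?_) key2
  ring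

theorem UU_nonneg {Λ : ℝ} (hκ : 0 < κ) (hΛ : 1 ≤ Λ) (h100 : 100 ≤ √(Λ / κ)) : 0 ≤ G.UU κ Λ := by
  unfold UU
  split_ifs with hE
  · exact le_rfl
  · have hE' : 2000 * √(Λ / κ) < G.E := not_le.mp hE
    have h0 : 0 < G.E := by linarith
    have a1 : 2000 * √(Λ / κ) / G.E ≤ 1 := by rw [div_le_one h0]; exact hE'.le
    have a2 : 0 ≤ 2 - 2000 * √(Λ / κ) / G.E := by linarith
    have a3 : 0 ≤ Real.log G.E := Real.log_nonneg (by linarith)
    have a4 : 0 ≤ G.sig κ := sig_nonneg hκ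
    have a5 : 0 < Λ := by linarith
    exact le_min zero_le_one (by positivity)

theorem UU_le_one {Λ : ℝ} : G.UU κ Λ ≤ 1 := by
  unfold UU
  split_ifs
  · exact zero_le_one
  · exact min_le_left _ _

theorem stepU {Λ : ℝ} (hκ : 0 < κ) (hΛ : 1 ≤ Λ) (h100 : 100 ≤ √(Λ / κ)) (hn : n ≤ √(Λ / κ))
    (hm : κ * G.E ^ 2 ≤ n) (hd : ∀ e, (G.deg e : ℝ) ≤ n) :
    ∑ T ∈ G.H, (G.rem T).UU κ Λ ≤ G.Q * G.UU κ Λ := by
  have hΛ0 : 0 < Λ := by linarith
  have hR2 : κ * √(Λ / κ) ^ 2 = Λ := by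
    rw [Real.sq_sqrt (by positivity)]
    field_simp
  by_cases hE : G.E ≤ 2000 * √(Λ / κ)
  · have a1 : ∀ T ∈ G.H, (G.rem T).UU κ Λ = 0 := by
      intro T hT
      unfold UU
      rw [G.rem_E hT, if_pos (by linarith)]
    rw [Finset.sum_congr rfl a1]
    unfold UU
    rw [if_pos hE]
    simp
  have hUU : G.UU κ Λ =
      min 1 ((2 - 2000 * √(Λ / κ) / G.E) * G.sig κ / Λ + 2000 * Real.log G.E / Λ) := by
    unfold UU
    rw [if_neg hE]
  have hrem : ∀ T ∈ G.H, (G.rem T).UU κ Λ = if G.E - 3 ≤ 2000 * √(Λ / κ) then 0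
      else min 1 ((2 - 2000 * √(Λ / κ) / (G.E - 3)) * (G.rem T).sig κ / Λ +
        2000 * Real.log (G.E - 3) / Λ) := by
    intro T hT
    unfold UU
    rw [G.rem_E hT]
  generalize √(Λ / κ) = R at *
  have hE' : 2000 * R < G.E := not_le.mp hE
  have h0 : 0 < G.E := by linarith
  have h3 : 0 < G.E - 3 := by linarith
  have hR0 : 0 < R := by linarith
  rcases le_total 1 ((2 - 2000 * R / G.E) * G.sig κ / Λ + 2000 * Real.log G.E / Λ) with hc | hc
  · rw [hUU, min_eq_left hc, mul_one]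
    refine (Finset.sum_le_card_nsmul _ _ 1 fun T _ => UU_le_one).trans ?_
    simp [Q]
  rw [hUU, min_eq_right hc]
  have a1 : 2000 * R / G.E ≤ 1 := by rw [div_le_one h0]; exact hE'.le
  have a3 : 0 ≤ Real.log G.E := Real.log_nonneg (by linarith)
  have a3' : 0 ≤ Real.log (G.E - 3) := Real.log_nonneg (by linarith)
  have a4 : 0 ≤ G.sig κ := sig_nonneg hκ
  have hσ : G.sig κ ≤ Λ := by
    have b1 : 0 ≤ 2000 * Real.log G.E / Λ := by positivity
    have b2 : (2 - 2000 * R / G.E) * G.sig κ / Λ ≤ 1 := by linarith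
    rw [div_le_one hΛ0] at b2
    nlinarith
  have hF0 : 0 ≤ G.FF (κ * G.E ^ 2) := FF_nonneg (by positivity)
  have hσ2 : G.E * (G.FF (κ * G.E ^ 2) + 3 * G.E * G.bb κ ^ 2) ≤ R ^ 2 := by
    refine le_of_mul_le_mul_left ?_ hκ
    rw [hR2, ← mul_assoc]
    exact hσ
  have hok : G.Ok κ (R / G.E) n :=
    { k0 := hκ
      t0 := by positivity
      t1 := by rw [div_le_iff₀ h0]; linarith
      e100 := by linarith
      m1 := by
        have : R ^ 2 ≤ G.E ^ 2 := pow_le_pow_left₀ hR0.le (by linarith) 2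
        nlinarith
      mE := by linarith
      nE := by linarith
      dn := hd
      hF := by
        have b1 : (R / G.E) ^ 2 * G.E = R ^ 2 / G.E := by field_simp
        rw [b1, le_div_iff₀ h0]
        have : 0 ≤ G.E * (3 * G.E * G.bb κ ^ 2) := by positivity
        nlinarith
      hb := by
        refine abs_le_of_sq_le_sq' ?_ (by positivity) |> abs_le.mpr
        rw [div_pow, le_div_iff₀ (by positivity)]
        have b1 : 0 ≤ G.E * G.FF (κ * G.E ^ 2) := by positivity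
        have b2 : 0 ≤ G.bb κ ^ 2 * G.E ^ 2 := by positivity
        nlinarith }
  have c0 : 0 ≤ 2 - 2000 * R / (G.E - 3) := by
    have : 2000 * R / (G.E - 3) ≤ 2 := by rw [div_le_iff₀ h3]; linarith
    linarith
  have c2 : 2 - 2000 * R / (G.E - 3) ≤ 2 := by
    have : 0 ≤ 2000 * R / (G.E - 3) := by positivity
    linarith
  have c1 : 2 - 2000 * R / (G.E - 3) ≤ 2 - 2000 * R / G.E - 6000 * (R / G.E) / G.E := by
    have b1 : 2000 * R / G.E + 6000 * (R / G.E) / G.E = 2000 * R * (G.E + 3) / G.E ^ 2 := by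
      field_simp
      ring
    have b2 : 2000 * R * (G.E + 3) / G.E ^ 2 ≤ 2000 * R / (G.E - 3) := by
      rw [div_le_div_iff₀ (by positivity) h3]
      nlinarith
    linarith
  have c3 : Real.log (G.E - 3) ≤ Real.log G.E - 3 / G.E := by
    have b1 := Real.log_le_sub_one_of_pos (div_pos h3 h0)
    rw [Real.log_div h3.ne' h0.ne'] at b1
    have b2 : (G.E - 3) / G.E - 1 = -(3 / G.E) := by
      field_simp
      ring
    linarith
  have d1 : ∀ T ∈ G.H, (G.rem T).UU κ Λ ≤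
      (2 - 2000 * R / (G.E - 3)) / Λ * (G.rem T).sig κ + 2000 * Real.log (G.E - 3) / Λ := by
    intro T hT
    have b1 : 0 ≤ (G.rem T).sig κ := sig_nonneg hκ
    rw [hrem T hT]
    split_ifs
    · positivity
    · refine (min_le_right _ _).trans (le_of_eq ?_)
      ring
  refine (Finset.sum_le_sum d1).trans ?_
  rw [Finset.sum_add_distrib, ← Finset.mul_sum, Finset.sum_const, nsmul_eq_mul]
  have d2 := mul_le_mul_of_nonneg_left hok.stepS (div_nonneg c0 hΛ0.le)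
  have hQ := hok.Q_pos
  generalize 2 - 2000 * R / (G.E - 3) = a at *
  have d3 : a * (G.sig κ * (1 + 3000 * (R / G.E) / G.E) + 3000 / G.E) +
      2000 * Real.log (G.E - 3) ≤ (2 - 2000 * R / G.E) * G.sig κ + 2000 * Real.log G.E := by
    have b0 : 0 ≤ 3000 * (R / G.E) / G.E := by positivity
    have b1 : a * (1 + 3000 * (R / G.E) / G.E) ≤ 2 - 2000 * R / G.E := by
      have := mul_le_mul_of_nonneg_right c2 b0
      have b3 : 6000 * (R / G.E) / G.E = 2 * (3000 * (R / G.E) / G.E) := by ring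
      nlinarith
    have b2 := mul_le_mul_of_nonneg_right b1 a4
    have b4 : a * (3000 / G.E) ≤ 2 * (3000 / G.E) :=
      mul_le_mul_of_nonneg_right c2 (by positivity)
    have b5 : 2 * (3000 / G.E) = 2000 * (3 / G.E) := by ring
    nlinarith
  have d4 := mul_le_mul_of_nonneg_left d3 (div_nonneg hQ.le hΛ0.le)
  change _ + G.Q * _ ≤ _
  calc a / Λ * ∑ T ∈ G.H, (G.rem T).sig κ + G.Q * (2000 * Real.log (G.E - 3) / Λ)
      ≤ a / Λ * (G.Q * (G.sig κ * (1 + 3000 * (R / G.E) / G.E) + 3000 / G.E)) +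
        G.Q * (2000 * Real.log (G.E - 3) / Λ) := by linarith
    _ = G.Q / Λ * (a * (G.sig κ * (1 + 3000 * (R / G.E) / G.E) + 3000 / G.E) +
        2000 * Real.log (G.E - 3)) := by ring
    _ ≤ G.Q / Λ * ((2 - 2000 * R / G.E) * G.sig κ + 2000 * Real.log G.E) := d4
    _ = _ := by ring

theorem UU_empty {Λ : ℝ} (hκ : 0 < κ) (hΛ : 1 ≤ Λ) (h100 : 100 ≤ √(Λ / κ)) (h : G.H = ∅)
    (hE : 2000 * √(Λ / κ) < G.E) : G.UU κ Λ = 1 := by
  have hΛ0 : 0 < Λ := by linarith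
  have hR2 : κ * √(Λ / κ) ^ 2 = Λ := by
    rw [Real.sq_sqrt (by positivity)]
    field_simp
  unfold UU
  rw [if_neg (not_le.mpr hE)]
  generalize √(Λ / κ) = R at *
  have h0 : 0 < G.E := by linarith
  have hb : G.bb κ = -1 := by
    unfold bb Q
    rw [h]
    simp
  have hF0 : 0 ≤ G.FF (κ * G.E ^ 2) := FF_nonneg (by positivity)
  have a1 : 2000 * R / G.E ≤ 1 := by rw [div_le_one h0]; exact hE.le
  have a3 : 0 ≤ Real.log G.E := Real.log_nonneg (by linarith)
  have a4 : Λ ≤ G.sig κ := by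
    unfold sig
    rw [hb]
    have b1 : R ^ 2 ≤ G.E ^ 2 := pow_le_pow_left₀ (by linarith) (by linarith) 2
    have b2 := mul_le_mul_of_nonneg_left b1 hκ.le
    have b3 : 0 ≤ κ * G.E * G.FF (κ * G.E ^ 2) := by positivity
    have b4 : 0 ≤ κ * G.E ^ 2 := by positivity
    nlinarith
  refine min_eq_left ?_
  have b1 : 0 ≤ 2000 * Real.log G.E / Λ := by positivity
  have b2 : 1 ≤ (2 - 2000 * R / G.E) * G.sig κ / Λ := by
    rw [one_le_div hΛ0]
    nlinarith
  linarith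

theorem UU_reg {Λ D : ℝ} (hΛ : 1 ≤ Λ) (hD : 0 < D) (hE : 1 ≤ G.E)
    (h : ∀ e ∈ G.V, (G.deg e : ℝ) = D) : G.UU (D / G.E ^ 2) Λ ≤ 2000 * Real.log G.E / Λ := by
  have hΛ0 : 0 < Λ := by linarith
  have h0 : 0 < G.E := by linarith
  have a3 : 0 ≤ Real.log G.E := Real.log_nonneg hE
  have e1 : D / G.E ^ 2 * G.E ^ 2 = D := by field_simp
  have hF : G.FF D = 0 := by
    unfold FF
    refine Finset.sum_eq_zero fun e he => ?_
    rw [h e he, div_self hD.ne', ff_one]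
  have hQ : 3 * G.Q = G.E * D := by
    rw [← G.sum_deg, Finset.sum_congr rfl h, Finset.sum_const, nsmul_eq_mul]
    rfl
  have hb : G.bb (D / G.E ^ 2) = 0 := by
    unfold bb
    rw [hQ]
    field_simp
    ring
  have hs : G.sig (D / G.E ^ 2) = 0 := by
    unfold sig
    rw [e1, hF, hb]
    simp
  unfold UU
  split_ifs
  · positivity
  · refine (min_le_right _ _).trans (le_of_eq ?_)
    rw [hs]
    simp

end L3

end Vale.Agent.P046
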