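import Vale.Agent.P046.Proc
import Vale.Agent.P046.StepU

namespace Vale.Agent.P046

theorem upper_prob_le_one (n : ℕ) (A : Set ℕ) : ((law n).toOuterMeasure A).toReal ≤ 1 := by
  have h : (law n).toOuterMeasure A ≤ 1 := by
    rw [PMF.toOuterMeasure_apply, ← (law n).tsum_coe]
    exact ENNReal.tsum_le_tsum fun j => Set.indicator_le_self _ _ j
  simpa using ENNReal.toReal_mono ENNReal.one_ne_top h

theorem upper_rpow_sq (n : ℕ) : ((n : ℝ) ^ (3 / 2 : ℝ)) ^ 2 = (n : ℝ) ^ 3 := by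
  rw [← Real.rpow_natCast, ← Real.rpow_mul (Nat.cast_nonneg n), ← Real.rpow_natCast]
  norm_num

theorem upper_log {n : ℕ} (hn : 100 ≤ n) : 1 ≤ Real.log n := by
  have hn' : (100 : ℝ) ≤ n := by exact_mod_cast hn
  rw [Real.le_log_iff_exp_le (by linarith)]
  have := Real.exp_one_lt_d9
  linarith

theorem upper_tail {n : ℕ} (hn : 100 ≤ n) {L : ℝ} (hL : 1 ≤ L) :
    ((law n).toOuterMeasure {j | L * (n : ℝ) ^ (3 / 2 : ℝ) * √(Real.log n) < j}).toReal ≤
      10 ^ 11 / L ^ 2 := by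
  have hL0 : 0 < L := by linarith
  have hL2 : 0 < L ^ 2 := by positivity
  by_cases hbig : L ^ 2 ≤ 10 ^ 11
  · refine (upper_prob_le_one n _).trans ?_
    rw [le_div_iff₀ hL2]; linarith
  push Not at hbig
  have hn' : (100 : ℝ) ≤ n := by exact_mod_cast hn
  have hlog := upper_log hn
  set E0 : ℝ := (toL3 (⊤ : SimpleGraph (Fin n))).E with hE0
  have hE0v : E0 = n * (n - 1) / 2 := toL3_top_E
  have hE01 : 1 ≤ E0 := by rw [hE0v]; nlinarith
  have hE0p : 0 < E0 := by linarith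
  set D : ℝ := n - 2 with hD
  have hDp : 0 < D := by rw [hD]; linarith
  set κ : ℝ := D / E0 ^ 2 with hκ
  have hκp : 0 < κ := by positivity
  set Λ : ℝ := L ^ 2 * Real.log n / (4 * 10 ^ 6) with hΛ
  have hΛ1 : 1 ≤ Λ := by
    rw [hΛ, le_div_iff₀ (by norm_num)]; nlinarith
  have hq : Λ / κ = Λ * (E0 ^ 2 / D) := by rw [hκ]; field_simp
  have hq1 : (n : ℝ) ^ 2 ≤ E0 ^ 2 / D := by
    rw [le_div_iff₀ hDp, hE0v, hD]
    have : (n : ℝ) - 2 ≤ (n - 1) ^ 2 / 4 := by nlinarith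
    calc (n : ℝ) ^ 2 * (n - 2) ≤ (n : ℝ) ^ 2 * ((n - 1) ^ 2 / 4) := by gcongr
      _ = _ := by ring
  have hq2 : E0 ^ 2 / D ≤ (n : ℝ) ^ 3 := by
    rw [div_le_iff₀ hDp, hE0v, hD]
    have : ((n : ℝ) - 1) ^ 2 / 4 ≤ n * (n - 2) := by nlinarith
    calc ((n : ℝ) * (n - 1) / 2) ^ 2 = (n : ℝ) ^ 2 * ((n - 1) ^ 2 / 4) := by ring
      _ ≤ (n : ℝ) ^ 2 * (n * (n - 2)) := by gcongr
      _ = _ := by ring
  have hnR : (n : ℝ) ≤ √(Λ / κ) := by
    apply Real.le_sqrt_of_sq_le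
    rw [hq]
    have : 0 ≤ E0 ^ 2 / D := by positivity
    nlinarith
  have h100 : 100 ≤ √(Λ / κ) := hn'.trans hnR
  have hR : 2000 * √(Λ / κ) ≤ L * (n : ℝ) ^ (3 / 2 : ℝ) * √(Real.log n) := by
    have h1 : √(Λ / κ) ≤ L * (n : ℝ) ^ (3 / 2 : ℝ) * √(Real.log n) / 2000 := by
      apply Real.sqrt_le_iff.2
      refine ⟨by positivity, ?_⟩
      rw [div_pow, mul_pow, mul_pow, upper_rpow_sq, Real.sq_sqrt (by linarith), hq]
      calc Λ * (E0 ^ 2 / D) ≤ Λ * (n : ℝ) ^ 3 := by gcongr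
        _ = _ := by rw [hΛ]; ring
    linarith
  rw [law_prob]
  refine (law_le _ (fun G => G.UU κ Λ) ?_ ?_).trans ?_
  · intro G hG
    by_cases hm : G.edgeSet.ncard ∈ {j : ℕ | L * (n : ℝ) ^ (3 / 2 : ℝ) * √(Real.log n) < j}
    · rw [Set.indicator_of_mem hm]
      have hm' : L * (n : ℝ) ^ (3 / 2 : ℝ) * √(Real.log n) < G.edgeSet.ncard := hm
      have := L3.UU_empty (G := toL3 G) hκp hΛ1 h100 hG (by rw [toL3_E]; linarith)
      simp only [Pi.one_apply]
      exact this.ge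
    · rw [Set.indicator_of_notMem hm]
      exact L3.UU_nonneg hκp hΛ1 h100
  · intro G
    refine L3.stepU (n := n) hκp hΛ1 h100 hnR ?_ ?_
    · have h1 : (toL3 G).E ≤ E0 := toL3_E_le G
      have h2 : 0 ≤ (toL3 G).E := by rw [toL3_E]; positivity
      calc κ * (toL3 G).E ^ 2 ≤ κ * E0 ^ 2 := by gcongr
        _ = D := by rw [hκ]; field_simp
        _ ≤ n := by rw [hD]; linarith
    · intro e
      exact_mod_cast toL3_deg_le G e
  · refine (L3.UU_reg (G := toL3 (⊤ : SimpleGraph (Fin n))) hΛ1 hDp hE01 toL3_top_deg).trans ?_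
    have hl : Real.log E0 ≤ 2 * Real.log n := by
      have : E0 ≤ (n : ℝ) ^ 2 := by rw [hE0v]; nlinarith
      calc Real.log E0 ≤ Real.log ((n : ℝ) ^ 2) := Real.log_le_log hE0p this
        _ = _ := by rw [Real.log_pow]; norm_num
    change 2000 * Real.log E0 / Λ ≤ _
    rw [div_le_div_iff₀ (by linarith) hL2, hΛ]
    nlinarith

theorem upper_dyadic {x s : ℝ} (hs : 0 ≤ s) (J : ℕ) (h : x ≤ 2 ^ J * s) :
    x ≤ s * (1 + ∑ i ∈ Finset.range J, 2 ^ (i + 1) * (if 2 ^ i * s < x then (1 : ℝ) else 0)) := by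
  induction J with
  | zero => simpa using h
  | succ J ih =>
    rw [Finset.sum_range_succ]
    have hS : 0 ≤ ∑ i ∈ Finset.range J, (2 : ℝ) ^ (i + 1) * (if 2 ^ i * s < x then (1 : ℝ) else 0) :=
      Finset.sum_nonneg fun i _ => by split_ifs <;> positivity
    by_cases hx : 2 ^ J * s < x
    · rw [if_pos hx]
      nlinarith [mul_nonneg hs hS]
    · rw [if_neg hx]
      have := ih (not_lt.1 hx)
      simpa using this

theorem upper_tsum (n : ℕ) (f : ℕ → ℝ) :
    ∑' j, (law n j).toReal * f j = ∑ j ∈ Finset.range (n ^ 2 + 1), (law n j).toReal * f j := by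
  apply tsum_eq_sum
  intro j hj
  have : law n j = 0 := by
    by_contra h
    exact hj (Finset.mem_range.2 (Nat.lt_succ_of_le (law_support h)))
  simp [this]

theorem upper_geom (J : ℕ) : ∑ i ∈ Finset.range J, (2 : ℝ) ^ (i + 1) * (10 ^ 11 / (2 ^ i) ^ 2) ≤
    4 * 10 ^ 11 - 4 * 10 ^ 11 / 2 ^ J := by
  induction J with
  | zero => simp
  | succ J ih =>
    rw [Finset.sum_range_succ]
    have : (2 : ℝ) ^ (J + 1) * (10 ^ 11 / (2 ^ J) ^ 2) = 4 * 10 ^ 11 / 2 ^ J - 4 * 10 ^ 11 / 2 ^ (J + 1) := by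
      field_simp; ring
    linarith

theorem upper_mean {n : ℕ} (hn : 100 ≤ n) :
    ∑' j, (law n j).toReal * (j : ℝ) ≤ 10 ^ 12 * (n : ℝ) ^ (3 / 2 : ℝ) * √(Real.log n) := by
  have hn' : (100 : ℝ) ≤ n := by exact_mod_cast hn
  have hlog := upper_log hn
  set s : ℝ := (n : ℝ) ^ (3 / 2 : ℝ) * √(Real.log n) with hs
  have hs1 : 1 ≤ s := by
    have h1 : 1 ≤ (n : ℝ) ^ (3 / 2 : ℝ) := Real.one_le_rpow (by linarith) (by norm_num)
    have h2 : 1 ≤ √(Real.log n) := Real.one_le_sqrt.2 hlog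
    nlinarith
  have hs0 : 0 ≤ s := by linarith
  set J : ℕ := n ^ 2 with hJ
  have hP : ∀ i : ℕ, ∑ j ∈ Finset.range (J + 1),
      (law n j).toReal * (if 2 ^ i * s < (j : ℝ) then (1 : ℝ) else 0) ≤ 10 ^ 11 / (2 ^ i) ^ 2 := by
    intro i
    have h := upper_tail hn (L := 2 ^ i) (one_le_pow₀ (by norm_num))
    rw [law_prob, upper_tsum] at h
    refine le_of_eq_of_le ?_ h
    refine Finset.sum_congr rfl fun j _ => ?_
    congr 1
    rw [Set.indicator_apply]
    simp only [Set.mem_setOf_eq, Pi.one_apply, hs, mul_assoc]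
  have h1 : ∑ j ∈ Finset.range (J + 1), (law n j).toReal ≤ 1 := by
    have h := upper_prob_le_one n Set.univ
    rw [law_prob, upper_tsum] at h
    simpa using h
  rw [upper_tsum]
  calc ∑ j ∈ Finset.range (J + 1), (law n j).toReal * (j : ℝ)
      ≤ ∑ j ∈ Finset.range (J + 1), (law n j).toReal * (s * (1 + ∑ i ∈ Finset.range J,
          2 ^ (i + 1) * (if 2 ^ i * s < (j : ℝ) then (1 : ℝ) else 0))) := by
        refine Finset.sum_le_sum fun j hj => mul_le_mul_of_nonneg_left ?_ ENNReal.toReal_nonneg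
        refine upper_dyadic hs0 J ?_
        have hj' : j ≤ J := Nat.lt_succ_iff.1 (Finset.mem_range.1 hj)
        have h2 : (j : ℝ) ≤ 2 ^ J := by
          exact_mod_cast hj'.trans (Nat.lt_two_pow_self).le
        have h3 : (0 : ℝ) < 2 ^ J := by positivity
        nlinarith
    _ = s * (∑ j ∈ Finset.range (J + 1), (law n j).toReal + ∑ i ∈ Finset.range J, 2 ^ (i + 1) *
          ∑ j ∈ Finset.range (J + 1),
            (law n j).toReal * (if 2 ^ i * s < (j : ℝ) then (1 : ℝ) else 0)) := by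
        simp only [Finset.mul_sum, mul_add, Finset.sum_add_distrib]
        congr 1
        · exact Finset.sum_congr rfl fun j _ => by ring
        · rw [Finset.sum_comm]
          exact Finset.sum_congr rfl fun i _ => Finset.sum_congr rfl fun j _ => by ring
    _ ≤ s * (1 + ∑ i ∈ Finset.range J, (2 : ℝ) ^ (i + 1) * (10 ^ 11 / (2 ^ i) ^ 2)) := by
        gcongr with i hi
        exact hP i
    _ ≤ s * 10 ^ 12 := by
        have := upper_geom J
        have h3 : (0 : ℝ) ≤ 4 * 10 ^ 11 / 2 ^ J := by positivity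
        gcongr
        linarith
    _ = _ := by rw [hs]; ring

end Vale.Agent.P046
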