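import Vale.Agent.P046.Proc
import Vale.Agent.P046.StepV
import Vale.Agent.P046.Graph2
import Vale.Agent.P046.Upper

namespace Vale.Agent.P046

theorem lower_ev : ∀ᶠ n : ℕ in Filter.atTop, 4 * 10 ^ 6 * (8000 * Real.log n) < n - 2 := by
  have h := (Real.isLittleO_log_id_atTop.bound (c := 1 / 10 ^ 11) (by norm_num))
  have h2 := tendsto_natCast_atTop_atTop (R := ℝ) |>.eventually h
  filter_upwards [h2, Filter.eventually_ge_atTop 100] with n h3 hn
  have hn' : (100 : ℝ) ≤ n := by exact_mod_cast hn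
  simp only [id, Real.norm_eq_abs, Nat.abs_cast] at h3
  have := le_abs_self (Real.log n)
  linarith

theorem lower_mean : ∃ c : ℝ, 0 < c ∧ ∀ᶠ n : ℕ in Filter.atTop,
    c * (n : ℝ) ^ (3 / 2 : ℝ) / Real.log n ^ (7 / 2 : ℝ) ≤ ∑' j, (law n j).toReal * (j : ℝ) := by
  refine ⟨250 / (128 * (28 * 10 ^ 15) * (4 * 10 ^ 6) * 8000 ^ 4), by positivity, ?_⟩
  filter_upwards [lower_ev, Filter.eventually_ge_atTop 100] with n hev hn
  have hn' : (100 : ℝ) ≤ n := by exact_mod_cast hn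
  have hlog := upper_log hn
  set E0 : ℝ := (toL3 (⊤ : SimpleGraph (Fin n))).E with hE0
  have hE0v : E0 = n * (n - 1) / 2 := toL3_top_E
  have hE01 : 1 ≤ E0 := by rw [hE0v]; nlinarith
  have hE0p : 0 < E0 := by linarith
  set D : ℝ := n - 2 with hD
  have hDp : 0 < D := by rw [hD]; linarith
  set κ : ℝ := D / E0 ^ 2 with hκ
  have hκp : 0 < κ := by positivity
  set Λ : ℝ := 8000 * Real.log n with hΛ
  have hΛ1 : 1 ≤ Λ := by rw [hΛ]; linarith
  have hq : Λ / κ = Λ * (E0 ^ 2 / D) := by rw [hκ]; field_simp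
  have hq1 : (n : ℝ) ^ 3 / 4 ≤ E0 ^ 2 / D := by
    rw [le_div_iff₀ hDp, hE0v, hD]
    have : (n : ℝ) * (n - 2) ≤ (n - 1) ^ 2 := by nlinarith
    calc (n : ℝ) ^ 3 / 4 * (n - 2) = (n : ℝ) ^ 2 / 4 * (n * (n - 2)) := by ring
      _ ≤ (n : ℝ) ^ 2 / 4 * ((n - 1) ^ 2) := by gcongr
      _ = _ := by ring
  have hnR : (n : ℝ) ≤ √(Λ / κ) := by
    apply Real.le_sqrt_of_sq_le
    rw [hq]
    have h1 : (n : ℝ) ^ 2 ≤ (n : ℝ) ^ 3 / 4 := by
      have := mul_le_mul_of_nonneg_left hn' (sq_nonneg (n : ℝ))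
      nlinarith [sq_nonneg (n : ℝ)]
    have : 0 ≤ E0 ^ 2 / D := by positivity
    nlinarith
  have h100 : 100 ≤ √(Λ / κ) := hn'.trans hnR
  have hR : 2000 * √(Λ / κ) < E0 := by
    have : √(Λ / κ) < E0 / 2000 := by
      rw [Real.sqrt_lt' (by positivity), hq, ← mul_div_assoc, div_lt_iff₀ hDp]
      have := mul_lt_mul_of_pos_left hev (show 0 < E0 ^ 2 by positivity)
      linarith
    linarith
  have hlaw := law_le (n := n) (fun j => -(j : ℝ)) (fun G => -G.PP κ Λ) (fun G hG => by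
      have := L3.PP_empty (G := toL3 G) hκp hΛ1 h100 hG
      rw [toL3_E] at this
      linarith) (fun G => by
      have := L3.stepPP (G := toL3 G) (n := n) hκp hΛ1 h100 hnR (by
        have h1 : (toL3 G).E ≤ E0 := toL3_E_le G
        have h2 : 0 ≤ (toL3 G).E := by rw [toL3_E]; positivity
        calc κ * (toL3 G).E ^ 2 ≤ κ * E0 ^ 2 := by gcongr
          _ = D := by rw [hκ]; field_simp
          _ ≤ n := by rw [hD]; linarith) (fun e => by exact_mod_cast toL3_deg_le G e) (toL3_tri G)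
      rw [Finset.sum_neg_distrib]
      linarith)
  simp only [mul_neg, tsum_neg, neg_le_neg_iff] at hlaw
  refine le_trans ?_ hlaw
  have hU : (toL3 (⊤ : SimpleGraph (Fin n))).Uf κ Λ ≤ 1 / 2 := by
    have h1 := L3.UU_reg (G := toL3 (⊤ : SimpleGraph (Fin n))) hΛ1 hDp hE01 toL3_top_deg
    rw [L3.UU, if_neg (not_le.2 hR)] at h1
    refine le_trans h1 ?_
    have hl : Real.log E0 ≤ 2 * Real.log n := by
      have : E0 ≤ (n : ℝ) ^ 2 := by rw [hE0v]; nlinarith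
      calc Real.log E0 ≤ Real.log ((n : ℝ) ^ 2) := Real.log_le_log hE0p this
        _ = _ := by rw [Real.log_pow]; norm_num
    change 2000 * Real.log E0 / Λ ≤ _
    rw [div_le_iff₀ (by linarith), hΛ]
    linarith
  rw [L3.PP, if_neg (not_le.2 hR)]
  obtain ⟨q, hq0, hqq⟩ : ∃ q : ℝ, 0 < q ∧ Real.log n = q ^ 2 :=
    ⟨√(Real.log n), Real.sqrt_pos.2 (by linarith), (Real.sq_sqrt (by linarith)).symm⟩
  have h7 : Real.log n ^ (7 / 2 : ℝ) = q ^ 7 := by
    rw [hqq, ← Real.rpow_natCast, ← Real.rpow_mul hq0.le, ← Real.rpow_natCast]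
    norm_num
  have hs := upper_rpow_sq n
  have hs0 : 0 ≤ (n : ℝ) ^ (3 / 2 : ℝ) := by positivity
  generalize (n : ℝ) ^ (3 / 2 : ℝ) = s at *
  have hRq : q * s / 2 ≤ √(Λ / κ) := by
    apply Real.le_sqrt_of_sq_le
    rw [hq, div_pow, mul_pow, hs, ← hqq]
    calc Real.log n * (n : ℝ) ^ 3 / 2 ^ 2 = Real.log n * ((n : ℝ) ^ 3 / 4) := by ring
      _ ≤ Λ * (E0 ^ 2 / D) := by gcongr; rw [hΛ]; linarith
  have hDD : L3.DD Λ ≤ 28 * 10 ^ 15 * Λ ^ 3 := by
    have h1 : Λ ≤ Λ ^ 3 := le_self_pow₀ hΛ1 (by norm_num)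
    rw [L3.DD]
    linarith
  have hDD0 : 0 < L3.DD Λ := by rw [L3.DD]; positivity
  calc _ = 1000 * (q * s / 2) / (128 * (28 * 10 ^ 15 * Λ ^ 3) * (4 * 10 ^ 6 * Λ)) * (1 / 2) := by
        rw [h7, hΛ, hqq]; field_simp; ring
    _ ≤ _ := by
        gcongr
        linarith

end Vale.Agent.P046
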