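import Vale.Agent.P046.Fn
import Vale.Agent.P046.Cnt
import Vale.Agent.P046.Ineq

namespace Vale.Agent.P046

namespace L3

variable {α : Type} [DecidableEq α] {G : L3 α} {κ t n : ℝ}

theorem FF_nonneg {m : ℝ} (hm : 0 ≤ m) : 0 ≤ G.FF m := by
  exact Finset.sum_nonneg fun e _ => ff_nonneg (by positivity)

/-- the triangle inequality summed over all triples -/
theorem sum_ineq3 {m : ℝ} (hm : 0 < m) :
    ∑ T ∈ G.H, ∑ e ∈ T, (-ff (G.deg e / m) -
      fd (G.deg e / m) * (∑ f ∈ T, (G.deg f : ℝ) / m - G.deg e / m - 2)) ≤ m * G.FF m := by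
  have h1 : ∀ T ∈ G.H, ∑ e ∈ T, (-ff (G.deg e / m) -
      fd (G.deg e / m) * (∑ f ∈ T, (G.deg f : ℝ) / m - G.deg e / m - 2)) ≤
      ∑ e ∈ T, ff (G.deg e / m) / (G.deg e / m) := by
    intro T hT
    have hp : ∀ e ∈ T, 0 < (G.deg e : ℝ) / m := fun e he =>
      div_pos (by exact_mod_cast G.deg_pos hT he) hm
    obtain ⟨x, y, z, hxy, hxz, hyz, rfl⟩ := Finset.card_eq_three.mp (G.card3 T hT)
    have a1 : x ∉ ({y, z} : Finset α) := by simp [hxy, hxz]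
    have := ineq3 (hp x (by simp)) (hp y (by simp)) (hp z (by simp))
    simp only [Finset.sum_insert a1, Finset.sum_pair hyz]
    linarith
  refine (Finset.sum_le_sum h1).trans ?_
  rw [G.sum_sum, FF, Finset.mul_sum]
  refine Finset.sum_le_sum fun e _ => ?_
  rcases Nat.eq_zero_or_pos (G.deg e) with h0 | h0
  · rw [h0, Nat.cast_zero, zero_mul]
    exact mul_nonneg hm.le (ff_nonneg (by positivity))
  · have : (0 : ℝ) < G.deg e := by exact_mod_cast h0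
    apply le_of_eq
    field_simp

namespace Ok

variable (h : G.Ok κ t n)
include h

theorem Q_eq : G.Q = κ * G.E ^ 2 * G.E * (1 + G.bb κ) / 3 := by
  have h1 := h.k0
  have h2 : 0 < G.E := by linarith [h.e100]
  unfold bb
  field_simp
  ring
theorem Q_pos : 0 < G.Q := by
  have h1 := h.k0
  have h2 : 0 < G.E := by linarith [h.e100]
  have h3 : 0 < 1 + G.bb κ := by linarith [(abs_le.mp h.hb).1, h.t1]
  rw [h.Q_eq]
  positivity
theorem sum_w : ∑ e ∈ G.V, ((G.deg e : ℝ) / (κ * G.E ^ 2) - 1) = G.E * G.bb κ := by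
  have h1 := h.k0
  have h2 : 0 < G.E := by linarith [h.e100]
  rw [Finset.sum_sub_distrib, ← Finset.sum_div, G.sum_deg, Finset.sum_const, nsmul_eq_mul, mul_one]
  change _ - G.E = _
  unfold bb
  field_simp
theorem sum_w2 : ∑ e ∈ G.V, ((G.deg e : ℝ) / (κ * G.E ^ 2) - 1) ^ 2 ≤ 8 * G.FF (κ * G.E ^ 2) := by
  have h1 := h.k0
  rw [FF, Finset.mul_sum]
  exact Finset.sum_le_sum fun e _ => sq_le_ff (by positivity)
theorem sum_z2 : ∑ e ∈ G.V, ((G.deg e : ℝ) / (κ * G.E ^ 2)) ^ 2 ≤ 2 * G.E := by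
  have h1 : ∑ e ∈ G.V, ((G.deg e : ℝ) / (κ * G.E ^ 2)) ^ 2 =
      ∑ e ∈ G.V, ((G.deg e : ℝ) / (κ * G.E ^ 2) - 1) ^ 2 +
        2 * ∑ e ∈ G.V, ((G.deg e : ℝ) / (κ * G.E ^ 2) - 1) + G.E := by
    rw [Finset.mul_sum, ← Finset.sum_add_distrib, E, Finset.card_eq_sum_ones]
    push_cast
    rw [← Finset.sum_add_distrib]
    exact Finset.sum_congr rfl fun e _ => by ring
  have h2 : 0 < G.E := by linarith [h.e100]
  have h3 : t ^ 2 ≤ 1 / 100 := by nlinarith [h.t0, h.t1]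
  have h4 : G.bb κ ≤ 1 / 100 := by linarith [(abs_le.mp h.hb).2, h.t1]
  rw [h1, h.sum_w]
  nlinarith [h.sum_w2, h.hF]
theorem sum_zfd : ∑ e ∈ G.V, (G.deg e : ℝ) / (κ * G.E ^ 2) * |fd (G.deg e / (κ * G.E ^ 2))| ≤
    2 * G.E := by
  have h1 := h.k0
  have h2 : 0 < G.E := by linarith [h.e100]
  have h3 : t ^ 2 ≤ 1 / 100 := by nlinarith [h.t0, h.t1]
  have h4 : ∑ e ∈ G.V, (G.deg e : ℝ) / (κ * G.E ^ 2) * |fd (G.deg e / (κ * G.E ^ 2))| ≤
      ∑ e ∈ G.V, (1 + 13 * ff (G.deg e / (κ * G.E ^ 2))) := by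
    refine Finset.sum_le_sum fun e _ => ?_
    have hz : 0 ≤ (G.deg e : ℝ) / (κ * G.E ^ 2) := by positivity
    generalize (G.deg e : ℝ) / (κ * G.E ^ 2) = z at hz
    have a1 := abs_le.mp (abs_mul_fd hz)
    have a2 := sq_le_ff hz
    rw [← abs_of_nonneg hz, ← abs_mul, abs_of_nonneg hz, abs_le]
    constructor <;> nlinarith [sq_nonneg (z - 2), sq_nonneg z]
  rw [Finset.sum_add_distrib, ← Finset.mul_sum, Finset.sum_const, nsmul_eq_mul, mul_one] at h4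
  change _ ≤ G.E + 13 * G.FF _ at h4
  nlinarith [h.hF]
theorem sum_A : |∑ e ∈ G.V, (G.deg e : ℝ) / (κ * G.E ^ 2) * fd (G.deg e / (κ * G.E ^ 2)) -
    2 * G.E * G.bb κ| ≤ 5 * G.FF (κ * G.E ^ 2) := by
  have h1 := h.k0
  rw [mul_assoc, ← h.sum_w, Finset.mul_sum, ← Finset.sum_sub_distrib, FF, Finset.mul_sum]
  exact (Finset.abs_sum_le_sum_abs _ _).trans
    (Finset.sum_le_sum fun e _ => abs_mul_fd (by positivity))

end Ok

end L3

end Vale.Agent.P046
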