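import Vale.Agent.P046.Graph

namespace Vale.Agent.P046

variable {n : ℕ}

theorem proc_bind {α β : Type} [Fintype α] (p : PMF α) (q : α → PMF β) (b : β) :
    ((p.bind q) b).toReal = ∑ a, (p a).toReal * (q a b).toReal := by
  rw [PMF.bind_apply, tsum_fintype, ENNReal.toReal_sum fun a _ =>
    ENNReal.mul_ne_top (p.apply_ne_top a) ((q a).apply_ne_top b)]
  simp only [ENNReal.toReal_mul]

theorem proc_map {α β : Type} [Fintype α] (p : PMF α) (f : α → β) (φ : β → ℝ) :
    ∑' j, ((p.map f) j).toReal * φ j = ∑ a, (p a).toReal * φ (f a) := by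
  classical
  have e : ∀ j, ((p.map f) j).toReal * φ j =
      ∑ a, if j = f a then (p a).toReal * φ (f a) else 0 := by
    intro j
    rw [← PMF.bind_pure_comp, proc_bind, Finset.sum_mul]
    refine Finset.sum_congr rfl fun a _ => ?_
    by_cases h : j = f a
    · simp [h]
    · simp [h]
  simp only [e]
  rw [Summable.tsum_finsetSum fun a _ => (hasSum_ite_eq (f a) _).summable]
  exact Finset.sum_congr rfl fun a _ => tsum_ite_eq (f a) _

theorem proc_bind_sum {α β : Type} [Fintype α] [Fintype β] (p : PMF α) (q : α → PMF β)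
    (ψ : β → ℝ) :
    ∑ b, ((p.bind q) b).toReal * ψ b = ∑ a, (p a).toReal * ∑ b, (q a b).toReal * ψ b := by
  simp only [proc_bind, Finset.sum_mul, Finset.mul_sum, mul_assoc]
  exact Finset.sum_comm

theorem proc_unif {α : Type} [Fintype α] (s : Finset α) (h : s.Nonempty) (ψ : α → ℝ) :
    ∑ a, (PMF.uniformOfFinset s h a).toReal * ψ a = (∑ a ∈ s, ψ a) / s.card := by
  rw [← Finset.sum_subset (Finset.subset_univ s) fun a _ ha => by
    rw [PMF.uniformOfFinset_apply_of_notMem h ha]; simp, Finset.sum_div]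
  refine Finset.sum_congr rfl fun a ha => ?_
  rw [PMF.uniformOfFinset_apply_of_mem h ha, ENNReal.toReal_inv, ENNReal.toReal_natCast,
    inv_mul_eq_div]

open Classical in
theorem proc_stop {G : SimpleGraph (Fin n)} (h : ¬ (G.cliqueFinset 3).Nonempty) (k : ℕ) :
    run k G = PMF.pure G := by
  induction k with
  | zero => rfl
  | succ k ih => rw [run, step, dif_neg h, PMF.pure_bind, ih]

open Classical in
theorem proc_card {G : SimpleGraph (Fin n)} {T : Finset (Fin n)} (h : T ∈ G.cliqueFinset 3) :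
    (G.deleteEdges (T.sym2 : Set (Sym2 (Fin n)))).edgeSet.ncard + 3 = G.edgeSet.ncard := by
  have h1 := (toL3 G).rem_E (T := tri T) (Finset.mem_image_of_mem _ h)
  rw [← toL3_delete G h, toL3_E, toL3_E, eq_sub_iff_add_eq] at h1
  exact_mod_cast h1

open Classical in
theorem proc_main (φ : ℕ → ℝ) (U : L3 (Sym2 (Fin n)) → ℝ)
    (h0 : ∀ G : SimpleGraph (Fin n), (toL3 G).H = ∅ → φ G.edgeSet.ncard ≤ U (toL3 G))
    (h1 : ∀ G : SimpleGraph (Fin n),
      ∑ T ∈ (toL3 G).H, U ((toL3 G).rem T) ≤ (toL3 G).Q * U (toL3 G))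
    (k : ℕ) : ∀ G : SimpleGraph (Fin n), G.edgeSet.ncard ≤ k →
      ∑ G', (run k G G').toReal * φ G'.edgeSet.ncard ≤ U (toL3 G) := by
  have stop : ∀ (k : ℕ) (G : SimpleGraph (Fin n)), ¬ (G.cliqueFinset 3).Nonempty →
      ∑ G', (run k G G').toReal * φ G'.edgeSet.ncard ≤ U (toL3 G) := by
    intro k G h
    rw [proc_stop h, Finset.sum_eq_single G (fun G' _ hne => by simp [hne]) (by simp)]
    simp only [PMF.pure_apply_self, ENNReal.toReal_one, one_mul]
    refine h0 G ?_
    rw [show (toL3 G).H = (G.cliqueFinset 3).image tri from rfl,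
      Finset.not_nonempty_iff_eq_empty.mp h, Finset.image_empty]
  induction k with
  | zero =>
    intro G hk
    refine stop 0 G fun ⟨T, hT⟩ => ?_
    have := proc_card hT
    omega
  | succ k ih =>
    intro G hk
    by_cases h : (G.cliqueFinset 3).Nonempty
    · have hc : (0 : ℝ) < (G.cliqueFinset 3).card := by exact_mod_cast h.card_pos
      rw [run, step, dif_pos h, PMF.bind_map, proc_bind_sum, proc_unif, div_le_iff₀ hc]
      have hQ : (toL3 G).Q = (G.cliqueFinset 3).card := by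
        rw [L3.Q, toL3, Finset.card_image_of_injOn (tri_injOn G)]
      rw [mul_comm, ← hQ]
      refine le_trans ?_ (h1 G)
      rw [show (toL3 G).H = (G.cliqueFinset 3).image tri from rfl, Finset.sum_image (tri_injOn G)]
      refine Finset.sum_le_sum fun T hT => ?_
      rw [← toL3_delete G hT]
      have := proc_card hT
      exact ih (G.deleteEdges (T.sym2 : Set (Sym2 (Fin n)))) (by omega)
    · exact stop _ G h

/-- supersolutions bound expectations of the final state -/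
theorem run_le (φ : ℕ → ℝ) (U : L3 (Sym2 (Fin n)) → ℝ)
    (h0 : ∀ G : SimpleGraph (Fin n), (toL3 G).H = ∅ → φ G.edgeSet.ncard ≤ U (toL3 G))
    (h1 : ∀ G : SimpleGraph (Fin n),
      ∑ T ∈ (toL3 G).H, U ((toL3 G).rem T) ≤ (toL3 G).Q * U (toL3 G))
    (k : ℕ) (G : SimpleGraph (Fin n)) (hk : G.edgeSet.ncard ≤ k) :
    ∑' j, (((run k G).map fun G' => G'.edgeSet.ncard) j).toReal * φ j ≤ U (toL3 G) := by
  rw [proc_map]
  exact proc_main φ U h0 h1 k G hk

theorem proc_ncard (G : SimpleGraph (Fin n)) : G.edgeSet.ncard ≤ n ^ 2 := by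
  have h := toL3_E_le G
  rw [toL3_E, toL3_top_E] at h
  have h0 : (0 : ℝ) ≤ n := Nat.cast_nonneg n
  have h1 : (G.edgeSet.ncard : ℝ) ≤ (n : ℝ) ^ 2 := by nlinarith
  exact_mod_cast h1

theorem law_le (φ : ℕ → ℝ) (U : L3 (Sym2 (Fin n)) → ℝ)
    (h0 : ∀ G : SimpleGraph (Fin n), (toL3 G).H = ∅ → φ G.edgeSet.ncard ≤ U (toL3 G))
    (h1 : ∀ G : SimpleGraph (Fin n),
      ∑ T ∈ (toL3 G).H, U ((toL3 G).rem T) ≤ (toL3 G).Q * U (toL3 G)) :
    ∑' j, (law n j).toReal * φ j ≤ U (toL3 ⊤) :=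
  run_le φ U h0 h1 (n ^ 2) ⊤ (proc_ncard ⊤)

theorem law_support {j : ℕ} (h : law n j ≠ 0) : j ≤ n ^ 2 := by
  obtain ⟨G, -, rfl⟩ := (PMF.mem_support_map_iff _ _ j).mp ((PMF.mem_support_iff _ j).mpr h)
  exact proc_ncard G

theorem law_prob (A : Set ℕ) :
    ((law n).toOuterMeasure A).toReal = ∑' j, (law n j).toReal * A.indicator 1 j := by
  rw [PMF.toOuterMeasure_apply, ENNReal.tsum_toReal_eq fun j =>
    ne_top_of_le_ne_top ((law n).apply_ne_top j) (Set.indicator_le_self _ _ j)]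
  refine tsum_congr fun j => ?_
  by_cases h : j ∈ A
  · simp [h]
  · simp [h]

end Vale.Agent.P046
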