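import Vale.Agent.P046.Mom

namespace Vale.Agent.P046

namespace L3

variable {α : Type} [DecidableEq α] {G : L3 α} {κ t n : ℝ}

theorem stepF_tau {E : ℝ} (hE : 100 ≤ E) : ∃ δ : ℝ, E ^ 2 / (E - 3) ^ 2 = 1 + 6 / E + δ ∧ 0 ≤ δ ∧
    δ * E ^ 2 ≤ 29 := by
  have h1 : 0 < E - 3 := by linarith
  have h0 : 0 < E := by linarith
  refine ⟨(27 * E - 54) / (E * (E - 3) ^ 2), by field_simp; ring,
    div_nonneg (by linarith) (by positivity), ?_⟩
  rw [div_mul_eq_mul_div, div_le_iff₀ (by positivity)]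
  have : (27 * E - 54) * E ≤ 29 * (E - 3) ^ 2 := by nlinarith
  nlinarith

theorem stepF_num {E m δ c n t b F A D Y P Q Z W : ℝ} (hE : 100 ≤ E) (hm : 1 ≤ m) (hmE : m ≤ E)
    (hδ0 : 0 ≤ δ) (hδ : δ * E ^ 2 ≤ 29) (hc : c * m = 1 + 6 / E + δ) (hn : n ≤ E)
    (ht : t ≤ 1 / 100) (hb : |b| ≤ t) (hF0 : 0 ≤ F) (hA : |A - 2 * E * b| ≤ 5 * F)
    (hA2 : |A| ≤ 2 * E) (hD : |D| ≤ n * (2 * E)) (hY : |Y| ≤ 2 * n * (2 * E))
    (hP : P - Y ≤ m * F + 2 * A - 2 * m * A) (hQ : Q = m * E * (1 + b) / 3) (hZ : Z ≤ 2 * E)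
    (hW : W ≤ 2 * m ^ 2 * (2 * E)) :
    P + (c * m - 1) * (Q * A - D) - c * m * Y + 2 * (c * m - 1) ^ 2 * Z * Q + 6 * c ^ 2 * W ≤
      m * F * (1 + 10 * t) + 4 * m * E * b ^ 2 + 200 * E := by
  have h0 : 0 < E := by linarith
  obtain ⟨hb1, hb2⟩ := abs_le.mp hb
  obtain ⟨s, hs⟩ : ∃ s, s = 6 / E + δ := ⟨_, rfl⟩
  have hs0 : 0 ≤ s := by rw [hs]; positivity
  have hδE : δ * E ≤ 1 := by
    have := mul_le_mul_of_nonneg_left hE (show 0 ≤ δ * E by positivity)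
    linarith
  have hsE : s * E ≤ 7 := by
    have : s * E = 6 + δ * E := by rw [hs]; field_simp
    linarith
  have hs1 : s ≤ 7 / 100 := by
    have := mul_le_mul_of_nonneg_left hE hs0
    linarith
  have hQ0 : 0 ≤ Q := by rw [hQ]; exact div_nonneg (mul_nonneg (by positivity) (by linarith)) (by norm_num)
  have hmE0 : 0 ≤ m * E := by positivity
  have hQ1 : Q ≤ 34 / 100 * E ^ 2 := by
    rw [hQ]
    have a1 := mul_le_mul_of_nonneg_left (show 1 + b ≤ 101 / 100 by linarith) hmE0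
    have a2 := mul_le_mul_of_nonneg_right hmE h0.le
    have a3 := sq_nonneg E
    linarith
  have e1 : c * m - 1 = s := by linarith
  have e2 : s * (Q * A) = 2 * m * A + 2 * m * (b * A) + δ * Q * A := by
    rw [hs, hQ]; field_simp; ring
  have t1 : b * A ≤ 2 * E * b ^ 2 + 5 * t * F := by
    have : b * (A - 2 * E * b) ≤ t * (5 * F) :=
      (le_abs_self _).trans (by rw [abs_mul]; exact mul_le_mul hb hA (abs_nonneg _) ((abs_nonneg _).trans hb))
    linarith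
  have t1' := mul_le_mul_of_nonneg_left t1 (show 0 ≤ 2 * m by linarith)
  have t2 : δ * Q * A ≤ 20 * E := by
    have a1 : δ * Q ≤ 10 := by
      have := mul_le_mul_of_nonneg_left hQ1 hδ0
      linarith
    have a2 : δ * Q * A ≤ δ * Q * (2 * E) :=
      mul_le_mul_of_nonneg_left ((le_abs_self _).trans hA2) (by positivity)
    have a3 := mul_le_mul_of_nonneg_right a1 (show 0 ≤ 2 * E by positivity)
    linarith
  have hn0 : 0 ≤ n * (2 * E) := (abs_nonneg _).trans hD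
  have hnE : s * (n * (2 * E)) ≤ 14 * E := by
    have a1 : n * (2 * E) ≤ E * (2 * E) := by gcongr
    have a2 := mul_le_mul_of_nonneg_left a1 hs0
    have a3 := mul_le_mul_of_nonneg_right hsE (show 0 ≤ 2 * E by positivity)
    linarith
  have t3 : -(s * D) ≤ 14 * E := by
    have := mul_le_mul_of_nonneg_left (abs_le.mp hD).1 hs0
    linarith
  have t4 : -(s * Y) ≤ 28 * E := by
    have := mul_le_mul_of_nonneg_left (abs_le.mp hY).1 hs0
    linarith
  have t5 : 2 * s ^ 2 * Z * Q ≤ 67 * E := by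
    have a1 : 2 * s ^ 2 * Z * Q ≤ 2 * s ^ 2 * (2 * E) * (34 / 100 * E ^ 2) :=
      (mul_le_mul_of_nonneg_right (mul_le_mul_of_nonneg_left hZ (by positivity)) hQ0).trans
        (mul_le_mul_of_nonneg_left hQ1 (by positivity))
    have a2 : (s * E) ^ 2 ≤ 7 ^ 2 := by gcongr
    have a3 := mul_le_mul_of_nonneg_right a2 h0.le
    linarith
  have t6 : 6 * c ^ 2 * W ≤ 28 * E := by
    have a1 := mul_le_mul_of_nonneg_left hW (show 0 ≤ 6 * c ^ 2 by positivity)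
    have a2 : (c * m) ^ 2 ≤ (107 / 100) ^ 2 := by
      rw [show c * m = 1 + s by linarith]
      gcongr
      linarith
    have a3 := mul_le_mul_of_nonneg_right a2 h0.le
    linarith
  have t7 := (abs_le.mp hA2).2
  rw [e1, show c * m = 1 + s by linarith]
  linarith

theorem stepF_one {m c : ℝ} (hm : 0 < m) (hc : 0 < c) {T : Finset α} (hT : T ∈ G.H) :
    (G.rem T).FF c⁻¹ - G.FF m ≤ -∑ e ∈ T, ff (G.deg e / m) +
      (c * m - 1) * (∑ e ∈ G.V, G.deg e / m * fd (G.deg e / m) -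
        ∑ e ∈ T, G.deg e / m * fd (G.deg e / m)) -
      c * ∑ e ∈ G.V \ T, fd (G.deg e / m) * G.dd T e +
      2 * (c * m - 1) ^ 2 * ∑ e ∈ G.V, ((G.deg e : ℝ) / m) ^ 2 +
      6 * c ^ 2 * ∑ e ∈ G.V \ T, 1 * (G.dd T e : ℝ) := by
  have h1 : (G.rem T).FF c⁻¹ ≤ ∑ e ∈ G.V \ T, (ff (G.deg e / m) +
      (c * m - 1) * (G.deg e / m * fd (G.deg e / m)) - c * (fd (G.deg e / m) * G.dd T e) +
      2 * (c * m - 1) ^ 2 * ((G.deg e : ℝ) / m) ^ 2 + 6 * c ^ 2 * (1 * (G.dd T e : ℝ))) := by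
    refine Finset.sum_le_sum fun e he => ?_
    have a1 := ff_taylor (z := G.deg e / m) (z' := (G.rem T).deg e / c⁻¹) (by positivity)
      (by positivity)
    have a2 : ((G.rem T).deg e : ℝ) / c⁻¹ - G.deg e / m =
        (c * m - 1) * (G.deg e / m) - c * G.dd T e := by
      rw [G.rem_deg]; field_simp; ring
    have a3 : (G.dd T e : ℝ) ≤ 3 := by exact_mod_cast G.dd_le hT (Finset.mem_sdiff.mp he).2
    have a4 : (0 : ℝ) ≤ G.dd T e := Nat.cast_nonneg _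
    rw [a2] at a1
    generalize (G.dd T e : ℝ) = d at *
    generalize (G.deg e : ℝ) / m = z at *
    have a5 : c ^ 2 * (d * d) ≤ c ^ 2 * (3 * d) := by gcongr
    nlinarith [sq_nonneg ((c * m - 1) * z + c * d)]
  simp only [Finset.sum_add_distrib, Finset.sum_sub_distrib, ← Finset.mul_sum] at h1
  have h2 : ∑ e ∈ G.V \ T, ((G.deg e : ℝ) / m) ^ 2 ≤ ∑ e ∈ G.V, ((G.deg e : ℝ) / m) ^ 2 :=
    Finset.sum_le_sum_of_subset_of_nonneg Finset.sdiff_subset fun _ _ _ => sq_nonneg _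
  have h3 := mul_le_mul_of_nonneg_left h2 (show 0 ≤ 2 * (c * m - 1) ^ 2 by positivity)
  rw [FF.eq_1 G, ← Finset.sum_sdiff (G.sub T hT) (f := fun e => ff (G.deg e / m)),
    ← Finset.sum_sdiff (G.sub T hT) (f := fun e => G.deg e / m * fd (G.deg e / m)),
    ← Finset.mul_sum]
  linarith

theorem stepF_S (hn : ∀ e, (G.deg e : ℝ) ≤ n) {T : Finset α} (hT : T ∈ G.H) {e : α} (he : e ∈ T) :
    |∑ f ∈ T, (G.deg f : ℝ) - G.deg e - 2| ≤ 2 * n := by
  rw [← Finset.add_sum_erase _ _ he, add_sub_cancel_left]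
  have hc : (T.erase e).card = 2 := by rw [Finset.card_erase_of_mem he, G.card3 T hT]
  have h1 := Finset.sum_le_card_nsmul (T.erase e) (fun f => (G.deg f : ℝ)) n fun f _ => hn f
  have h2 := Finset.card_nsmul_le_sum (T.erase e) (fun f => (G.deg f : ℝ)) 1 fun f hf => by
    exact_mod_cast G.deg_pos hT (Finset.mem_of_mem_erase hf)
  rw [hc, nsmul_eq_mul] at h1 h2
  push_cast at h1 h2
  rw [abs_le]
  constructor <;> linarith

theorem Ok.stepF (h : G.Ok κ t n) :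
    ∑ T ∈ G.H, ((G.rem T).FF (κ * (G.E - 3) ^ 2) - G.FF (κ * G.E ^ 2)) ≤
      κ * G.E ^ 2 * G.FF (κ * G.E ^ 2) * (1 + 10 * t) +
        4 * (κ * G.E ^ 2) * G.E * G.bb κ ^ 2 + 200 * G.E := by
  have hk := h.k0
  have hE := h.e100
  have hE0 : 0 < G.E := by linarith
  have hE3 : 0 < G.E - 3 := by linarith
  obtain ⟨δ, hδ, hδ0, hδ1⟩ := stepF_tau hE
  obtain ⟨c, hc⟩ : ∃ c : ℝ, c = (κ * (G.E - 3) ^ 2)⁻¹ := ⟨_, rfl⟩
  have hc0 : 0 < c := by rw [hc]; positivity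
  have hcm : c * (κ * G.E ^ 2) = 1 + 6 / G.E + δ := by rw [← hδ, hc]; field_simp
  rw [show κ * (G.E - 3) ^ 2 = c⁻¹ by rw [hc, inv_inv]]
  have hQ := h.Q_eq
  have hA := h.sum_A
  have hZ := h.sum_z2
  have hzf := h.sum_zfd
  have hm1 := h.m1
  have hmE := h.mE
  generalize κ * G.E ^ 2 = m at *
  have hm : 0 < m := by linarith
  have hz0 : ∀ e, 0 ≤ (G.deg e : ℝ) / m := fun e => by positivity
  have hdz : ∀ e, (G.deg e : ℝ) = m * (G.deg e / m) := fun e => by field_simp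
  have hn0 : ∀ e, 0 ≤ n := fun e => (Nat.cast_nonneg _).trans (h.dn e)
  refine (Finset.sum_le_sum fun T hT => stepF_one hm hc0 hT).trans ?_
  simp only [Finset.sum_add_distrib, Finset.sum_sub_distrib, ← Finset.mul_sum, Finset.sum_const,
    nsmul_eq_mul]
  rw [G.sum_dd, G.sum_sum fun e => G.deg e / m * fd (G.deg e / m), Finset.sum_neg_distrib]
  have hW := G.sum_dd fun _ => 1
  simp only [← Finset.mul_sum] at hW
  rw [hW]
  have hI := G.sum_ineq3 hm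
  have e1 : ∑ T ∈ G.H, ∑ e ∈ T, (-ff (G.deg e / m) -
      fd (G.deg e / m) * (∑ f ∈ T, (G.deg f : ℝ) / m - G.deg e / m - 2)) =
      -∑ T ∈ G.H, ∑ e ∈ T, ff (G.deg e / m) - (∑ T ∈ G.H, ∑ e ∈ T, fd (G.deg e / m) *
        (∑ f ∈ T, (G.deg f : ℝ) - G.deg e - 2)) / m +
      (2 * m - 2) * ∑ e ∈ G.V, G.deg e / m * fd (G.deg e / m) := by
    have a1 : (2 * m - 2) * ∑ e ∈ G.V, G.deg e / m * fd (G.deg e / m) =
        ∑ T ∈ G.H, ∑ e ∈ T, (2 - 2 / m) * fd (G.deg e / m) := by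
      rw [G.sum_sum, Finset.mul_sum]
      exact Finset.sum_congr rfl fun e _ => by field_simp
    rw [a1, Finset.sum_div, ← Finset.sum_neg_distrib, ← Finset.sum_sub_distrib,
      ← Finset.sum_add_distrib]
    refine Finset.sum_congr rfl fun T _ => ?_
    rw [Finset.sum_div T, ← Finset.sum_neg_distrib, ← Finset.sum_sub_distrib,
      ← Finset.sum_add_distrib]
    refine Finset.sum_congr rfl fun e _ => ?_
    rw [← Finset.sum_div]
    field_simp
    ring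
  have hA2 : |∑ e ∈ G.V, G.deg e / m * fd (G.deg e / m)| ≤ 2 * G.E :=
    (Finset.abs_sum_le_sum_abs _ _).trans (le_trans (le_of_eq (Finset.sum_congr rfl fun e _ => by
      rw [abs_mul, abs_of_nonneg (hz0 e)])) hzf)
  have hD : |∑ e ∈ G.V, G.deg e * (G.deg e / m * fd (G.deg e / m))| ≤ n * (2 * G.E) := by
    refine (Finset.abs_sum_le_sum_abs _ _).trans ?_
    rcases G.V.eq_empty_or_nonempty with h0 | ⟨e0, -⟩
    · simp [E, h0] at hE0
    refine le_trans ?_ (mul_le_mul_of_nonneg_left hzf (hn0 e0))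
    rw [Finset.mul_sum]
    refine Finset.sum_le_sum fun e _ => ?_
    rw [abs_mul, abs_mul, abs_of_nonneg (hz0 e), Nat.abs_cast]
    exact mul_le_mul_of_nonneg_right (h.dn e) (mul_nonneg (hz0 e) (abs_nonneg _))
  have hY : |(∑ T ∈ G.H, ∑ e ∈ T, fd (G.deg e / m) *
      (∑ f ∈ T, (G.deg f : ℝ) - G.deg e - 2)) / m| ≤ 2 * n * (2 * G.E) := by
    rcases G.V.eq_empty_or_nonempty with h0 | ⟨e0, -⟩
    · simp [E, h0] at hE0
    refine le_trans ?_ (mul_le_mul_of_nonneg_left hzf (mul_nonneg zero_le_two (hn0 e0)))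
    rw [abs_div, abs_of_pos hm, div_le_iff₀ hm]
    have a1 : 2 * n * (∑ e ∈ G.V, (G.deg e : ℝ) / m * |fd (G.deg e / m)|) * m =
        ∑ T ∈ G.H, ∑ e ∈ T, |fd (G.deg e / m)| * (2 * n) := by
      rw [G.sum_sum, Finset.mul_sum, Finset.sum_mul]
      exact Finset.sum_congr rfl fun e _ => by field_simp
    rw [a1]
    refine (Finset.abs_sum_le_sum_abs _ _).trans (Finset.sum_le_sum fun T hT =>
      (Finset.abs_sum_le_sum_abs _ _).trans (Finset.sum_le_sum fun e he => ?_))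
    rw [abs_mul]
    exact mul_le_mul_of_nonneg_left (stepF_S h.dn hT he) (abs_nonneg _)
  have hW2 : ∑ T ∈ G.H, ∑ e ∈ T, (∑ f ∈ T, (G.deg f : ℝ) - G.deg e - 2) ≤ 2 * m ^ 2 * (2 * G.E) := by
    refine le_trans ?_ (mul_le_mul_of_nonneg_left hZ (by positivity))
    have a1 : 2 * m ^ 2 * ∑ e ∈ G.V, ((G.deg e : ℝ) / m) ^ 2 =
        ∑ T ∈ G.H, ∑ e ∈ T, 2 * (G.deg e : ℝ) := by
      rw [G.sum_sum, Finset.mul_sum]
      exact Finset.sum_congr rfl fun e _ => by field_simp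
    rw [a1]
    refine Finset.sum_le_sum fun T hT => ?_
    simp only [Finset.sum_sub_distrib, Finset.sum_const, G.card3 T hT, nsmul_eq_mul,
      ← Finset.mul_sum]
    push_cast
    linarith
  rw [e1] at hI
  have := stepF_num (P := -∑ T ∈ G.H, ∑ e ∈ T, ff (G.deg e / m)) hE hm1 hmE hδ0 hδ1 hcm h.nE h.t1
    h.hb (FF_nonneg hm.le) hA hA2 hD hY (by linarith) hQ hZ hW2
  refine le_trans (le_of_eq ?_) this
  rw [Q]
  field_simp

end L3

end Vale.Agent.P046
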