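import Vale.Agent.P046.Proc

namespace Vale.Agent.P046

variable {n : ℕ}

open Classical in
theorem run_free (k : ℕ) : ∀ G : SimpleGraph (Fin n), G.edgeSet.ncard ≤ k →
    ∀ G' ∈ (run k G).support, G'.CliqueFree 3 := by
  have stop : ∀ (k : ℕ) (G : SimpleGraph (Fin n)), ¬ (G.cliqueFinset 3).Nonempty →
      ∀ G' ∈ (run k G).support, G'.CliqueFree 3 := by
    intro k G h G' hG'
    rw [proc_stop h, PMF.support_pure, Set.mem_singleton_iff] at hG'
    subst hG'
    rw [Finset.not_nonempty_iff_eq_empty] at h
    exact SimpleGraph.cliqueFinset_eq_empty_iff.1 h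
  induction k with
  | zero =>
    intro G hk
    refine stop 0 G fun ⟨T, hT⟩ => ?_
    have := proc_card hT
    omega
  | succ k ih =>
    intro G hk
    by_cases h : (G.cliqueFinset 3).Nonempty
    · intro G' hG'
      rw [run, step, dif_pos h, PMF.bind_map, PMF.mem_support_bind_iff] at hG'
      obtain ⟨T, hT, hG'⟩ := hG'
      rw [PMF.mem_support_uniformOfFinset_iff] at hT
      have := proc_card hT
      exact ih (G.deleteEdges (T.sym2 : Set (Sym2 (Fin n)))) (by omega) G' hG'
    · exact stop _ G h

end Vale.Agent.P046
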