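import Vale.Agent.P046.StepV

namespace Vale.Agent.P046

namespace L3

variable {α : Type} [DecidableEq α] (G : L3 α)

/-- lower bound for the jump of the lower potential -/
noncomputable def dT (D : ℝ) (T : Finset α) : ℝ :=
  -∑ e ∈ T, (g0 (1 / (16 * D)) (G.deg e) - 54 / (16 * D) * max (G.deg e - D) 0) +
    ∑ e ∈ G.V \ T, (g0 (1 / (16 * D)) (G.deg e - 1) - g0 (1 / (16 * D)) (G.deg e)) * G.dd T e -
    3 / (16 * D) * ((G.newI T).card - if T ∈ G.isoS then 1 else 0)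

/-- sum of squared degrees -/
noncomputable def ZZ : ℝ := ∑ e ∈ G.V, (G.deg e : ℝ) ^ 2

/-- value of the lower potential at the start of the second phase -/
noncomputable def bW (κ Λ : ℝ) : ℝ := 1000 * √(Λ / κ) / (128 * DD Λ * (4 * 10 ^ 6 * Λ))

/-- second phase supersolution -/
noncomputable def W2 (κ Λ : ℝ) : ℝ :=
  min 1 ((max (bW κ Λ - G.Psi (DD Λ)) 0 ^ 2 + 300 * G.ZZ) / (bW κ Λ / 2) ^ 2)

/-- second phase failure bound -/
noncomputable def dW (κ Λ : ℝ) : ℝ :=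
  300 * (3 * (4 * 10 ^ 6 * Λ) ^ 2 * (2000 * √(Λ / κ))) / (bW κ Λ / 2) ^ 2

/-- supersolution for the probability of a small final graph -/
noncomputable def WW (κ Λ : ℝ) : ℝ :=
  if G.E ≤ 2000 * √(Λ / κ) then G.W2 κ Λ else G.Uf κ Λ + dW κ Λ

theorem dT_le {D : ℝ} (hD : 1 ≤ D) {T : Finset α} (h : T ∈ G.H) :
    G.Psi D + G.dT D T ≤ (G.rem T).Psi D := by
  have := G.LStep_one hD h
  unfold dT
  linarith

theorem sum_dT (hT : G.Tri) {D : ℝ} (hD : 1 ≤ D) : 0 ≤ ∑ T ∈ G.H, G.dT D T := by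
  have h3 : 0 ≤ 3 / (16 * D) := by positivity
  have a2 := Finset.sum_le_sum fun T hT => G.LStep_two hD (T := T) hT
  have a3 := mul_le_mul_of_nonneg_left (G.sum_newI hT hD) h3
  have a4 := G.sum_dd fun e => g0 (1 / (16 * D)) (G.deg e - 1) - g0 (1 / (16 * D)) (G.deg e)
  rw [← Finset.mul_sum] at a2
  simp only [dT, Finset.sum_add_distrib, Finset.sum_sub_distrib (s := G.H), Finset.sum_neg_distrib,
    ← Finset.mul_sum (s := G.H), Finset.sum_const, nsmul_eq_mul] at a2 a3 ⊢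
  rw [a4]
  linarith

end L3

end Vale.Agent.P046
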