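import Vale.Agent.P046.WStep

namespace Vale.Agent.P046

namespace L3

variable {α : Type} [DecidableEq α] {G : L3 α} {κ Λ n : ℝ}

theorem WGlue_dW : 0 ≤ dW κ Λ := by
  unfold dW
  positivity

theorem WGlue_ZZ0 : 0 ≤ G.ZZ := Finset.sum_nonneg fun _ _ => sq_nonneg _

theorem WGlue_ZZ {m : ℝ} (hm : 0 < m) (hF : G.FF m ≤ G.E / 64) : G.ZZ ≤ 3 * m ^ 2 * G.E := by
  have h1 : ∀ e ∈ G.V, (G.deg e : ℝ) ^ 2 ≤ m ^ 2 * (2 + 16 * ff (G.deg e / m)) := by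
    intro e _
    have hz : (0 : ℝ) ≤ G.deg e / m := by positivity
    have a1 := sq_le_ff hz
    have e1 : (G.deg e : ℝ) ^ 2 = m ^ 2 * (G.deg e / m) ^ 2 := by field_simp
    rw [e1]
    refine mul_le_mul_of_nonneg_left ?_ (sq_nonneg _)
    nlinarith [sq_nonneg ((G.deg e : ℝ) / m - 2)]
  have h2 := Finset.sum_le_sum h1
  rw [← Finset.mul_sum, Finset.sum_add_distrib, Finset.sum_const, nsmul_eq_mul,
    ← Finset.mul_sum] at h2
  change G.ZZ ≤ m ^ 2 * (G.E * 2 + 16 * G.FF m) at h2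
  have hE0 : 0 ≤ G.E := Nat.cast_nonneg _
  have h3 : m ^ 2 * (G.E * 2 + 16 * G.FF m) ≤ m ^ 2 * (3 * G.E) :=
    mul_le_mul_of_nonneg_left (by linarith) (sq_nonneg _)
  linarith

theorem WW_le (hκ : 0 < κ) (hΛ : 1 ≤ Λ) (h100 : 100 ≤ √(Λ / κ))
    (hE : 2000 * √(Λ / κ) - 3 < G.E) : G.WW κ Λ ≤ G.Uf κ Λ + dW κ Λ := by
  by_cases h : G.E ≤ 2000 * √(Λ / κ)
  swap
  · unfold WW
    rw [if_neg h]
  unfold WW
  rw [if_pos h]
  by_cases h1 : 1 ≤ (2 - 2000 * √(Λ / κ) / G.E) * G.sig κ / Λ + 2000 * Real.log G.E / Λ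
  · have e : G.Uf κ Λ = 1 := min_eq_left h1
    rw [e]
    exact (min_le_left _ _).trans (le_add_of_nonneg_right WGlue_dW)
  push Not at h1
  have e : G.Uf κ Λ = (2 - 2000 * √(Λ / κ) / G.E) * G.sig κ / Λ + 2000 * Real.log G.E / Λ :=
    min_eq_right h1.le
  have hR2 : κ * √(Λ / κ) ^ 2 = Λ := by
    rw [Real.sq_sqrt (by positivity)]; field_simp
  obtain ⟨R, hR⟩ : ∃ R, R = √(Λ / κ) := ⟨_, rfl⟩
  have hbW : bW κ Λ = 1000 * R / (128 * DD Λ * (4 * 10 ^ 6 * Λ)) := by rw [hR, bW]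
  have hdW : dW κ Λ = 300 * (3 * (4 * 10 ^ 6 * Λ) ^ 2 * (2000 * R)) / (bW κ Λ / 2) ^ 2 := by
    rw [hR, dW]
  rw [← hR] at h1 e hR2 h100 hE h
  have hE0 : 0 < G.E := by linarith
  have hΛ0 : 0 < Λ := by linarith
  have hσ0 : 0 ≤ G.sig κ := sig_nonneg hκ
  have hlog : 0 ≤ Real.log G.E := Real.log_nonneg (by linarith)
  have hα : 1 / 2 ≤ 2 - 2000 * R / G.E := by
    have : 2000 * R / G.E ≤ 3 / 2 := by rw [div_le_iff₀ hE0]; linarith
    linarith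
  have h2 : 0 ≤ 2000 * Real.log G.E / Λ := by positivity
  have hσ : G.sig κ ≤ 2 * Λ := by
    have h3 : (2 - 2000 * R / G.E) * G.sig κ / Λ < 1 := by linarith
    rw [div_lt_one hΛ0] at h3
    nlinarith
  have hU0 : 0 ≤ G.Uf κ Λ := by
    rw [e]
    have : 0 ≤ (2 - 2000 * R / G.E) * G.sig κ / Λ :=
      div_nonneg (mul_nonneg (by linarith) hσ0) hΛ0.le
    linarith
  have hE1 : 1000 * R ≤ G.E := by linarith
  have m1 : 10 ^ 6 * Λ ≤ κ * G.E ^ 2 := by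
    have : (1000 * R) ^ 2 ≤ G.E ^ 2 := pow_le_pow_left₀ (by linarith) hE1 2
    nlinarith
  have m2 : κ * G.E ^ 2 ≤ 4 * 10 ^ 6 * Λ := by
    have : G.E ^ 2 ≤ (2000 * R) ^ 2 := pow_le_pow_left₀ hE0.le h 2
    nlinarith
  have hF0 : 0 ≤ G.FF (κ * G.E ^ 2) := FF_nonneg (by positivity)
  have hF' : κ * G.E ^ 2 * G.FF (κ * G.E ^ 2) ≤ 2 * Λ * G.E := by
    have b1 : 0 ≤ κ * G.E * (3 * G.E * G.bb κ ^ 2) := by positivity
    have b2 : κ * G.E * G.FF (κ * G.E ^ 2) ≤ 2 * Λ := by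
      unfold sig at hσ
      linarith
    nlinarith
  have hF : G.FF (κ * G.E ^ 2) ≤ G.E / 64 := by
    have b1 : 10 ^ 6 * Λ * G.FF (κ * G.E ^ 2) ≤ 2 * Λ * G.E :=
      (mul_le_mul_of_nonneg_right m1 hF0).trans hF'
    have b2 : 10 ^ 6 * G.FF (κ * G.E ^ 2) ≤ 2 * G.E := by
      refine le_of_mul_le_mul_left ?_ hΛ0
      linarith
    linarith
  have hm0 : 0 < κ * G.E ^ 2 := by positivity
  have hP := G.Psi_ge (m := κ * G.E ^ 2) (s := 2 * Λ) (D := DD Λ) (by linarith) (by linarith)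
    (by
      unfold DD
      refine mul_le_mul ?_ m2 hm0.le (by positivity)
      have := mul_le_mul_of_nonneg_left m2 (show 0 ≤ 864 * (2 * Λ) by positivity)
      linarith) hF hF'
  have hD := stepV_DD hΛ
  have hb : bW κ Λ ≤ G.Psi (DD Λ) := by
    refine le_trans ?_ hP
    rw [hbW]
    exact div_le_div₀ hE0.le hE1 (by positivity)
      (mul_le_mul_of_nonneg_left m2 (by positivity))
  have hZ := WGlue_ZZ hm0 hF
  have hZ2 : G.ZZ ≤ 3 * (4 * 10 ^ 6 * Λ) ^ 2 * (2000 * R) :=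
    hZ.trans (mul_le_mul (mul_le_mul_of_nonneg_left (pow_le_pow_left₀ hm0.le m2 2) (by norm_num))
      h hE0.le (by positivity))
  refine (min_le_right _ _).trans (le_trans ?_ (le_add_of_nonneg_left hU0))
  rw [max_eq_right (by linarith), hdW]
  refine div_le_div_of_nonneg_right ?_ (sq_nonneg _)
  linarith

theorem stepWW (hκ : 0 < κ) (hΛ : 1 ≤ Λ) (h100 : 100 ≤ √(Λ / κ)) (hn : n ≤ √(Λ / κ))
    (hm : κ * G.E ^ 2 ≤ n) (hd : ∀ e, (G.deg e : ℝ) ≤ n) (hT : G.Tri) :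
    ∑ T ∈ G.H, (G.rem T).WW κ Λ ≤ G.Q * G.WW κ Λ := by
  by_cases h : G.E ≤ 2000 * √(Λ / κ)
  · have e : G.WW κ Λ = G.W2 κ Λ := if_pos h
    have e' : ∀ T ∈ G.H, (G.rem T).WW κ Λ = (G.rem T).W2 κ Λ := fun T hT' =>
      if_pos (by rw [G.rem_E hT']; linarith)
    rw [e, Finset.sum_congr rfl e']
    exact G.stepW2 hΛ hT
  · have e : G.WW κ Λ = G.Uf κ Λ + dW κ Λ := if_neg h
    push Not at h
    have hU := stepUf hκ hΛ h100 hn hm hd h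
    have e' : ∀ T ∈ G.H, (G.rem T).WW κ Λ ≤ (G.rem T).Uf κ Λ + dW κ Λ := fun T hT' =>
      WW_le hκ hΛ h100 (by rw [G.rem_E hT']; linarith)
    refine (Finset.sum_le_sum e').trans ?_
    rw [e, Finset.sum_add_distrib, Finset.sum_const, nsmul_eq_mul]
    have eq : (G.H.card : ℝ) = G.Q := rfl
    rw [eq]
    linarith

theorem WW_nonneg (hκ : 0 < κ) (hΛ : 1 ≤ Λ) (h100 : 100 ≤ √(Λ / κ)) : 0 ≤ G.WW κ Λ := by
  by_cases h : G.E ≤ 2000 * √(Λ / κ)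
  · have e : G.WW κ Λ = G.W2 κ Λ := if_pos h
    rw [e]
    have := WGlue_ZZ0 (G := G)
    exact le_min zero_le_one (by positivity)
  · have e : G.WW κ Λ = G.Uf κ Λ + dW κ Λ := if_neg h
    have e2 : G.UU κ Λ = G.Uf κ Λ := if_neg h
    rw [e, ← e2]
    exact add_nonneg (UU_nonneg hκ hΛ h100) WGlue_dW

theorem WW_empty (hκ : 0 < κ) (hΛ : 1 ≤ Λ) (h100 : 100 ≤ √(Λ / κ)) (h : G.H = ∅)
    (hE : G.E ≤ bW κ Λ / 2) : 1 ≤ G.WW κ Λ := by
  have hD := stepV_DD hΛ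
  have hb0 : 0 < bW κ Λ := by
    unfold bW
    have : 0 < √(Λ / κ) := by linarith
    positivity
  by_cases h1 : G.E ≤ 2000 * √(Λ / κ)
  · have e : G.WW κ Λ = G.W2 κ Λ := if_pos h1
    rw [e]
    refine le_min le_rfl ?_
    rw [G.Psi_empty h hD, le_div_iff₀ (by positivity), one_mul]
    have a1 : bW κ Λ / 2 ≤ max (bW κ Λ - G.E) 0 := le_trans (by linarith) (le_max_left _ _)
    have a2 := pow_le_pow_left₀ (by positivity) a1 2
    have := WGlue_ZZ0 (G := G)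
    linarith
  · have e : G.WW κ Λ = G.Uf κ Λ + dW κ Λ := if_neg h1
    have e2 : G.UU κ Λ = G.Uf κ Λ := if_neg h1
    rw [e, ← e2, UU_empty hκ hΛ h100 h (not_le.1 h1)]
    exact le_add_of_nonneg_right WGlue_dW

end L3

end Vale.Agent.P046
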