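import Vale.Agent.P046.WDefs

namespace Vale.Agent.P046

namespace L3

variable {α : Type} [DecidableEq α] (G : L3 α)

theorem wj_sum_dd (T : Finset α) : ∑ e ∈ G.V \ T, G.dd T e ≤ 3 * G.NN T := by
  have h1 : ∑ e ∈ G.V \ T, G.dd T e =
      ∑ T' ∈ G.H.filter (fun T' => ¬ Disjoint T' T), ((G.V \ T).filter fun e => e ∈ T').card := by
    simp only [dd, Finset.card_filter, Finset.sum_filter]
    rw [Finset.sum_comm]
    refine Finset.sum_congr rfl fun T' _ => ?_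
    by_cases hd : Disjoint T' T
    · simp [hd]
    · simp [hd]
  rw [h1, NN, mul_comm, ← smul_eq_mul, ← Finset.sum_const]
  refine Finset.sum_le_sum fun T' hT' => ?_
  rw [← G.card3 T' (Finset.mem_filter.1 hT').1]
  exact Finset.card_le_card fun e he => (Finset.mem_filter.1 he).2

theorem wj_newI (T : Finset α) : (G.newI T).card ≤ ∑ e ∈ G.V \ T, 2 * G.dd T e := by
  have h1 : G.newI T ⊆ (G.V \ T).biUnion fun e =>
      G.H.filter fun T' => e ∈ T' ∧ G.deg e ≤ 2 * G.dd T e := by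
    intro T' hT'
    obtain ⟨a1, a2, a3, a4⟩ := Finset.mem_filter.1 hT'
    have : ∃ e ∈ T', G.deg e ≠ 1 := by
      by_contra hn
      refine a3 (Finset.mem_filter.2 ⟨a1, fun e he => ?_⟩)
      by_contra hc
      exact hn ⟨e, he, hc⟩
    obtain ⟨e, he, hne⟩ := this
    have a5 := a4 e he
    refine Finset.mem_biUnion.2 ⟨e, Finset.mem_sdiff.2 ⟨G.sub _ a1 he,
      Finset.disjoint_left.1 a2 he⟩, Finset.mem_filter.2 ⟨a1, he, by omega⟩⟩
  refine (Finset.card_le_card h1).trans (Finset.card_biUnion_le.trans ?_)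
  refine Finset.sum_le_sum fun e _ => ?_
  by_cases hc : G.deg e ≤ 2 * G.dd T e
  · refine le_trans (Finset.card_le_card fun T' hT' => ?_) hc
    exact Finset.mem_filter.2 ⟨(Finset.mem_filter.1 hT').1, (Finset.mem_filter.1 hT').2.1⟩
  · rw [Finset.filter_false_of_mem fun T' _ hh => hc hh.2]
    simp

theorem wj_g0_nonneg {γ : ℝ} (h0 : 0 ≤ γ) (y : ℕ) : 0 ≤ g0 γ y := by
  unfold g0
  split_ifs
  · norm_num
  · positivity

theorem wj_g0_le_one {γ : ℝ} (h0 : 0 ≤ γ) (h1 : γ ≤ 1) (y : ℕ) : g0 γ y ≤ 1 := by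
  rcases Nat.eq_zero_or_pos y with rfl | hy
  · rw [LStep.g0_zero]
  · exact (LStep.g0_le h0 hy).trans h1

theorem abs_dT {D : ℝ} (hD : 1 ≤ D) {T : Finset α} (h : T ∈ G.H) :
    |G.dT D T| ≤ 10 * ∑ e ∈ T, (G.deg e : ℝ) := by
  have hD0 : 0 < D := by linarith
  have g1 : 0 ≤ 1 / (16 * D) := by positivity
  have g2 : 1 / (16 * D) ≤ 1 / 16 := by
    apply one_div_le_one_div_of_le <;> linarith
  have g3 : 54 / (16 * D) = 54 * (1 / (16 * D)) := by ring
  have g4 : 3 / (16 * D) = 3 * (1 / (16 * D)) := by ring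
  have hS : (3 : ℝ) ≤ ∑ e ∈ T, (G.deg e : ℝ) := by
    have : ∑ _e ∈ T, (1 : ℝ) ≤ ∑ e ∈ T, (G.deg e : ℝ) :=
      Finset.sum_le_sum fun e he => by exact_mod_cast G.deg_pos h he
    simpa [G.card3 T h] using this
  have A1 : ∑ e ∈ T, (g0 (1 / (16 * D)) (G.deg e) - 54 / (16 * D) * max (G.deg e - D) 0) ≤
      ∑ e ∈ T, (G.deg e : ℝ) := by
    refine Finset.sum_le_sum fun e he => ?_
    have d1 : (1 : ℝ) ≤ G.deg e := by exact_mod_cast G.deg_pos h he
    have a1 := LStep.g0_le g1 (G.deg_pos h he)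
    have a2 : 0 ≤ 54 / (16 * D) * max ((G.deg e : ℝ) - D) 0 :=
      mul_nonneg (by positivity) (le_max_right _ _)
    linarith
  have A2 : ∑ e ∈ T, (-4 * (G.deg e : ℝ)) ≤
      ∑ e ∈ T, (g0 (1 / (16 * D)) (G.deg e) - 54 / (16 * D) * max (G.deg e - D) 0) := by
    refine Finset.sum_le_sum fun e he => ?_
    have d0 : (0 : ℝ) ≤ G.deg e := Nat.cast_nonneg _
    have a1 := wj_g0_nonneg g1 (G.deg e)
    have a2 : 54 / (16 * D) * max ((G.deg e : ℝ) - D) 0 ≤ 4 * G.deg e :=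
      mul_le_mul (by linarith) (max_le (by linarith) d0) (le_max_right _ _) (by norm_num)
    linarith
  rw [← Finset.mul_sum] at A2
  have hdd : ∑ e ∈ G.V \ T, (G.dd T e : ℝ) ≤ 3 * ∑ e ∈ T, (G.deg e : ℝ) := by
    have a1 : ∑ e ∈ G.V \ T, (G.dd T e : ℝ) ≤ 3 * (G.NN T : ℝ) := by
      exact_mod_cast G.wj_sum_dd T
    rw [G.NN_eq h] at a1
    linarith
  have B1 : 0 ≤ ∑ e ∈ G.V \ T,
      (g0 (1 / (16 * D)) (G.deg e - 1) - g0 (1 / (16 * D)) (G.deg e)) * G.dd T e := by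
    refine Finset.sum_nonneg fun e _ => mul_nonneg ?_ (Nat.cast_nonneg _)
    rcases Nat.eq_zero_or_pos (G.deg e) with h0 | h0
    · rw [h0]
      simp
    · exact LStep.diff_nonneg g1 (by linarith) h0
  have B2 : ∑ e ∈ G.V \ T,
      (g0 (1 / (16 * D)) (G.deg e - 1) - g0 (1 / (16 * D)) (G.deg e)) * G.dd T e ≤
      ∑ e ∈ G.V \ T, (G.dd T e : ℝ) := by
    refine Finset.sum_le_sum fun e _ => mul_le_of_le_one_left (Nat.cast_nonneg _) ?_
    have a1 := wj_g0_le_one g1 (by linarith) (G.deg e - 1)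
    have a2 := wj_g0_nonneg g1 (G.deg e)
    linarith
  have C1 : ((G.newI T).card : ℝ) ≤ 2 * ∑ e ∈ G.V \ T, (G.dd T e : ℝ) := by
    rw [Finset.mul_sum]
    exact_mod_cast G.wj_newI T
  have C0 : (0 : ℝ) ≤ (G.newI T).card := Nat.cast_nonneg _
  have C2 : (0 : ℝ) ≤ (if T ∈ G.isoS then 1 else 0) ∧ (if T ∈ G.isoS then (1 : ℝ) else 0) ≤ 1 := by
    split_ifs <;> norm_num
  have C3 : |3 / (16 * D) * ((G.newI T).card - if T ∈ G.isoS then (1 : ℝ) else 0)| ≤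
      3 / 16 * (6 * ∑ e ∈ T, (G.deg e : ℝ)) := by
    rw [abs_mul, abs_of_nonneg (by positivity)]
    refine mul_le_mul (by linarith) (abs_le.2 ⟨?_, ?_⟩) (abs_nonneg _) (by norm_num) <;>
      linarith [C2.1, C2.2]
  rw [abs_le] at C3
  unfold dT
  rw [abs_le]
  constructor <;> linarith [C3.1, C3.2]

end L3

end Vale.Agent.P046
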