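import Vale.Agent.P046.WGlue
import Vale.Agent.P046.Lower

namespace Vale.Agent.P046

namespace WLower

theorem ev_pow (k : ℕ) {A : ℝ} (hA : 0 < A) :
    ∀ᶠ n : ℕ in Filter.atTop, A * Real.log n ^ k ≤ n := by
  have h := (Real.isLittleO_pow_log_id_atTop (n := k)).bound (c := 1 / A) (by positivity)
  have h2 := tendsto_natCast_atTop_atTop (R := ℝ) |>.eventually h
  filter_upwards [h2] with n h3
  simp only [id, Real.norm_eq_abs, Nat.abs_cast] at h3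
  have h4 := (le_abs_self _).trans h3
  rw [one_div, inv_mul_eq_div, le_div_iff₀ hA] at h4
  linarith

theorem DD_le {Λ : ℝ} (hΛ1 : 1 ≤ Λ) : L3.DD Λ ≤ 28 * 10 ^ 15 * Λ ^ 3 := by
  have h1 : Λ ≤ Λ ^ 3 := le_self_pow₀ hΛ1 (by norm_num)
  rw [L3.DD]
  linarith

theorem bW_ge {κ Λ : ℝ} (hΛ1 : 1 ≤ Λ) :
    1000 * √(Λ / κ) / (128 * (28 * 10 ^ 15 * Λ ^ 3) * (4 * 10 ^ 6 * Λ)) ≤ L3.bW κ Λ := by
  have hDD := DD_le hΛ1
  have hDD0 : 0 < L3.DD Λ := by rw [L3.DD]; positivity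
  rw [L3.bW]
  gcongr

theorem dW_le {κ Λ x : ℝ} (hΛ1 : 1 ≤ Λ) (hx : 0 < x) (hxR : x ≤ √(Λ / κ)) :
    L3.dW κ Λ ≤ 10 ^ 66 * Λ ^ 10 / x := by
  have h := bW_ge (κ := κ) hΛ1
  rw [L3.dW]
  generalize L3.bW κ Λ = b at h
  generalize √(Λ / κ) = R at h hxR
  have hR : 0 < R := hx.trans_le hxR
  calc _ ≤ 300 * (3 * (4 * 10 ^ 6 * Λ) ^ 2 * (2000 * R)) /
        (1000 * R / (128 * (28 * 10 ^ 15 * Λ ^ 3) * (4 * 10 ^ 6 * Λ)) / 2) ^ 2 := by gcongr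
    _ = 300 * 3 * (4 * 10 ^ 6) ^ 2 * 2000 * (128 * (28 * 10 ^ 15) * (4 * 10 ^ 6)) ^ 2 / 500 ^ 2 *
        Λ ^ 10 / R := by field_simp; ring
    _ ≤ _ := by
        gcongr
        norm_num

end WLower

theorem lower_tail {ε : ℝ} (hε : 0 < ε) : ∃ c : ℝ, 0 < c ∧ ∀ᶠ n : ℕ in Filter.atTop,
    ((law n).toOuterMeasure
      {j | (j : ℝ) ≤ c * (n : ℝ) ^ (3 / 2 : ℝ) / Real.log n ^ (7 / 2 : ℝ)}).toReal ≤ ε := by
  obtain ⟨M, hM1, hMε⟩ : ∃ M : ℝ, 1 ≤ M ∧ 8000 ≤ M * ε := by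
    refine ⟨8000 / ε + 1, ?_, ?_⟩
    · have : 0 < 8000 / ε := by positivity
      linarith
    · rw [add_mul, div_mul_cancel₀ _ hε.ne']
      linarith
  have hM0 : 0 < M := by linarith
  refine ⟨250 / (128 * (28 * 10 ^ 15) * (4 * 10 ^ 6) * M ^ 4), by positivity, ?_⟩
  filter_upwards [WLower.ev_pow 1 (show 0 < 8 * 10 ^ 6 * M by positivity),
    WLower.ev_pow 10 (show 0 < 2 * 10 ^ 66 * M ^ 10 / ε by positivity),
    Filter.eventually_ge_atTop 100] with n hev1 hev2 hn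
  have hev : 4 * 10 ^ 6 * (M * Real.log n) < n - 2 := by
    have : (100 : ℝ) ≤ n := by exact_mod_cast hn
    rw [pow_one] at hev1
    linarith
  have hn' : (100 : ℝ) ≤ n := by exact_mod_cast hn
  have hlog := upper_log hn
  set E0 : ℝ := (toL3 (⊤ : SimpleGraph (Fin n))).E with hE0
  have hE0v : E0 = n * (n - 1) / 2 := toL3_top_E
  have hE01 : 1 ≤ E0 := by rw [hE0v]; nlinarith
  have hE0p : 0 < E0 := by linarith
  set D : ℝ := n - 2 with hD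
  have hDp : 0 < D := by rw [hD]; linarith
  set κ : ℝ := D / E0 ^ 2 with hκ
  have hκp : 0 < κ := by positivity
  set Λ : ℝ := M * Real.log n with hΛ
  have hΛl : Real.log n ≤ Λ := by rw [hΛ]; nlinarith
  have hΛ1 : 1 ≤ Λ := by linarith
  have hq : Λ / κ = Λ * (E0 ^ 2 / D) := by rw [hκ]; field_simp
  have hq1 : (n : ℝ) ^ 3 / 4 ≤ E0 ^ 2 / D := by
    rw [le_div_iff₀ hDp, hE0v, hD]
    have : (n : ℝ) * (n - 2) ≤ (n - 1) ^ 2 := by nlinarith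
    calc (n : ℝ) ^ 3 / 4 * (n - 2) = (n : ℝ) ^ 2 / 4 * (n * (n - 2)) := by ring
      _ ≤ (n : ℝ) ^ 2 / 4 * ((n - 1) ^ 2) := by gcongr
      _ = _ := by ring
  have hnR : (n : ℝ) ≤ √(Λ / κ) := by
    apply Real.le_sqrt_of_sq_le
    rw [hq]
    have h1 : (n : ℝ) ^ 2 ≤ (n : ℝ) ^ 3 / 4 := by
      have := mul_le_mul_of_nonneg_left hn' (sq_nonneg (n : ℝ))
      nlinarith [sq_nonneg (n : ℝ)]
    have : 0 ≤ E0 ^ 2 / D := by positivity
    nlinarith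
  have h100 : 100 ≤ √(Λ / κ) := hn'.trans hnR
  have hR : 2000 * √(Λ / κ) < E0 := by
    have : √(Λ / κ) < E0 / 2000 := by
      rw [Real.sqrt_lt' (by positivity), hq, ← mul_div_assoc, div_lt_iff₀ hDp]
      have := mul_lt_mul_of_pos_left hev (show 0 < E0 ^ 2 by positivity)
      linarith
    linarith
  have hb : 250 / (128 * (28 * 10 ^ 15) * (4 * 10 ^ 6) * M ^ 4) * (n : ℝ) ^ (3 / 2 : ℝ) /
      Real.log n ^ (7 / 2 : ℝ) ≤ L3.bW κ Λ / 2 := by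
    obtain ⟨q, hq0, hqq⟩ : ∃ q : ℝ, 0 < q ∧ Real.log n = q ^ 2 :=
      ⟨√(Real.log n), Real.sqrt_pos.2 (by linarith), (Real.sq_sqrt (by linarith)).symm⟩
    have h7 : Real.log n ^ (7 / 2 : ℝ) = q ^ 7 := by
      rw [hqq, ← Real.rpow_natCast, ← Real.rpow_mul hq0.le, ← Real.rpow_natCast]
      norm_num
    have hs := upper_rpow_sq n
    have hs0 : 0 ≤ (n : ℝ) ^ (3 / 2 : ℝ) := by positivity
    generalize (n : ℝ) ^ (3 / 2 : ℝ) = s at hs hs0 ⊢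
    have hRq : q * s / 2 ≤ √(Λ / κ) := by
      apply Real.le_sqrt_of_sq_le
      rw [hq, div_pow, mul_pow, hs, ← hqq]
      calc Real.log n * (n : ℝ) ^ 3 / 2 ^ 2 = Real.log n * ((n : ℝ) ^ 3 / 4) := by ring
        _ ≤ Λ * (E0 ^ 2 / D) := by gcongr
    have h1 := WLower.bW_ge (κ := κ) hΛ1
    calc _ = 1000 * (q * s / 2) / (128 * (28 * 10 ^ 15 * Λ ^ 3) * (4 * 10 ^ 6 * Λ)) / 2 := by
          rw [h7, hΛ, hqq]; field_simp; ring
      _ ≤ 1000 * √(Λ / κ) / (128 * (28 * 10 ^ 15 * Λ ^ 3) * (4 * 10 ^ 6 * Λ)) / 2 := by gcongr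
      _ ≤ _ := by linarith
  rw [law_prob]
  refine (law_le _ (fun G => G.WW κ Λ) ?_ ?_).trans ?_
  · intro G hG
    by_cases hm : G.edgeSet.ncard ∈ {j : ℕ | (j : ℝ) ≤
        250 / (128 * (28 * 10 ^ 15) * (4 * 10 ^ 6) * M ^ 4) * (n : ℝ) ^ (3 / 2 : ℝ) /
          Real.log n ^ (7 / 2 : ℝ)}
    · rw [Set.indicator_of_mem hm]
      exact L3.WW_empty (G := toL3 G) hκp hΛ1 h100 hG (by rw [toL3_E]; exact le_trans hm hb)
    · rw [Set.indicator_of_notMem hm]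
      exact L3.WW_nonneg hκp hΛ1 h100
  · intro G
    exact L3.stepWW (G := toL3 G) (n := n) hκp hΛ1 h100 hnR (by
      have h1 : (toL3 G).E ≤ E0 := toL3_E_le G
      have h2 : 0 ≤ (toL3 G).E := by rw [toL3_E]; positivity
      calc κ * (toL3 G).E ^ 2 ≤ κ * E0 ^ 2 := by gcongr
        _ = D := by rw [hκ]; field_simp
        _ ≤ n := by rw [hD]; linarith) (fun e => by exact_mod_cast toL3_deg_le G e) (toL3_tri G)
  have hU : (toL3 (⊤ : SimpleGraph (Fin n))).Uf κ Λ ≤ ε / 2 := by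
    have h1 := L3.UU_reg (G := toL3 (⊤ : SimpleGraph (Fin n))) hΛ1 hDp hE01 toL3_top_deg
    rw [L3.UU, if_neg (not_le.2 hR)] at h1
    refine le_trans h1 ?_
    have hl : Real.log E0 ≤ 2 * Real.log n := by
      have : E0 ≤ (n : ℝ) ^ 2 := by rw [hE0v]; nlinarith
      calc Real.log E0 ≤ Real.log ((n : ℝ) ^ 2) := Real.log_le_log hE0p this
        _ = _ := by rw [Real.log_pow]; norm_num
    change 2000 * Real.log E0 / Λ ≤ _
    rw [div_le_iff₀ (by linarith), hΛ]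
    have := mul_le_mul_of_nonneg_right hMε (show 0 ≤ Real.log n by linarith)
    linarith
  have hd : L3.dW κ Λ ≤ ε / 2 := by
    refine (WLower.dW_le hΛ1 (by linarith) hnR).trans ?_
    rw [div_le_iff₀ (by linarith), hΛ, mul_pow]
    rw [div_mul_eq_mul_div, div_le_iff₀ hε] at hev2
    linarith
  beta_reduce
  rw [L3.WW, if_neg (not_le.2 hR)]
  linarith

end Vale.Agent.P046
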