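import Vale.Agent.P046.WJump

namespace Vale.Agent.P046

namespace L3

variable {α : Type} [DecidableEq α] (G : L3 α)

theorem ZZ_rem {T : Finset α} (h : T ∈ G.H) :
    (G.rem T).ZZ + ∑ e ∈ T, (G.deg e : ℝ) ^ 2 ≤ G.ZZ := by
  unfold ZZ
  rw [← Finset.sum_sdiff (G.sub T h)]
  refine add_le_add (Finset.sum_le_sum fun e _ => ?_) le_rfl
  rw [G.LStep_rem_deg]
  exact pow_le_pow_left₀ (Nat.cast_nonneg _) (Nat.cast_le.2 (Nat.sub_le _ _)) 2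

theorem WStep_pt (b x d y : ℝ) (h : x + d ≤ y) :
    max (b - y) 0 ^ 2 ≤ max (b - x) 0 ^ 2 - 2 * max (b - x) 0 * d + d ^ 2 := by
  have h1 : max (b - y) 0 ≤ |max (b - x) 0 - d| :=
    max_le (le_trans (by linarith [le_max_left (b - x) 0]) (le_abs_self _)) (abs_nonneg _)
  have h2 := pow_le_pow_left₀ (le_max_right _ _) h1 2
  rw [sq_abs] at h2
  linarith

theorem stepW2 {κ Λ : ℝ} (hΛ : 1 ≤ Λ) (hT : G.Tri) :
    ∑ T ∈ G.H, (G.rem T).W2 κ Λ ≤ G.Q * G.W2 κ Λ := by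
  have hD := stepV_DD hΛ
  have hQ : (G.H.card : ℝ) = G.Q := rfl
  have h1 : ∑ T ∈ G.H, (G.rem T).W2 κ Λ ≤ G.Q * 1 := by
    refine (Finset.sum_le_sum fun T _ => min_le_left _ _).trans ?_
    rw [Finset.sum_const, nsmul_eq_mul, hQ]
  have h2 : ∀ T ∈ G.H, max (bW κ Λ - (G.rem T).Psi (DD Λ)) 0 ^ 2 + 300 * (G.rem T).ZZ ≤
      max (bW κ Λ - G.Psi (DD Λ)) 0 ^ 2 + 300 * G.ZZ -
        2 * max (bW κ Λ - G.Psi (DD Λ)) 0 * G.dT (DD Λ) T := by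
    intro T h
    have a1 := WStep_pt (bW κ Λ) _ _ _ (G.dT_le hD h)
    have a2 := pow_le_pow_left₀ (abs_nonneg _) (G.abs_dT hD h) 2
    have a3 := sq_sum_le_card_mul_sum_sq (s := T) (f := fun e => (G.deg e : ℝ))
    have a4 := G.ZZ_rem h
    rw [sq_abs, mul_pow] at a2
    rw [G.card3 T h] at a3
    push_cast at a3
    linarith
  have h3 : ∑ T ∈ G.H, (G.rem T).W2 κ Λ ≤
      G.Q * ((max (bW κ Λ - G.Psi (DD Λ)) 0 ^ 2 + 300 * G.ZZ) / (bW κ Λ / 2) ^ 2) := by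
    refine (Finset.sum_le_sum fun T _ => min_le_right _ _).trans ?_
    rw [← Finset.sum_div, ← mul_div_assoc]
    refine div_le_div_of_nonneg_right ((Finset.sum_le_sum h2).trans ?_) (sq_nonneg _)
    rw [Finset.sum_sub_distrib, Finset.sum_const, nsmul_eq_mul, hQ, ← Finset.mul_sum]
    have := mul_nonneg (le_max_right (bW κ Λ - G.Psi (DD Λ)) 0) (G.sum_dT hT hD)
    linarith
  unfold W2 at h1 h3 ⊢
  rcases min_choice 1 ((max (bW κ Λ - G.Psi (DD Λ)) 0 ^ 2 + 300 * G.ZZ) / (bW κ Λ / 2) ^ 2)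
    with h | h <;> rw [h]
  · exact h1
  · exact h3

end L3

end Vale.Agent.P046
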